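import Vale.Agent.P097.H330.Step

/-! P097, endgame (Case III), part 7: the core theorem. -/

namespace Vale.Agent.P097.H330

open Complex Metric Set Real MeasureTheory Filter Topology

variable {f h : ℂ → ℂ → ℂ} {c₀ w₀ : ℂ} {ρ₀ : ℝ}

/-- a periodic entire function of polynomial growth in the imaginary direction is constant -/
theorem const_of_periodic_growth (y₀ : ℝ) (m : ℕ) : ∀ g : ℂ → ℂ, Differentiable ℂ g →
    (∀ u, g (u + 1) = g u) → ∀ C : ℝ, 0 ≤ C → (∀ u, ‖g u‖ ≤ C * (2 + |u.im - y₀|) ^ m) →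
    ∀ u v, g u = g v := by
  induction m with
  | zero =>
    intro g hg _ C _ hC u v
    refine hg.apply_eq_apply_of_bounded ?_ u v
    rw [isBounded_iff_forall_norm_le]
    refine ⟨C, ?_⟩
    rintro _ ⟨x, rfl⟩
    simpa using hC x
  | succ m ih =>
    intro g hg hp C hC0 hC
    have hg' : Differentiable ℂ (deriv g) := fun u => (hg.analyticAt u).deriv.differentiableAt
    have hp' : ∀ u, deriv g (u + 1) = deriv g u := by
      intro u
      have e : (fun x => g (x + 1)) = g := by ext x; exact hp x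
      have := deriv_comp_add_const g 1 u
      rw [e] at this
      exact this.symm
    have hgr : ∀ u, ‖deriv g u‖ ≤ (C * 2 ^ (m + 1)) * (2 + |u.im - y₀|) ^ m := by
      intro u
      set r : ℝ := 2 + |u.im - y₀| with hr
      have hr0 : 0 < r := by positivity
      have := norm_deriv_le_of_ball (F := g) (z := u) (C := C * (2 * r) ^ (m + 1)) hr0
        (fun w _ => hg w) (fun w hw => ?_)
      · refine this.trans (le_of_eq ?_)
        rw [mul_pow]; field_simp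
        ring
      · refine (hC w).trans ?_
        gcongr
        have := im_sub_le hw y₀
        linarith
    have hconst := ih (deriv g) hg' hp' _ (by positivity) hgr
    set a := deriv g 0 with ha
    have hlin : ∀ u, g u = g 0 + a * u := by
      have hk : ∀ u, HasDerivAt (fun u => g u - a * u) 0 u := by
        intro u
        have h1 : HasDerivAt g (deriv g u) u := (hg u).hasDerivAt
        have h2 : HasDerivAt (fun u => a * u) a u := by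
          simpa using (hasDerivAt_id u).const_mul a
        have h3 := h1.sub h2
        rw [hconst u 0, ← ha, sub_self] at h3
        exact h3
      intro u
      have := is_const_of_deriv_eq_zero (f := fun u => g u - a * u)
        (fun u => (hk u).differentiableAt) (fun u => (hk u).deriv) u 0
      simp only [mul_zero, sub_zero] at this
      linear_combination this
    have ha0 : a = 0 := by
      have h1 := hp 0
      rw [zero_add, hlin 1, mul_one] at h1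
      simpa using h1
    intro u v
    rw [hlin u, hlin v, ha0]
    ring

theorem exists_low {X : Type*} [TopologicalSpace X] {K : Set X} (hK : IsCompact K) {F : X → ℂ}
    (hF : ContinuousOn F K) (h0 : ∀ x ∈ K, F x ≠ 0) :
    ∃ b : ℝ, 0 ≤ b ∧ ∀ x ∈ K, Real.exp (-b) ≤ ‖F x‖ := by
  obtain ⟨B, hB⟩ := hK.exists_bound_of_continuousOn (hF.inv₀ h0)
  refine ⟨|B|, abs_nonneg B, fun x hx => ?_⟩
  have h1 := hB x hx
  rw [Pi.inv_apply, norm_inv] at h1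
  have h2 : ‖F x‖⁻¹ ≤ Real.exp |B| :=
    h1.trans ((le_abs_self B).trans (by linarith [Real.add_one_le_exp |B|]))
  rw [Real.exp_neg]
  exact (inv_le_comm₀ (norm_pos_iff.2 (h0 x hx)) (Real.exp_pos _)).1 h2

/-- the iteration -/
theorem Dat.poly (D : Dat f h c₀ w₀ ρ₀) {ρ₁ y₀ C : ℝ} (hρ1 : 0 < ρ₁) (hρ1' : ρ₁ ≤ 1)
    (hρ : ρ₁ < ρ₀) (hC : 1 ≤ C)
    (hstep : ∀ y κ ρ M : ℝ, 1 ≤ y → 0 < κ → κ ≤ 1 → ρ + κ ≤ ρ₁ → 1 ≤ M →
      (∀ u w, |u.im - y₀| ≤ y + 4 * κ → w ∈ closedBall w₀ (ρ + κ) → ‖dif f u w‖ ≤ M) →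
      ∀ u w, |u.im - y₀| ≤ y → w ∈ closedBall w₀ ρ →
        ‖dif f u w‖ ≤ C * ((y / κ) ^ 3 * (1 + Real.log M)))
    {y₁ : ℝ} (hy₁ : 1 ≤ y₁) : ∀ u : ℂ, |u.im - y₀| ≤ y₁ →
      ‖dif f u w₀‖ ≤ 64 * (C * ((y₁ + 1) * (8 / ρ₁)) ^ 3) ^ 2 := by
  set T : ℝ := C * ((y₁ + 1) * (8 / ρ₁)) ^ 3 with hT
  have h8 : 8 ≤ 8 / ρ₁ := by
    rw [le_div_iff₀ hρ1]; linarith
  have hT1 : 1 ≤ T := by
    have h1 : 1 ≤ (y₁ + 1) * (8 / ρ₁) := by nlinarith
    have h2 : 1 ≤ ((y₁ + 1) * (8 / ρ₁)) ^ 3 := one_le_pow₀ h1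
    nlinarith
  set q : ℕ → ℝ := fun n => (1 / 2 : ℝ) ^ n with hq
  have hq0 : ∀ n, 0 < q n := fun n => by positivity
  have hq1 : ∀ n, q n ≤ 1 := fun n => pow_le_one₀ (by norm_num) (by norm_num)
  have hqs : ∀ n, q (n + 1) = q n / 2 := fun n => by simp only [hq]; rw [pow_succ]; ring
  set P : ℕ → Prop := fun n => ∀ u w : ℂ, |u.im - y₀| ≤ y₁ + ρ₁ * (1 - q n) →
    w ∈ closedBall w₀ (ρ₁ / 4 * (1 - q n)) → ‖dif f u w‖ ≤ 64 * T ^ 2 * 64 ^ n with hP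
  have hback : ∀ n, P (n + 1) → P n := by
    intro n hn u w hu hw
    set κ : ℝ := ρ₁ / 8 * q n with hκ
    have hκ0 : 0 < κ := by have := hq0 n; positivity
    have hκ1 : κ ≤ 1 := by
      have := hq1 n
      have h2 := hq0 n
      rw [hκ]; nlinarith
    set y : ℝ := y₁ + ρ₁ * (1 - q n) with hy
    have hy1 : 1 ≤ y := by
      have := hq1 n
      rw [hy]; nlinarith
    have hyy : y ≤ y₁ + 1 := by
      have := hq0 n
      rw [hy]; nlinarith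
    have hM1 : (1 : ℝ) ≤ 64 * T ^ 2 * 64 ^ (n + 1) := by
      have h1 : (1 : ℝ) ≤ 64 ^ (n + 1) := one_le_pow₀ (by norm_num)
      have h2 : (1 : ℝ) ≤ T ^ 2 := one_le_pow₀ hT1
      nlinarith
    have h1 := hstep y κ (ρ₁ / 4 * (1 - q n)) (64 * T ^ 2 * 64 ^ (n + 1)) hy1 hκ0 hκ1 ?_ hM1
      ?_ u w hu hw
    · refine h1.trans ?_
      have e1 : y / κ ≤ (y₁ + 1) * (8 / ρ₁) * 2 ^ n := by
        rw [div_le_iff₀ hκ0, hκ]
        have : (y₁ + 1) * (8 / ρ₁) * 2 ^ n * (ρ₁ / 8 * q n) = (y₁ + 1) * (2 ^ n * q n) := by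
          field_simp
        rw [this]
        have h2 : (2 : ℝ) ^ n * q n = 1 := by
          simp only [hq]; rw [← mul_pow]; norm_num
        rw [h2]; linarith
      have hyκ : 0 ≤ y / κ := by positivity
      have hlog0 : 0 ≤ Real.log (64 * T ^ 2 * 64 ^ (n + 1)) := Real.log_nonneg hM1
      have e2 : (y / κ) ^ 3 ≤ ((y₁ + 1) * (8 / ρ₁)) ^ 3 * 8 ^ n := by
        calc (y / κ) ^ 3 ≤ ((y₁ + 1) * (8 / ρ₁) * 2 ^ n) ^ 3 := by gcongr
          _ = ((y₁ + 1) * (8 / ρ₁)) ^ 3 * 8 ^ n := by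
            rw [mul_pow, ← pow_mul, mul_comm n 3, pow_mul]; norm_num
      have e3 : Real.log (64 * T ^ 2 * 64 ^ (n + 1)) ≤ 2 * (T - 1) + 6 * (n + 2) := by
        have hTp : 0 < T := by linarith
        rw [Real.log_mul (by positivity) (by positivity), Real.log_mul (by norm_num) (by positivity),
          Real.log_pow, Real.log_pow]
        have h64 : Real.log 64 ≤ 6 := by
          have : (64 : ℝ) = 2 ^ 6 := by norm_num
          rw [this, Real.log_pow]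
          have := Real.log_le_sub_one_of_pos (x := 2) (by norm_num)
          push_cast
          linarith
        have hlT := Real.log_le_sub_one_of_pos (x := T) hTp
        have hn0 : (0 : ℝ) ≤ n := Nat.cast_nonneg n
        push_cast
        nlinarith
      have e4 : (1 : ℝ) + 7 * n ≤ 8 ^ n := by
        have := one_add_mul_le_pow (a := (7 : ℝ)) (by norm_num) n
        norm_num at this
        linarith
      have e5 : 1 + Real.log (64 * T ^ 2 * 64 ^ (n + 1)) ≤ 64 * T * 8 ^ n := by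
        have hn0 : (0 : ℝ) ≤ n := Nat.cast_nonneg n
        have h3 : 64 * T * (1 + 7 * n) ≤ 64 * T * 8 ^ n := by gcongr
        nlinarith
      calc C * ((y / κ) ^ 3 * (1 + Real.log (64 * T ^ 2 * 64 ^ (n + 1))))
          ≤ C * ((((y₁ + 1) * (8 / ρ₁)) ^ 3 * 8 ^ n) * (64 * T * 8 ^ n)) := by gcongr
        _ = 64 * T ^ 2 * (8 ^ n * 8 ^ n) := by rw [hT]; ring
        _ = 64 * T ^ 2 * 64 ^ n := by rw [← mul_pow]; norm_num
    · have h2 := hq0 n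
      rw [hκ]
      nlinarith
    · intro u' w' hu' hw'
      refine hn u' w' ?_ ?_
      · refine hu'.trans (le_of_eq ?_)
        rw [hqs, hκ, hy]; ring
      · refine closedBall_subset_closedBall (le_of_eq ?_) hw'
        rw [hqs, hκ]; ring
  have h0 : P 0 := by
    obtain ⟨M, hM⟩ := D.strip_bound hρ y₀ (y₁ + 1)
    obtain ⟨N, hN⟩ := pow_unbounded_of_one_lt M (show (1 : ℝ) < 64 by norm_num)
    have hPN : P N := by
      intro u w hu hw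
      have h2 := hq0 N
      have h3 := hq1 N
      refine (hM u w (hu.trans ?_) (closedBall_subset_closedBall ?_ hw)).trans ?_
      · nlinarith
      · nlinarith
      · have : (1 : ℝ) ≤ T ^ 2 := one_le_pow₀ hT1
        have h4 : (0 : ℝ) < 64 ^ N := by positivity
        nlinarith
    have hall : ∀ k, k ≤ N → P (N - k) := by
      intro k
      induction k with
      | zero => intro _; simpa using hPN
      | succ k ih =>
        intro hk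
        have h1 := ih (by omega)
        have h2 : N - k = (N - (k + 1)) + 1 := by omega
        rw [h2] at h1
        exact hback _ h1
    have := hall N le_rfl
    simpa using this
  intro u hu
  have h1 := h0 u w₀ (by simp [hq]; exact hu) (by simp [hq])
  simpa using h1


/-- a horizontal segment avoiding a discrete set -/
theorem exists_line {S : Set ℂ} (hS : S ∈ codiscrete ℂ) :
    ∃ y₀ : ℝ, ∀ x : ℝ, 0 ≤ x → x ≤ 1 → (x : ℂ) + y₀ * I ∈ S := by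
  rw [mem_codiscrete'] at hS
  obtain ⟨hop, hdisc⟩ := hS
  set K : Set ℂ := (Icc (0 : ℝ) 1) ×ℂ (Icc (0 : ℝ) 1) with hK
  have hKc : IsCompact K := isCompact_Icc.reProdIm isCompact_Icc
  have hfin : (Sᶜ ∩ K).Finite := by
    have h1 : IsCompact (Sᶜ ∩ K) := hKc.inter_left hop.isClosed_compl
    exact h1.finite (hdisc.mono inter_subset_left)
  have hfin2 : (Complex.im '' (Sᶜ ∩ K)).Finite := hfin.image _
  have hinf : (Icc (0 : ℝ) 1).Infinite := Set.Icc_infinite (by norm_num)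
  obtain ⟨y₀, hy, hy'⟩ := (hinf.sdiff hfin2).nonempty
  refine ⟨y₀, fun x hx0 hx1 => ?_⟩
  by_contra hc
  refine hy' ⟨(x : ℂ) + y₀ * I, ⟨hc, ?_⟩, by simp⟩
  rw [hK, Complex.mem_reProdIm]
  simp [hx0, hx1, hy.1, hy.2]

theorem codiscrete_of_ne {g : ℂ → ℂ} (hg : Differentiable ℂ g) {x : ℂ} (hx : g x ≠ 0) :
    {z | g z ≠ 0} ∈ codiscrete ℂ :=
  AnalyticOnNhd.preimage_zero_mem_codiscrete (fun z _ => hg.analyticAt z) hx

theorem Dat.exists_sin_ne (D : Dat f h c₀ w₀ ρ₀) (hd1 : ∃ u, deriv (fun u => dif f u w₀) u ≠ 0) :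
    ∃ u, Complex.sin (dif f u w₀) ≠ 0 := by
  have hwb : w₀ ∈ ball w₀ ρ₀ := mem_ball_self D.pos
  have hdd : Differentiable ℂ (fun u => dif f u w₀) := fun u =>
    (slice1 (D.dif_an u hwb)).differentiableAt
  by_contra h0
  push Not at h0
  obtain ⟨u, hu⟩ := hd1
  have h1 : HasDerivAt (fun u => Complex.sin (dif f u w₀))
      (Complex.cos (dif f u w₀) * deriv (fun u => dif f u w₀) u) u :=
    ((hdd u).hasDerivAt).csin
  have h2 : (fun u => Complex.sin (dif f u w₀)) = fun _ => 0 := by ext u; exact h0 u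
  have h3 := h1.deriv
  rw [h2] at h3
  simp only [deriv_const'] at h3
  have h4 : Complex.cos (dif f u w₀) = 0 := by
    rcases mul_eq_zero.1 h3.symm with h5 | h5
    · exact h5
    · exact absurd h5 hu
  have h5 := Complex.sin_sq_add_cos_sq (dif f u w₀)
  rw [h0 u, h4] at h5
  norm_num at h5

theorem cont_seg (y₀ : ℝ) (w : ℂ) (x : ℝ) :
    ContinuousAt (fun p : ℂ × ℝ => (((p.2 : ℂ) + y₀ * I, p.1) : ℂ × ℂ)) (w, x) := by
  fun_prop

theorem Dat.c1 (D : Dat f h c₀ w₀ ρ₀) (y₀ x : ℝ) {w : ℂ} (hw : w ∈ ball w₀ ρ₀) : ContinuousAt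
    (fun p : ℂ × ℝ => deriv (fun u => dif f u p.1) (p.2 + y₀ * I)) (w, x) :=
  ContinuousAt.comp (g := fun p : ℂ × ℂ => deriv (fun u => dif f u p.2) p.1)
    (f := fun p : ℂ × ℝ => (((p.2 : ℂ) + y₀ * I, p.1) : ℂ × ℂ))
    (deriv1_cont (D.dif_an (x + y₀ * I) hw)) (cont_seg y₀ w x)

theorem Dat.c2 (D : Dat f h c₀ w₀ ρ₀) (y₀ x : ℝ) {w : ℂ} (hw : w ∈ ball w₀ ρ₀) : ContinuousAt
    (fun p : ℂ × ℝ => h (p.2 + y₀ * I) p.1) (w, x) :=
  ContinuousAt.comp (g := fun p : ℂ × ℂ => h p.1 p.2)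
    (f := fun p : ℂ × ℝ => (((p.2 : ℂ) + y₀ * I, p.1) : ℂ × ℂ))
    (D.hc (x + y₀ * I) w hw) (cont_seg y₀ w x)

theorem Dat.c3 (D : Dat f h c₀ w₀ ρ₀) (y₀ x : ℝ) {w : ℂ} (hw : w ∈ ball w₀ ρ₀) : ContinuousAt
    (fun p : ℂ × ℝ => dif f (p.2 + y₀ * I) p.1) (w, x) :=
  ContinuousAt.comp (g := fun p : ℂ × ℂ => dif f p.1 p.2)
    (f := fun p : ℂ × ℝ => (((p.2 : ℂ) + y₀ * I, p.1) : ℂ × ℂ))
    (D.dif_an (x + y₀ * I) hw).continuousAt (cont_seg y₀ w x)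

theorem Dat.c4 (D : Dat f h c₀ w₀ ρ₀) (y₀ x : ℝ) {w : ℂ} (hw : w ∈ ball w₀ ρ₀) : ContinuousAt
    (fun p : ℂ × ℝ => Complex.sin (dif f (p.2 + y₀ * I) p.1)) (w, x) :=
  Complex.continuous_sin.continuousAt.comp (D.c3 y₀ x hw)

theorem Dat.exists_seg (D : Dat f h c₀ w₀ ρ₀) (hne : ∃ u, h u w₀ ≠ 0)
    (hd1 : ∃ u, deriv (fun u => dif f u w₀) u ≠ 0) :
    ∃ y₀ : ℝ, ∃ r : ℝ, 0 < r ∧ ∀ w ∈ ball w₀ r, ∀ x ∈ Icc (0 : ℝ) 1,
      deriv (fun u => dif f u w) (x + y₀ * I) ≠ 0 ∧ h (x + y₀ * I) w ≠ 0 ∧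
        Complex.sin (dif f (x + y₀ * I) w) ≠ 0 := by
  have hwb : w₀ ∈ ball w₀ ρ₀ := mem_ball_self D.pos
  have hdd : Differentiable ℂ (fun u => dif f u w₀) := fun u =>
    (slice1 (D.dif_an u hwb)).differentiableAt
  have hd' : Differentiable ℂ (deriv (fun u => dif f u w₀)) := fun u =>
    (hdd.analyticAt u).deriv.differentiableAt
  have hsd : Differentiable ℂ (fun u => Complex.sin (dif f u w₀)) :=
    Complex.differentiable_sin.comp hdd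
  obtain ⟨u3, hu3⟩ := D.exists_sin_ne hd1
  obtain ⟨u1, hu1⟩ := hd1
  obtain ⟨u2, hu2⟩ := hne
  obtain ⟨y₀, hy₀⟩ := exists_line (inter_mem (codiscrete_of_ne hd' hu1)
    (inter_mem (codiscrete_of_ne (D.hh w₀ hwb) hu2) (codiscrete_of_ne hsd hu3)))
  have hKc : IsCompact (Icc (0 : ℝ) 1) := isCompact_Icc
  have hev : ∀ᶠ w in 𝓝 w₀, ∀ x ∈ Icc (0 : ℝ) 1,
      deriv (fun u => dif f u w) (x + y₀ * I) ≠ 0 ∧ h (x + y₀ * I) w ≠ 0 ∧
        Complex.sin (dif f (x + y₀ * I) w) ≠ 0 := by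
    refine hKc.eventually_forall_of_forall_eventually (P := fun (w : ℂ) (x : ℝ) =>
      deriv (fun u => dif f u w) (x + y₀ * I) ≠ 0 ∧ h (x + y₀ * I) w ≠ 0 ∧
        Complex.sin (dif f (x + y₀ * I) w) ≠ 0) fun x hx => ?_
    obtain ⟨h1, h2, h3⟩ := hy₀ x hx.1 hx.2
    have e1 := (D.c1 y₀ x hwb).eventually_ne h1
    have e2 := (D.c2 y₀ x hwb).eventually_ne h2
    have e3 := (D.c4 y₀ x hwb).eventually_ne h3
    filter_upwards [e1, e2, e3] with p h1 h2 h3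
    exact ⟨h1, h2, h3⟩
  obtain ⟨r, hr, hrs⟩ := Metric.eventually_nhds_iff_ball.1 hev
  exact ⟨y₀, r, hr, hrs⟩

theorem low_of {ρ₁ : ℝ} {F : ℂ × ℝ → ℂ}
    (hc : ∀ w ∈ closedBall w₀ ρ₁, ∀ x ∈ Icc (0 : ℝ) 1, ContinuousAt F (w, x))
    (h0 : ∀ w ∈ closedBall w₀ ρ₁, ∀ x ∈ Icc (0 : ℝ) 1, F (w, x) ≠ 0) :
    ∃ b : ℝ, 0 ≤ b ∧ ∀ w ∈ closedBall w₀ ρ₁, ∀ x ∈ Icc (0 : ℝ) 1,
      Real.exp (-b) ≤ ‖F (w, x)‖ := by
  have hKKc : IsCompact (closedBall w₀ ρ₁ ×ˢ Icc (0 : ℝ) 1) :=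
    (isCompact_closedBall _ _).prod isCompact_Icc
  obtain ⟨b, hb, hB⟩ := exists_low hKKc (F := F)
    (fun p hp => (hc p.1 hp.1 p.2 hp.2).continuousWithinAt) fun p hp => h0 p.1 hp.1 p.2 hp.2
  exact ⟨b, hb, fun w hw x hx => hB (w, x) ⟨hw, hx⟩⟩

theorem up_of {ρ₁ : ℝ} {F : ℂ × ℝ → ℂ}
    (hc : ∀ w ∈ closedBall w₀ ρ₁, ∀ x ∈ Icc (0 : ℝ) 1, ContinuousAt F (w, x)) :
    ∃ b : ℝ, ∀ w ∈ closedBall w₀ ρ₁, ∀ x ∈ Icc (0 : ℝ) 1, ‖F (w, x)‖ ≤ b := by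
  have hKKc : IsCompact (closedBall w₀ ρ₁ ×ˢ Icc (0 : ℝ) 1) :=
    (isCompact_closedBall _ _).prod isCompact_Icc
  obtain ⟨b, hB⟩ := hKKc.exists_bound_of_continuousOn (f := F)
    (fun p hp => (hc p.1 hp.1 p.2 hp.2).continuousWithinAt)
  exact ⟨b, fun w hw x hx => hB (w, x) ⟨hw, hx⟩⟩

theorem exists_radius {r ρ₀ v : ℝ} (hr : 0 < r) (h0 : 0 < ρ₀) (hv : 0 < v) :
    ∃ ρ₁ : ℝ, 0 < ρ₁ ∧ ρ₁ < r ∧ ρ₁ < ρ₀ ∧ 4 * ρ₁ ≤ v ∧ ρ₁ ≤ 1 := by
  refine ⟨min (min (r / 2) (ρ₀ / 2)) (min (v / 4) 1), by positivity, ?_, ?_, ?_, ?_⟩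
  · have h1 := min_le_left (min (r / 2) (ρ₀ / 2)) (min (v / 4) 1)
    have h2 := min_le_left (r / 2) (ρ₀ / 2)
    linarith
  · have h1 := min_le_left (min (r / 2) (ρ₀ / 2)) (min (v / 4) 1)
    have h2 := min_le_right (r / 2) (ρ₀ / 2)
    linarith
  · have h1 := min_le_right (min (r / 2) (ρ₀ / 2)) (min (v / 4) 1)
    have h2 := min_le_left (v / 4) 1
    linarith
  · have h1 := min_le_right (min (r / 2) (ρ₀ / 2)) (min (v / 4) 1)
    have h2 := min_le_right (v / 4) 1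
    linarith

theorem Dat.exists_par (D : Dat f h c₀ w₀ ρ₀) (him : 0 < w₀.im) (hne : ∃ u, h u w₀ ≠ 0)
    (hd1 : ∃ u, deriv (fun u => dif f u w₀) u ≠ 0) :
    ∃ y₀ ρ₁ b : ℝ, 0 < ρ₁ ∧ ρ₁ ≤ 1 ∧ ρ₁ < ρ₀ ∧ 4 * ρ₁ ≤ w₀.im ∧ 0 ≤ b ∧
      ∀ x : ℝ, 0 ≤ x → x ≤ 1 → ∀ w ∈ closedBall w₀ ρ₁,
      Real.exp (-b) ≤ ‖deriv (fun u => dif f u w) (x + y₀ * I)‖ ∧
      Real.exp (-b) ≤ ‖h (x + y₀ * I) w‖ ∧
      Real.exp (-b) ≤ ‖Complex.sin (dif f (x + y₀ * I) w)‖ ∧ ‖dif f (x + y₀ * I) w‖ ≤ b := by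
  obtain ⟨y₀, r, hr, hrs⟩ := D.exists_seg hne hd1
  obtain ⟨ρ₁, hρ1, hρr, hρρ, hρi, hρ11⟩ := exists_radius hr D.pos him
  have hsub : ∀ w ∈ closedBall w₀ ρ₁, w ∈ ball w₀ ρ₀ := fun w hw =>
    closedBall_subset_ball hρρ hw
  have hsub' : ∀ w ∈ closedBall w₀ ρ₁, w ∈ ball w₀ r := fun w hw =>
    closedBall_subset_ball hρr hw
  obtain ⟨b1, hb1, hB1⟩ := low_of (w₀ := w₀) (ρ₁ := ρ₁)
    (F := fun p : ℂ × ℝ => deriv (fun u => dif f u p.1) (p.2 + y₀ * I))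
    (fun w hw x _ => D.c1 y₀ x (hsub w hw)) (fun w hw x hx => (hrs w (hsub' w hw) x hx).1)
  obtain ⟨b2, hb2, hB2⟩ := low_of (w₀ := w₀) (ρ₁ := ρ₁)
    (F := fun p : ℂ × ℝ => h (p.2 + y₀ * I) p.1)
    (fun w hw x _ => D.c2 y₀ x (hsub w hw)) (fun w hw x hx => (hrs w (hsub' w hw) x hx).2.1)
  obtain ⟨b3, hb3, hB3⟩ := low_of (w₀ := w₀) (ρ₁ := ρ₁)
    (F := fun p : ℂ × ℝ => Complex.sin (dif f (p.2 + y₀ * I) p.1))
    (fun w hw x _ => D.c4 y₀ x (hsub w hw)) (fun w hw x hx => (hrs w (hsub' w hw) x hx).2.2)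
  obtain ⟨b4, hB4⟩ := up_of (w₀ := w₀) (ρ₁ := ρ₁)
    (F := fun p : ℂ × ℝ => dif f (p.2 + y₀ * I) p.1)
    (fun w hw x _ => D.c3 y₀ x (hsub w hw))
  have hb4 := abs_nonneg b4
  refine ⟨y₀, ρ₁, b1 + b2 + b3 + |b4|, hρ1, hρ11, hρρ, hρi, by positivity, ?_⟩
  intro x hx0 hx1 w hw
  have hx : x ∈ Icc (0 : ℝ) 1 := ⟨hx0, hx1⟩
  refine ⟨(Real.exp_le_exp.2 (by linarith)).trans (hB1 w hw x hx),
    (Real.exp_le_exp.2 (by linarith)).trans (hB2 w hw x hx),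
    (Real.exp_le_exp.2 (by linarith)).trans (hB3 w hw x hx), (hB4 w hw x hx).trans ?_⟩
  linarith [le_abs_self b4]

/-- **Core of Case III**: `d` does not depend on `u`. -/
theorem Dat.const (D : Dat f h c₀ w₀ ρ₀) (him : 0 < w₀.im) (hne : ∃ u, h u w₀ ≠ 0) :
    ∀ u v, dif f u w₀ = dif f v w₀ := by
  have hwb : w₀ ∈ ball w₀ ρ₀ := mem_ball_self D.pos
  have hdd : Differentiable ℂ (fun u => dif f u w₀) := fun u =>
    (slice1 (D.dif_an u hwb)).differentiableAt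
  by_contra hcon
  have hd1 : ∃ u, deriv (fun u => dif f u w₀) u ≠ 0 := by
    by_contra h0
    push Not at h0
    exact hcon fun u v => is_const_of_deriv_eq_zero hdd h0 u v
  obtain ⟨y₀, ρ₁, b, hρ1, hρ11, hρρ, hρi, hb0, hlow⟩ := D.exists_par him hne hd1
  have hwim : ∀ w ∈ closedBall w₀ ρ₁, |w.im - w₀.im| ≤ ρ₁ := by
    intro w hw
    have := im_sub_le hw w₀.im
    simpa using this
  have hw1 : ∀ w ∈ closedBall w₀ ρ₁, w₀.im - ρ₁ ≤ w.im := by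
    intro w hw
    have := (abs_le.1 (hwim w hw)).1
    linarith
  have hw2 : ∀ w ∈ closedBall w₀ ρ₁, w.im ≤ 2 * (w₀.im - ρ₁) := by
    intro w hw
    have := (abs_le.1 (hwim w hw)).2
    linarith
  obtain ⟨C, hC, hstep⟩ := D.step (y₀ := y₀) hρρ (by linarith) hw1 hw2 hb0 hlow
  refine hcon (const_of_periodic_growth y₀ 6 _ hdd (fun u => D.dif_per u hwb)
    (64 * (C * (8 / ρ₁) ^ 3) ^ 2) (by positivity) fun u => ?_)
  have h1 := D.poly hρ1 hρ11 hρρ hC hstep (y₁ := 1 + |u.im - y₀|)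
    (by linarith [abs_nonneg (u.im - y₀)]) u (by linarith)
  refine h1.trans (le_of_eq ?_)
  ring

end Vale.Agent.P097.H330
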