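import Vale.Agent.P097.H244.Kill

/-! # P097 / H244: the abstract kill of a pencil law.
An odd analytic germ `f` with `f (v s) = - e ^ (w s) f (v (-s))` forces `e ^ (2 i w L) = -1`. -/

set_option linter.all false

open Complex Metric Filter Topology Set
open scoped ComplexConjugate

namespace Vale.Agent.P097.H330.KI

open Vale.Agent.P097.H244

/-- the data of a pencil law whose map has the end `V → - ∞` -/
structure KJ (v : ℂ → ℂ) (κ L p : ℝ) : Prop where
  hκ : 0 < κ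
  hL : 0 < L
  hp : κ < 2 * p
  an : DifferentiableOn ℂ v (SS L)
  v0 : v 0 = 0
  dif : ∀ s ∈ SS L, v s - v (-s) = κ * s
  cj : ∀ s ∈ SS L, v (conj s) = conj (v s)
  der : ∀ s ∈ PP L, κ / 2 < (deriv v s).re
  neg : ∀ s ∈ PP L, (v (-s)).re < 0
  ctr : ∀ s ∈ PP L, 0 < ((v s + v (-s)) * conj s).re
  ax : ∀ y : ℝ, y ≠ 0 → |y| < L → (v (I * y)).re < 0
  far : ∀ M : ℝ, ∃ C : ℝ, ∀ s ∈ PP L, C < (v s).re → M < s.re
  dlim : ∀ ε > 0, ∃ M : ℝ, ∀ s ∈ PP L, M < s.re → ‖deriv v s - p‖ < ε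
  inf : ∀ C : ℝ, ∃ M : ℝ, ∀ s ∈ PP L, M < s.re → (v (-s)).re < -C
  bot : Tendsto (fun y : ℝ => (v (I * y)).re) (𝓝[<] L) atBot

namespace KJ

variable {v : ℂ → ℂ} {κ L q₀ : ℝ}

theorem dAt (K : KJ v κ L q₀) {s : ℂ} (hs : s ∈ SS L) : DifferentiableAt ℂ v s :=
  (K.an s hs).differentiableAt ((isOpen_SS L).mem_nhds hs)

theorem cAt (K : KJ v κ L q₀) {s : ℂ} (hs : s ∈ SS L) : ContinuousAt v s :=
  (K.dAt hs).continuousAt

/-- basic lower bound along a segment whose interior lies in the half strip -/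
theorem low (K : KJ v κ L q₀) {p d : ℂ} (h0 : ∀ t ∈ Icc (0 : ℝ) 1, p + t * d ∈ SS L)
    (h1 : ∀ t ∈ Ioo (0 : ℝ) 1, 0 < (p + t * d).re) :
    κ / 2 * ‖d‖ ^ 2 ≤ ((v (p + d) - v p) * conj d).re := by
  have h := seg_ge (φ := fun t : ℝ => (v (p + t * d) * conj d).re)
    (φ' := fun t : ℝ => (deriv v (p + t * d) * d * conj d).re) (c := κ / 2 * ‖d‖ ^ 2) ?_ ?_ ?_
  · simpa [sub_mul] using h
  · intro t ht
    exact (hasDerivAt_re_line (K.dAt (h0 t ht))).continuousAt.continuousWithinAt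
  · intro t ht
    exact hasDerivAt_re_line (K.dAt (h0 t (Ioo_subset_Icc_self ht)))
  · intro t ht
    have h2 := K.der (p + t * d) ⟨h1 t ht, h0 t (Ioo_subset_Icc_self ht)⟩
    have h3 : deriv v (p + t * d) * d * conj d = deriv v (p + t * d) * ((‖d‖ ^ 2 : ℝ) : ℂ) := by
      rw [mul_assoc, Complex.mul_conj, Complex.normSq_eq_norm_sq]
    rw [h3, Complex.re_mul_ofReal]
    exact mul_le_mul_of_nonneg_right h2.le (by positivity)

theorem lip0 (K : KJ v κ L q₀) {p d : ℂ} (h0 : ∀ t ∈ Icc (0 : ℝ) 1, p + t * d ∈ SS L)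
    (h1 : ∀ t ∈ Ioo (0 : ℝ) 1, 0 < (p + t * d).re) :
    κ / 2 * ‖d‖ ≤ ‖v (p + d) - v p‖ := by
  rcases eq_or_ne d 0 with hd | hd
  · simp [hd]
  have h := K.low h0 h1
  have h2 : ((v (p + d) - v p) * conj d).re ≤ ‖v (p + d) - v p‖ * ‖d‖ := by
    refine (Complex.re_le_norm _).trans ?_
    rw [norm_mul, RCLike.norm_conj]
  have h3 : 0 < ‖d‖ := norm_pos_iff.2 hd
  nlinarith

theorem lip (K : KJ v κ L q₀) {s t : ℂ} (hs : s ∈ PP L) (ht : t ∈ PP L) :
    κ / 2 * ‖s - t‖ ≤ ‖v s - v t‖ := by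
  have h : ∀ r ∈ Icc (0 : ℝ) 1, t + r * (s - t) ∈ PP L := by
    intro r hr
    obtain ⟨hr0, hr1⟩ := hr
    obtain ⟨h1, h2⟩ := hs
    obtain ⟨h3, h4⟩ := ht
    rw [abs_lt] at h2 h4
    constructor
    · simp only [add_re, mul_re, sub_re, ofReal_re, ofReal_im, zero_mul, sub_zero]
      rcases eq_or_lt_of_le hr0 with h | h
      · subst h; simpa using h3
      · nlinarith [mul_pos h h1, mul_nonneg (sub_nonneg.2 hr1) h3.le]
    · simp only [add_im, mul_im, sub_im, ofReal_re, ofReal_im, zero_mul, add_zero]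
      rw [abs_lt]
      constructor <;>
        nlinarith [mul_nonneg hr0 (by linarith : 0 ≤ s.im + L),
          mul_nonneg hr0 (by linarith : 0 ≤ L - s.im),
          mul_nonneg (sub_nonneg.2 hr1) (by linarith : 0 ≤ t.im + L),
          mul_nonneg (sub_nonneg.2 hr1) (by linarith : 0 ≤ L - t.im), K.hL, h2.1, h2.2, h4.1, h4.2]
  have := K.lip0 (p := t) (d := s - t) (fun r hr => PP_sub (h r hr))
    (fun r hr => (h r (Ioo_subset_Icc_self hr)).1)
  simpa using this

theorem ray (K : KJ v κ L q₀) {s : ℂ} (hs : s ∈ PP L) :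
    (∀ r ∈ Icc (0 : ℝ) 1, (0 : ℂ) + r * s ∈ SS L) ∧ ∀ r ∈ Ioo (0 : ℝ) 1, 0 < ((0 : ℂ) + r * s).re := by
  obtain ⟨h1, h2⟩ := hs
  constructor
  · intro r hr
    show |((0 : ℂ) + r * s).im| < L
    have : ((0 : ℂ) + r * s).im = r * s.im := by simp
    rw [this, abs_mul, abs_of_nonneg hr.1]
    nlinarith [abs_nonneg s.im, hr.2, hr.1]
  · intro r hr
    have : ((0 : ℂ) + r * s).re = r * s.re := by simp
    rw [this]
    exact mul_pos hr.1 h1

theorem lipz (K : KJ v κ L q₀) {s : ℂ} (hs : s ∈ PP L) : κ / 2 * ‖s‖ ≤ ‖v s‖ := by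
  have := K.lip0 (K.ray hs).1 (K.ray hs).2
  simpa [K.v0] using this

/-- the imaginary part of `v` dominates -/
theorem imv (K : KJ v κ L q₀) {s : ℂ} (hs : s ∈ PP L) :
    κ / 2 * s.im ^ 2 ≤ (v s).im * s.im := by
  have h0 : ∀ t ∈ Icc (0 : ℝ) 1, (s.re : ℂ) + t * (s.im * I) ∈ SS L := by
    intro t ht
    show |((s.re : ℂ) + t * (s.im * I)).im| < L
    have : ((s.re : ℂ) + t * (s.im * I)).im = t * s.im := by simp
    rw [this, abs_mul, abs_of_nonneg ht.1]
    have := hs.2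
    nlinarith [abs_nonneg s.im, ht.2, ht.1]
  have h1 : ∀ t ∈ Ioo (0 : ℝ) 1, 0 < ((s.re : ℂ) + t * (s.im * I)).re := by
    intro t ht
    simpa using hs.1
  have h := K.low h0 h1
  have h2 : (s.re : ℂ) + s.im * I = s := Complex.re_add_im s
  rw [h2] at h
  have h3 : (v (s.re : ℂ)).im = 0 := by
    have h4 := K.cj (s.re : ℂ) (by show |((s.re : ℂ)).im| < L; simpa using K.hL)
    rw [Complex.conj_ofReal] at h4
    have := congrArg Complex.im h4
    rw [Complex.conj_im] at this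
    linarith
  have h5 : ((v s - v (s.re : ℂ)) * conj ((s.im : ℂ) * I)).re = (v s).im * s.im := by
    simp [h3]
  rw [h5] at h
  have h6 : ‖(s.im : ℂ) * I‖ ^ 2 = s.im ^ 2 := by simp
  rw [h6] at h
  exact h

theorem imabs (K : KJ v κ L q₀) {s : ℂ} (hs : s ∈ PP L) : κ / 2 * |s.im| ≤ |(v s).im| := by
  have h := K.imv hs
  rcases eq_or_ne s.im 0 with h0 | h0
  · simp [h0]
  have h1 : 0 < |s.im| := abs_pos.2 h0
  have h2 : (v s).im * s.im ≤ |(v s).im| * |s.im| := by
    rw [← abs_mul]; exact le_abs_self _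
  have h3 : s.im ^ 2 = |s.im| ^ 2 := (sq_abs _).symm
  rw [h3] at h
  nlinarith

/-- closure lemma -/
theorem cl (K : KJ v κ L q₀) {s : ℕ → ℂ} (hs : ∀ n, s n ∈ PP L) {z : ℂ}
    (hz : Tendsto (fun n => v (s n)) atTop (𝓝 z)) (h1 : |z.im| < κ * L / 2) (h2 : 0 ≤ z.re)
    (h3 : z ≠ 0) : ∃ p ∈ PP L, Tendsto s atTop (𝓝 p) ∧ v p = z := by
  have hκ := K.hκ
  have hc : CauchySeq s := by
    rw [Metric.cauchySeq_iff']
    intro ε hε
    obtain ⟨N, hN⟩ := Metric.cauchySeq_iff'.1 hz.cauchySeq (κ / 2 * ε) (by positivity)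
    refine ⟨N, fun n hn => ?_⟩
    have h4 := hN n hn
    rw [dist_eq_norm] at h4 ⊢
    have h5 := K.lip (hs n) (hs N)
    by_contra h6
    push Not at h6
    nlinarith
  obtain ⟨p, hp⟩ := cauchySeq_tendsto_of_complete hc
  have him : κ / 2 * |p.im| ≤ |z.im| := by
    refine le_of_tendsto_of_tendsto'
      (((Complex.continuous_im.tendsto p).comp hp).abs.const_mul (κ / 2))
      ((Complex.continuous_im.tendsto z).comp hz).abs (fun n => K.imabs (hs n))
  have hpS : p ∈ SS L := by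
    show |p.im| < L
    by_contra h6
    push Not at h6
    nlinarith
  have hre : 0 ≤ p.re := ge_of_tendsto' ((Complex.continuous_re.tendsto p).comp hp)
    (fun n => (hs n).1.le)
  have hvp : v p = z := tendsto_nhds_unique ((K.cAt hpS).tendsto.comp hp) hz
  refine ⟨p, ⟨?_, hpS⟩, hp, hvp⟩
  rcases eq_or_lt_of_le hre with h | h
  · exfalso
    have hpe : p = I * (p.im : ℂ) := by
      apply Complex.ext <;> simp [← h]
    rcases eq_or_ne p.im 0 with h0 | h0
    · rw [hpe, h0] at hvp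
      simp [K.v0] at hvp
      exact h3 hvp.symm
    · have := K.ax p.im h0 hpS
      rw [← hpe, hvp] at this
      linarith
  · exact h

theorem surj (K : KJ v κ L q₀) {V : ℂ} (hV : V ∈ WW κ L) : ∃ s ∈ PP L, v s = -V := by
  have hκ := K.hκ
  have hL := K.hL
  set W' : Set ℂ := {z : ℂ | 0 < z.re} ∩ {z : ℂ | |z.im| < κ * L / 2} with hW'
  have hconv : Convex ℝ W' := by
    apply (convex_halfSpace_re_gt 0).inter
    have : {z : ℂ | |z.im| < κ * L / 2} = {z : ℂ | z.im < κ * L / 2} ∩ {z : ℂ | -(κ * L / 2) < z.im} := by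
      ext z
      simp only [mem_setOf_eq, mem_inter_iff, abs_lt]
      tauto
    rw [this]
    exact (convex_halfSpace_im_lt _).inter (convex_halfSpace_im_gt _)
  have hopen : IsOpen (v '' PP L) := by
    rw [isOpen_iff_mem_nhds]
    rintro _ ⟨s, hs, rfl⟩
    have hd : HasStrictDerivAt v (deriv v s) s :=
      ((K.an.analyticAt ((isOpen_SS L).mem_nhds (PP_sub hs))).hasStrictDerivAt)
    have hne : deriv v s ≠ 0 := by
      intro h
      have := K.der s hs
      rw [h] at this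
      simp at this
      linarith
    rw [← hd.map_nhds_eq hne]
    exact Filter.image_mem_map ((isOpen_PP L).mem_nhds hs)
  have hsub : W' ⊆ v '' PP L := by
    apply hconv.isPreconnected.subset_of_closure_inter_subset hopen
    · -- nonempty
      have hx : ((L : ℝ) : ℂ) ∈ PP L := ⟨by simpa using hL, by simpa using hL⟩
      refine ⟨v (L : ℂ), ⟨?_, ?_⟩, _, hx, rfl⟩
      · have h := K.low (K.ray hx).1 (K.ray hx).2
        simp only [zero_add, K.v0, sub_zero, Complex.conj_ofReal, Complex.norm_real,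
          Complex.re_mul_ofReal, Real.norm_eq_abs, sq_abs] at h
        show 0 < (v (L : ℂ)).re
        have : 0 < κ / 2 * L ^ 2 := by positivity
        nlinarith
      · have h4 := K.cj (L : ℂ) (PP_sub hx)
        rw [Complex.conj_ofReal] at h4
        have := congrArg Complex.im h4
        rw [Complex.conj_im] at this
        have h5 : (v (L : ℂ)).im = 0 := by linarith
        show |(v (L : ℂ)).im| < κ * L / 2
        rw [h5, abs_zero]
        positivity
    · rintro z ⟨hz, hzW⟩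
      obtain ⟨u, hu, hlim⟩ := mem_closure_iff_seq_limit.1 hz
      choose s hs hsu using hu
      have hlim' : Tendsto (fun n => v (s n)) atTop (𝓝 z) := by
        simpa [hsu] using hlim
      obtain ⟨p, hp, -, hvp⟩ := K.cl hs hlim' hzW.2 (le_of_lt hzW.1) (by
        rintro rfl
        have : (0 : ℝ) < (0 : ℂ).re := hzW.1
        simp at this)
      exact ⟨p, hp, hvp⟩
  obtain ⟨s, hs, h⟩ := hsub (show -V ∈ W' from ⟨by simpa using hV.1, by
    show |(-V).im| < κ * L / 2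
    rw [Complex.neg_im, abs_neg]; exact hV.2⟩)
  exact ⟨s, hs, h⟩

end KJ

end Vale.Agent.P097.H330.KI
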