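import Vale.Agent.P097.H330.KI2
import Vale.Agent.P097.H244.Kill3

/-! # P097 / H244: the abstract kill, conclusion. -/

set_option linter.all false

open Complex Metric Filter Topology Set
open scoped ComplexConjugate

namespace Vale.Agent.P097.H330.KI

open Vale.Agent.P097.H244

variable {v : ℂ → ℂ} {κ L q₀ w r : ℝ} {σ f : ℂ → ℂ}

theorem step_small (H : Inv v κ L σ) (K : KJ v κ L q₀) (G : Germ v κ w r f) {V : ℂ}
    (hV : V ∈ WW κ L) (hr : ‖V‖ < r) : f V = exp (w * σ V) * f (TT v σ V) := by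
  have h1 := G.ch (σ V) ((H.lipz K hV).trans_lt hr)
  rw [H.eq V hV, G.odd V (mem_ball_zero_iff.2 hr)] at h1
  show f V = exp (w * σ V) * f (v (-σ V))
  linear_combination -h1

theorem GG_succ (H : Inv v κ L σ) (K : KJ v κ L q₀) (G : Germ v κ w r f) {V : ℂ}
    (hV : V ∈ WW κ L) {n : ℕ} (hr : ‖(TT v σ)^[n] V‖ < r) :
    GG v σ f w (n + 1) V = GG v σ f w n V := by
  unfold GG
  rw [Finset.sum_range_succ, mul_add, Complex.exp_add, Function.iterate_succ_apply', mul_assoc,
    ← step_small H K G (H.it_mem K hV n) hr]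

theorem GG_const (H : Inv v κ L σ) (K : KJ v κ L q₀) (G : Germ v κ w r f) {V : ℂ}
    (hV : V ∈ WW κ L) {n m : ℕ} (hnm : n ≤ m) (hr : ‖(TT v σ)^[n] V‖ < r) :
    GG v σ f w m V = GG v σ f w n V := by
  induction m, hnm using Nat.le_induction with
  | base => rfl
  | succ m hm ih =>
    rw [GG_succ H K G hV ((H.it_anti K hV hm).trans_lt hr), ih]

theorem GG_diff (H : Inv v κ L σ) (K : KJ v κ L q₀) (G : Germ v κ w r f) {V : ℂ}
    (hV : V ∈ WW κ L) {n : ℕ} (hr : ‖(TT v σ)^[n] V‖ < r) :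
    DifferentiableAt ℂ (GG v σ f w n) V := by
  unfold GG
  refine DifferentiableAt.mul ?_ ?_
  · refine DifferentiableAt.cexp (DifferentiableAt.const_mul ?_ _)
    refine DifferentiableAt.fun_sum fun j _ => ?_
    exact DifferentiableAt.comp (g := σ) V (H.dσ K (H.it_mem K hV j)) (H.dit K hV j)
  · exact DifferentiableAt.comp (g := f) V (G.d _ (mem_ball_zero_iff.2 hr)) (H.dit K hV n)

theorem exists_ext (H : Inv v κ L σ) (K : KJ v κ L q₀) (G : Germ v κ w r f) :
    ∃ F, Ext v σ f κ L w r F := by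
  have hr := G.hr
  have hex : ∀ V : ℂ, ∃ N : ℕ, V ∈ WW κ L → ‖(TT v σ)^[N] V‖ < r := by
    intro V
    by_cases hV : V ∈ WW κ L
    · have := (H.orbit K hV).norm
      rw [norm_zero] at this
      obtain ⟨N, hN⟩ := (this.eventually_lt_const hr).exists
      exact ⟨N, fun _ => hN⟩
    · exact ⟨0, fun h => absurd h hV⟩
  choose N hN using hex
  set F : ℂ → ℂ := fun V => if ‖V‖ < r then f V else GG v σ f w (N V) V with hF
  -- on the region, every good index computes `F`
  have hFG : ∀ V ∈ WW κ L, ∀ n, ‖(TT v σ)^[n] V‖ < r → F V = GG v σ f w n V := by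
    intro V hV n hn
    have hN' : ∀ m, ‖(TT v σ)^[m] V‖ < r → GG v σ f w m V = GG v σ f w n V := by
      intro m hm
      rcases le_total m n with h | h
      · exact (GG_const H K G hV h hm).symm
      · exact GG_const H K G hV h hn
    simp only [hF]
    split_ifs with h
    · have := hN' 0 (by simpa using h)
      rw [← this]
      simp [GG]
    · exact hN' _ (hN V hV)
  have hsmall : ∀ V ∈ ball (0 : ℂ) r, F V = f V := by
    intro V hV
    simp only [hF]
    rw [if_pos (mem_ball_zero_iff.1 hV)]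
  refine ⟨F, hsmall, ?_, ?_, ?_, ?_⟩
  · intro V hV
    have hn := hN V hV
    have hcont : ContinuousAt ((TT v σ)^[N V]) V := (H.dit K hV (N V)).continuousAt
    have h1 : ∀ᶠ U in 𝓝 V, ‖(TT v σ)^[N V] U‖ < r := hcont.norm.eventually_lt continuousAt_const hn
    have h2 : F =ᶠ[𝓝 V] GG v σ f w (N V) := by
      filter_upwards [h1, (isOpen_WW κ L).mem_nhds hV] with U hU hUW
      exact hFG U hUW _ hU
    rw [h2.differentiableAt_iff]
    exact GG_diff H K G hV hn
  · intro V hV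
    have h2 : F =ᶠ[𝓝 V] f := by
      filter_upwards [isOpen_ball.mem_nhds hV] with U hU
      exact hsmall U hU
    rw [h2.differentiableAt_iff]
    exact G.d V hV
  · intro V hV
    have hn := hN _ (H.Tmem K hV)
    rw [hFG (TT v σ V) (H.Tmem K hV) _ hn,
      hFG V hV (N (TT v σ V) + 1) (by rw [Function.iterate_succ_apply]; exact hn), GG_shift]
  · intro V hV
    rw [hFG V hV _ (hN V hV)]
    unfold GG
    refine mul_ne_zero (Complex.exp_ne_zero _) ?_
    refine G.ne _ (mem_ball_zero_iff.2 (hN V hV)) ?_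
    have h3 := (H.it_mem K hV (N V)).1
    intro h4
    rw [h4] at h3
    simp at h3

theorem KJ.mem_ax (K : KJ v κ L q₀) {y : ℝ} (h0 : y ≠ 0) (h1 : |y| < L) :
    v (I * y) ∈ WW κ L ∧ v (I * y) - v (-(I * y)) = κ * (I * y) := by
  have hS : (I * y : ℂ) ∈ SS L := by
    show |(I * (y : ℂ)).im| < L
    simpa using h1
  have hd := K.dif _ hS
  refine ⟨⟨K.ax y h0 h1, ?_⟩, hd⟩
  have hc := K.cj _ hS
  have h2 : conj (I * (y : ℂ)) = -(I * y) := by simp
  rw [h2] at hc
  rw [hc] at hd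
  have := congrArg Complex.im hd
  have h3 : (v (I * y)).im = κ * y / 2 := by
    simp at this
    linarith
  rw [h3, abs_div, abs_mul, abs_of_pos K.hκ, abs_of_pos (by norm_num : (0 : ℝ) < 2)]
  have := mul_lt_mul_of_pos_left h1 K.hκ
  linarith

/-- the law on the imaginary axis -/
theorem law_ax (H : Inv v κ L σ) (K : KJ v κ L q₀) (G : Germ v κ w r f) {F : ℂ → ℂ}
    (E : Ext v σ f κ L w r F) {y : ℝ} (h0 : 0 ≤ y) (h1 : y < L) :
    F (v (I * y)) = -(exp (w * (I * y)) * F (v (-(I * y)))) := by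
  set S : Set ℂ := (fun y : ℝ => I * (y : ℂ)) '' Ico 0 L with hS
  have hSc : IsPreconnected S := by
    refine isPreconnected_Ico.image _ ?_
    fun_prop
  have hSS : ∀ s ∈ S, s ∈ SS L ∧ -s ∈ SS L := by
    rintro _ ⟨y, hy, rfl⟩
    constructor
    · show |(I * (y : ℂ)).im| < L
      simpa [abs_of_nonneg hy.1] using hy.2
    · show |(-(I * (y : ℂ))).im| < L
      simpa [abs_of_nonneg hy.1] using hy.2
  have hFan : ∀ V, V ∈ WW κ L ∨ V ∈ ball (0 : ℂ) r → AnalyticAt ℂ F V := by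
    intro V hV
    have hop : IsOpen (WW κ L ∪ ball (0 : ℂ) r) := (isOpen_WW κ L).union isOpen_ball
    have hd : DifferentiableOn ℂ F (WW κ L ∪ ball (0 : ℂ) r) := by
      rintro U (hU | hU)
      · exact (E.dW U hU).differentiableWithinAt
      · exact (E.dB U hU).differentiableWithinAt
    exact hd.analyticAt (hop.mem_nhds hV)
  have hvan : ∀ s ∈ SS L, AnalyticAt ℂ v s := fun s hs =>
    K.an.analyticAt ((isOpen_SS L).mem_nhds hs)
  have hval : ∀ s ∈ S, (v s ∈ WW κ L ∨ v s ∈ ball (0 : ℂ) r) ∧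
      (v (-s) ∈ WW κ L ∨ v (-s) ∈ ball (0 : ℂ) r) := by
    rintro _ ⟨y, hy, rfl⟩
    rcases eq_or_lt_of_le hy.1 with h | h
    · subst h
      have : v (I * ((0 : ℝ) : ℂ)) ∈ ball (0 : ℂ) r := by
        simp [K.v0, G.hr]
      refine ⟨Or.inr this, Or.inr ?_⟩
      simpa using this
    · have h2 : |y| < L := by rw [abs_of_pos h]; exact hy.2
      refine ⟨Or.inl (K.mem_ax h.ne' h2).1, Or.inl ?_⟩
      have := (K.mem_ax (y := -y) (neg_ne_zero.2 h.ne') (by rwa [abs_neg])).1
      have h3 : (I * ((-y : ℝ) : ℂ)) = -(I * y) := by push_cast; ring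
      rwa [h3] at this
  have hP : AnalyticOnNhd ℂ (fun s => F (v s)) S := fun s hs =>
    AnalyticAt.comp (g := F) (hFan _ (hval s hs).1) (hvan s (hSS s hs).1)
  have hQ : AnalyticOnNhd ℂ (fun s => -(exp (w * s) * F (v (-s)))) S := by
    intro s hs
    have h2 : AnalyticAt ℂ (fun s => v (-s)) s :=
      AnalyticAt.comp (g := v) (hvan _ (hSS s hs).2) analyticAt_id.neg
    have h3 : AnalyticAt ℂ (fun s => F (v (-s))) s :=
      AnalyticAt.comp (g := F) (f := fun s => v (-s)) (hFan _ (hval s hs).2) h2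
    have h4 : AnalyticAt ℂ (fun s : ℂ => exp (w * s)) s := by fun_prop
    exact (h4.mul h3).neg
  have h00 : (0 : ℂ) ∈ S := ⟨0, ⟨le_rfl, K.hL⟩, by simp⟩
  have hev : (fun s => F (v s)) =ᶠ[𝓝 0] fun s => -(exp (w * s) * F (v (-s))) := by
    have hv0 : Tendsto v (𝓝 0) (𝓝 0) := by
      have := (hvan 0 (hSS 0 h00).1).continuousAt.tendsto
      rwa [K.v0] at this
    have hv0' : Tendsto (fun s => v (-s)) (𝓝 0) (𝓝 0) := by
      have : Tendsto (fun s : ℂ => -s) (𝓝 0) (𝓝 0) := by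
        simpa using (continuous_neg (G := ℂ)).tendsto 0
      exact hv0.comp this
    have hb := isOpen_ball.mem_nhds (mem_ball_self G.hr : (0 : ℂ) ∈ ball (0 : ℂ) r)
    have hs : ∀ᶠ s in 𝓝 (0 : ℂ), κ / 2 * ‖s‖ < r := by
      have : Tendsto (fun s : ℂ => κ / 2 * ‖s‖) (𝓝 0) (𝓝 0) := by
        have hc : Continuous fun s : ℂ => κ / 2 * ‖s‖ := by fun_prop
        have := hc.tendsto 0
        rwa [norm_zero, mul_zero] at this
      exact this.eventually_lt_const G.hr
    filter_upwards [hv0.eventually hb, hv0'.eventually hb, hs] with s h1 h2 h3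
    rw [E.small _ h1, E.small _ h2]
    exact G.ch s h3
  have := hP.eqOn_of_preconnected_of_eventuallyEq hQ hSc h00 hev
  exact this ⟨y, ⟨h0, h1⟩, rfl⟩

end Vale.Agent.P097.H330.KI
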