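import Vale.Agent.P097.H330.KI3

/-! # P097 / H330 / KI: the end `V → - ∞` of a pencil law.
The function `G V = e ^ (c V) F V` has a logarithmic derivative which tends to `0` at `- ∞`. -/

set_option linter.all false

open Complex Metric Filter Topology Set
open scoped ComplexConjugate

namespace Vale.Agent.P097.H330.KI

open Vale.Agent.P097.H244

variable {v : ℂ → ℂ} {κ L p w r c : ℝ} {σ f F : ℂ → ℂ}

theorem deriv_ne (K : KJ v κ L p) {s : ℂ} (hs : s ∈ PP L) : deriv v s ≠ 0 := by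
  intro h
  have h1 := K.der s hs
  have h2 := K.hκ
  rw [h] at h1
  simp at h1
  linarith

theorem hasσ (H : Inv v κ L σ) (K : KJ v κ L p) {V : ℂ} (hV : V ∈ WW κ L) :
    HasDerivAt σ (-(deriv v (σ V))⁻¹) V := by
  have hs := H.mem V hV
  have h1 := (H.dσ K hV).hasDerivAt
  have h2 : HasDerivAt (fun U => v (σ U)) (deriv v (σ V) * deriv σ V) V :=
    HasDerivAt.comp (h₂ := v) V (K.dAt (PP_sub hs)).hasDerivAt h1
  have h3 : (fun U => v (σ U)) =ᶠ[𝓝 V] fun U => -U := by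
    filter_upwards [(isOpen_WW κ L).mem_nhds hV] with U hU
    exact H.eq U hU
  have h4 := (h2.congr_of_eventuallyEq h3.symm).unique (hasDerivAt_neg V)
  have h5 := deriv_ne K hs
  have h6 : deriv σ V = -(deriv v (σ V))⁻¹ := by
    field_simp
    linear_combination h4
  rwa [h6] at h1

theorem hasT (H : Inv v κ L σ) (K : KJ v κ L p) {V : ℂ} (hV : V ∈ WW κ L) :
    HasDerivAt (TT v σ) (-1 + κ / deriv v (σ V)) V := by
  have h1 : HasDerivAt (fun U => -U - κ * σ U) (-1 - κ * -(deriv v (σ V))⁻¹) V :=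
    (hasDerivAt_neg V).sub ((hasσ H K hV).const_mul (κ : ℂ))
  have : TT v σ =ᶠ[𝓝 V] fun V => -V - κ * σ V := by
    filter_upwards [(isOpen_WW κ L).mem_nhds hV] with U hU
    exact H.T_eq K hU
  refine (h1.congr_of_eventuallyEq this).congr_deriv ?_
  rw [div_eq_mul_inv]
  ring

/-- logarithmic derivative of `e ^ (c V) F V` -/
noncomputable def AA (c : ℝ) (F : ℂ → ℂ) (V : ℂ) : ℂ := deriv F V / F V + c

theorem AA_law (H : Inv v κ L σ) (K : KJ v κ L p) (E : Ext v σ f κ L w r F) {V : ℂ}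
    (hV : V ∈ WW κ L) :
    AA c F V = (2 * c - (w + c * κ) / deriv v (σ V)) +
      (-1 + κ / deriv v (σ V)) * AA c F (TT v σ V) := by
  have hT := H.Tmem K hV
  have h1 := (E.dW V hV).hasDerivAt
  have h2 := (E.dW _ hT).hasDerivAt
  have h3 : HasDerivAt (fun U => F (TT v σ U))
      (deriv F (TT v σ V) * (-1 + κ / deriv v (σ V))) V :=
    HasDerivAt.comp (h₂ := F) V h2 (hasT H K hV)
  have h4 : HasDerivAt (fun U => exp (w * σ U)) (exp (w * σ V) * (w * -(deriv v (σ V))⁻¹)) V :=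
    ((hasσ H K hV).const_mul (w : ℂ)).cexp
  have h5 := h4.mul h3
  have h6 : F =ᶠ[𝓝 V] ((fun U => exp (w * σ U)) * fun U => F (TT v σ U)) := by
    filter_upwards [(isOpen_WW κ L).mem_nhds hV] with U hU
    exact E.law U hU
  have h7 := h1.unique (h5.congr_of_eventuallyEq h6)
  have n1 := E.ne _ hT
  have n2 : exp (w * σ V) ≠ 0 := Complex.exp_ne_zero _
  have n3 := deriv_ne K (H.mem V hV)
  rw [AA, AA, h7, E.law V hV]
  field_simp
  ring

theorem near (H : Inv v κ L σ) (K : KJ v κ L p) {S : Set ℂ} (hS : S ∈ 𝓝 (p : ℂ)) :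
    ∃ C : ℝ, ∀ V ∈ WW κ L, V.re < -C → deriv v (σ V) ∈ S := by
  obtain ⟨ε, hε, hb⟩ := Metric.mem_nhds_iff.1 hS
  obtain ⟨M, hM⟩ := K.dlim ε hε
  obtain ⟨C, hC⟩ := K.far M
  refine ⟨C, fun V hV h => hb ?_⟩
  rw [mem_ball_iff_norm]
  refine hM _ (H.mem V hV) (hC _ (H.mem V hV) ?_)
  rw [H.eq V hV, Complex.neg_re]
  linarith

theorem nearT (H : Inv v κ L σ) (K : KJ v κ L p) (C' : ℝ) :
    ∃ C : ℝ, ∀ V ∈ WW κ L, V.re < -C → (TT v σ V).re < -C' := by
  obtain ⟨M, hM⟩ := K.inf C'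
  obtain ⟨C, hC⟩ := K.far M
  refine ⟨C, fun V hV h => ?_⟩
  refine hM _ (H.mem V hV) (hC _ (H.mem V hV) ?_)
  rw [H.eq V hV, Complex.neg_re]
  linarith

/-- the data near `- ∞` -/
theorem near2 (H : Inv v κ L σ) (K : KJ v κ L p) (hc : c * (2 * p - κ) = w) :
    ∃ ρ : ℝ, 0 ≤ ρ ∧ ρ < 1 ∧ ∀ ε > 0, ∀ C' : ℝ, ∃ C : ℝ, C' ≤ C ∧ ∀ V ∈ WW κ L, V.re < -C →
      ‖(2 * c - (w + c * κ) / deriv v (σ V) : ℂ)‖ ≤ ε ∧ ‖(-1 + κ / deriv v (σ V) : ℂ)‖ ≤ ρ ∧
      (TT v σ V).re < -C' := by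
  have hκ := K.hκ
  have hp := K.hp
  have hp0 : 0 < p := by linarith
  have hpc : (p : ℂ) ≠ 0 := by exact_mod_cast hp0.ne'
  have hlt : |(-1 + κ / p : ℝ)| < 1 := by
    rw [abs_lt]
    constructor
    · have : 0 < κ / p := by positivity
      linarith
    · have : κ / p < 2 := by
        rw [div_lt_iff₀ hp0]; exact hp
      linarith
  obtain ⟨ρ, h1, h2⟩ := exists_between hlt
  refine ⟨ρ, (abs_nonneg _).trans h1.le, h2, fun ε hε C' => ?_⟩
  have c1 : ContinuousAt (fun u : ℂ => ‖(2 * c - (w + c * κ) / u : ℂ)‖) p := by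
    refine ContinuousAt.norm ?_
    exact continuousAt_const.sub (continuousAt_const.div continuousAt_id hpc)
  have c2 : ContinuousAt (fun u : ℂ => ‖(-1 + κ / u : ℂ)‖) p := by
    refine ContinuousAt.norm ?_
    exact continuousAt_const.add (continuousAt_const.div continuousAt_id hpc)
  have e1 : ‖(2 * c - (w + c * κ) / p : ℂ)‖ < ε := by
    have : (2 * c - (w + c * κ) / p : ℂ) = 0 := by
      have hc' : (c : ℂ) * (2 * p - κ) = w := by exact_mod_cast hc
      rw [← hc']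
      field_simp
      ring
    rw [this, norm_zero]
    exact hε
  have e2 : ‖(-1 + κ / p : ℂ)‖ < ρ := by
    have : (-1 + κ / p : ℂ) = ((-1 + κ / p : ℝ) : ℂ) := by push_cast; rfl
    rw [this, Complex.norm_real, Real.norm_eq_abs]
    exact h1
  have hS : {u : ℂ | ‖(2 * c - (w + c * κ) / u : ℂ)‖ < ε ∧ ‖(-1 + κ / u : ℂ)‖ < ρ} ∈ 𝓝 (p : ℂ) :=
    (c1.eventually_lt continuousAt_const e1).and (c2.eventually_lt continuousAt_const e2)
  obtain ⟨C1, hC1⟩ := near H K hS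
  obtain ⟨C2, hC2⟩ := nearT H K C'
  refine ⟨max C' (max C1 C2), le_max_left _ _, fun V hV h => ?_⟩
  have h3 : V.re < -C1 := h.trans_le (neg_le_neg ((le_max_left _ _).trans (le_max_right _ _)))
  have h4 : V.re < -C2 := h.trans_le (neg_le_neg ((le_max_right _ _).trans (le_max_right _ _)))
  have h5 := hC1 V hV h3
  exact ⟨h5.1.le, h5.2.le, hC2 V hV h4⟩

theorem convex_WW (κ L : ℝ) : Convex ℝ (WW κ L) := by
  have e : WW κ L = {z : ℂ | z.re < 0} ∩ ({z : ℂ | z.im < κ * L / 2} ∩ {z : ℂ | -(κ * L / 2) < z.im}) := by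
    ext z
    simp only [WW, mem_setOf_eq, mem_inter_iff, abs_lt]
    tauto
  rw [e]
  exact (convex_halfSpace_re_lt 0).inter
    ((convex_halfSpace_im_lt _).inter (convex_halfSpace_im_gt _))

theorem TT_real (H : Inv v κ L σ) (K : KJ v κ L p) {x : ℝ} (hx : (x : ℂ) ∈ WW κ L) :
    (TT v σ x).im = 0 := by
  have := H.Tim K hx
  rw [Complex.ofReal_im, abs_zero] at this
  exact abs_eq_zero.1 (le_antisymm this (abs_nonneg _))

/-- one step contracts the imaginary part near `- ∞` -/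
theorem im_contr (H : Inv v κ L σ) (K : KJ v κ L p) {ρ C : ℝ} (hρ : 0 ≤ ρ)
    (h : ∀ V ∈ WW κ L, V.re < -C → ‖(-1 + κ / deriv v (σ V) : ℂ)‖ ≤ ρ) {V : ℂ}
    (hV : V ∈ WW κ L) (hC : V.re < -C) : |(TT v σ V).im| ≤ ρ * |V.im| := by
  have hκ := K.hκ
  have hL := K.hL
  have hx : ((V.re : ℝ) : ℂ) ∈ WW κ L := by
    refine ⟨by simpa using hV.1, ?_⟩
    rw [Complex.ofReal_im, abs_zero]; positivity
  have hconv : Convex ℝ (WW κ L ∩ {z : ℂ | z.re < -C}) :=
    (convex_WW κ L).inter (convex_halfSpace_re_lt _)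
  have h1 := hconv.norm_image_sub_le_of_norm_hasDerivWithin_le (f := TT v σ)
    (f' := fun V => -1 + κ / deriv v (σ V)) (C := ρ)
    (fun z hz => (hasT H K hz.1).hasDerivWithinAt) (fun z hz => h z hz.1 hz.2)
    (x := (V.re : ℂ)) (y := V) ⟨hx, by simpa using hC⟩ ⟨hV, hC⟩
  have h2 : V - (V.re : ℂ) = V.im * I := by
    have := Complex.re_add_im V
    linear_combination -this
  rw [h2] at h1
  have h3 : ‖(V.im : ℂ) * I‖ = |V.im| := by simp
  rw [h3] at h1
  have h4 := Complex.abs_im_le_norm (TT v σ V - TT v σ (V.re : ℂ))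
  rw [Complex.sub_im, TT_real H K hx, sub_zero] at h4
  exact h4.trans h1

theorem AA_cont (E : Ext v σ f κ L w r F) {V : ℂ} (hV : V ∈ WW κ L) :
    ContinuousAt (AA c F) V := by
  have hd : DifferentiableOn ℂ F (WW κ L) := fun U hU => (E.dW U hU).differentiableWithinAt
  have han := hd.analyticAt ((isOpen_WW κ L).mem_nhds hV)
  exact ((han.deriv.continuousAt).div han.continuousAt (E.ne V hV)).add continuousAt_const

/-- the logarithmic derivative is bounded near `- ∞` -/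
theorem AA_bdd (H : Inv v κ L σ) (K : KJ v κ L p) (E : Ext v σ f κ L w r F) {ρ : ℝ}
    (hρ0 : 0 ≤ ρ) (hρ1 : ρ < 1)
    (hn : ∀ ε > 0, ∀ C' : ℝ, ∃ C : ℝ, C' ≤ C ∧ ∀ V ∈ WW κ L, V.re < -C →
      ‖(2 * c - (w + c * κ) / deriv v (σ V) : ℂ)‖ ≤ ε ∧ ‖(-1 + κ / deriv v (σ V) : ℂ)‖ ≤ ρ ∧
      (TT v σ V).re < -C') :
    ∃ S C : ℝ, 0 ≤ S ∧ ∀ V ∈ WW κ L, V.re < -C → ‖AA c F V‖ ≤ S := by
  have hκ := K.hκ
  have hL := K.hL
  obtain ⟨C, hC1, hC⟩ := hn 1 one_pos 1
  set h := κ * L / 2 with hh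
  have hh0 : 0 < h := by positivity
  set Q : Set ℂ := (Icc (-C) (-1)) ×ℂ (Icc (-(ρ * h)) (ρ * h)) with hQ
  have hQc : IsCompact Q := isCompact_Icc.reProdIm isCompact_Icc
  have hQW : Q ⊆ WW κ L := by
    intro z hz
    rw [hQ, Complex.mem_reProdIm] at hz
    refine ⟨by linarith [hz.1.2], ?_⟩
    have : |z.im| ≤ ρ * h := abs_le.2 hz.2
    have h2 : ρ * h < h := by nlinarith
    exact this.trans_lt h2
  obtain ⟨S0, hS0⟩ := hQc.exists_bound_of_continuousOn
    (fun z hz => (AA_cont (c := c) E (hQW hz)).continuousWithinAt)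
  set S := max S0 0 + 1 / (1 - ρ) with hS
  have h1ρ : 0 < 1 - ρ := by linarith
  have hS' : 1 + ρ * S ≤ S := by
    have e : (1 - ρ) * S = (1 - ρ) * max S0 0 + 1 := by
      rw [hS]; field_simp
    have : 0 ≤ (1 - ρ) * max S0 0 := mul_nonneg h1ρ.le (le_max_right _ _)
    nlinarith
  have hS0S : S0 ≤ S := by
    have : 0 ≤ 1 / (1 - ρ) := by positivity
    linarith [le_max_left S0 0]
  have hSp : 0 ≤ S := by
    have : 0 ≤ 1 / (1 - ρ) := by positivity
    linarith [le_max_right S0 0]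
  refine ⟨S, C, hSp, ?_⟩
  have key : ∀ n : ℕ, ∀ V ∈ WW κ L, V.re < -C → (∃ k ≤ n, -C ≤ ((TT v σ)^[k] V).re) →
      ‖AA c F V‖ ≤ S := by
    intro n
    induction n with
    | zero =>
      rintro V hV hVC ⟨k, hk, h1⟩
      have : k = 0 := by omega
      subst this
      simp at h1
      linarith
    | succ n ih =>
      rintro V hV hVC ⟨k, hk, h1⟩
      obtain ⟨b1, b2, b3⟩ := hC V hV hVC
      have hT := H.Tmem K hV
      have hle : ‖AA c F (TT v σ V)‖ ≤ S := by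
        rcases lt_or_ge (TT v σ V).re (-C) with h2 | h2
        · refine ih _ hT h2 ?_
          cases k with
          | zero => simp at h1; linarith
          | succ k =>
            refine ⟨k, by omega, ?_⟩
            rw [Function.iterate_succ_apply] at h1
            exact h1
        · refine (hS0 _ ?_).trans hS0S
          rw [hQ, Complex.mem_reProdIm]
          refine ⟨⟨h2, b3.le⟩, ?_⟩
          have := im_contr H K hρ0 (fun V hV h => (hC V hV h).2.1) hV hVC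
          have h3 : ρ * |V.im| ≤ ρ * h := mul_le_mul_of_nonneg_left hV.2.le hρ0
          exact abs_le.1 (this.trans h3)
      rw [AA_law H K E hV]
      refine (norm_add_le _ _).trans ?_
      rw [norm_mul]
      have h4 : ‖(-1 + κ / deriv v (σ V) : ℂ)‖ * ‖AA c F (TT v σ V)‖ ≤ ρ * S :=
        mul_le_mul b2 hle (norm_nonneg _) hρ0
      linarith
  intro V hV hVC
  have ho := H.orbit K hV
  have hre : Tendsto (fun n => ((TT v σ)^[n] V).re) atTop (𝓝 0) :=
    (Complex.continuous_re.tendsto 0).comp ho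
  obtain ⟨n, hn⟩ := (hre.eventually (lt_mem_nhds (show (-1 : ℝ) < 0 by norm_num))).exists
  exact key n V hV hVC ⟨n, le_rfl, by linarith⟩

/-- the logarithmic derivative tends to `0` at `- ∞` -/
theorem AA_lim (H : Inv v κ L σ) (K : KJ v κ L p) (E : Ext v σ f κ L w r F)
    (hc : c * (2 * p - κ) = w) {δ : ℝ} (hδ : 0 < δ) :
    ∃ C : ℝ, ∀ V ∈ WW κ L, V.re < -C → ‖AA c F V‖ ≤ δ := by
  obtain ⟨ρ, hρ0, hρ1, hn⟩ := near2 (c := c) H K hc
  obtain ⟨S, C0, hS, hb⟩ := AA_bdd H K E hρ0 hρ1 hn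
  have h1ρ : 0 < 1 - ρ := by linarith
  set ε := (1 - ρ) * δ / 2 with hε
  have hε0 : 0 < ε := by positivity
  have key : ∀ k : ℕ, ∃ C : ℝ, ∀ V ∈ WW κ L, V.re < -C → ‖AA c F V‖ ≤ ρ ^ k * S + δ / 2 := by
    intro k
    induction k with
    | zero => exact ⟨C0, fun V hV h => by have := hb V hV h; simp; linarith⟩
    | succ k ih =>
      obtain ⟨C, hC⟩ := ih
      obtain ⟨C', -, hC'⟩ := hn ε hε0 C
      refine ⟨C', fun V hV h => ?_⟩
      obtain ⟨b1, b2, b3⟩ := hC' V hV h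
      have h1 := hC _ (H.Tmem K hV) b3
      rw [AA_law H K E hV]
      refine (norm_add_le _ _).trans ?_
      rw [norm_mul]
      have h4 : ‖(-1 + κ / deriv v (σ V) : ℂ)‖ * ‖AA c F (TT v σ V)‖ ≤ ρ * (ρ ^ k * S + δ / 2) :=
        mul_le_mul b2 h1 (norm_nonneg _) hρ0
      have h5 : ε + ρ * (ρ ^ k * S + δ / 2) = ρ ^ (k + 1) * S + δ / 2 := by
        rw [hε, pow_succ]; ring
      linarith
  have ht : Tendsto (fun k : ℕ => ρ ^ k * S) atTop (𝓝 0) := by
    have := (tendsto_pow_atTop_nhds_zero_of_lt_one hρ0 hρ1).mul_const S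
    rwa [zero_mul] at this
  obtain ⟨k, hk⟩ := (ht.eventually_lt_const (half_pos hδ)).exists
  obtain ⟨C, hC⟩ := key k
  exact ⟨C, fun V hV h => (hC V hV h).trans (by linarith)⟩

end Vale.Agent.P097.H330.KI
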