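import Vale.Agent.P097.H330.KI4

/-! # P097 / H330 / KI: the abstract kill at the end `V → - ∞`. -/

set_option linter.all false

open Complex Metric Filter Topology Set
open scoped ComplexConjugate

namespace Vale.Agent.P097.H330.KI

open Vale.Agent.P097.H244

variable {v : ℂ → ℂ} {κ L p w r c : ℝ} {σ f F : ℂ → ℂ}

noncomputable def GA (c : ℝ) (F : ℂ → ℂ) (V : ℂ) : ℂ := exp (c * V) * F V

theorem GA_deriv (E : Ext v σ f κ L w r F) {V : ℂ} (hV : V ∈ WW κ L) :
    HasDerivAt (GA c F) (AA c F V * GA c F V) V := by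
  have h1 := (E.dW V hV).hasDerivAt
  have h2 : HasDerivAt (fun V : ℂ => exp (c * V)) (exp (c * V) * c) V := by
    have : HasDerivAt (fun V : ℂ => (c : ℂ) * V) c V := by
      simpa using (hasDerivAt_id V).const_mul (c : ℂ)
    exact this.cexp
  refine (h2.mul h1).congr_deriv ?_
  have n1 := E.ne _ hV
  rw [AA, GA]
  field_simp
  ring

theorem GA_seg (E : Ext v σ f κ L w r F) {C δ : ℝ} (hδ : 0 < δ)
    (hb : ∀ V ∈ WW κ L, V.re < -C → ‖AA c F V‖ ≤ δ) {U V : ℂ} (hU : U ∈ WW κ L)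
    (hU' : U.re < -C) (hV : V ∈ WW κ L) (hV' : V.re < -C) (hne : U ≠ V) :
    ‖GA c F V - GA c F U‖ ≤ ‖GA c F U‖ * (Real.exp (δ * ‖V - U‖) - 1) := by
  have hconv : Convex ℝ (WW κ L ∩ {z : ℂ | z.re < -C}) :=
    (convex_WW κ L).inter (convex_halfSpace_re_lt _)
  have hz : ∀ t ∈ Icc (0 : ℝ) 1, U + t * (V - U) ∈ WW κ L ∩ {z : ℂ | z.re < -C} := by
    intro t ht
    have := hconv.add_smul_sub_mem (x := U) (y := V) ⟨hU, hU'⟩ ⟨hV, hV'⟩ ht
    simpa using this
  have hd : ∀ t ∈ Icc (0 : ℝ) 1, HasDerivAt (fun t : ℝ => GA c F (U + t * (V - U)) - GA c F U)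
      (AA c F (U + t * (V - U)) * GA c F (U + t * (V - U)) * (V - U)) t := by
    intro t ht
    have h1 : HasDerivAt (fun z : ℂ => U + z * (V - U)) (V - U) (t : ℂ) := by
      simpa using ((hasDerivAt_id (t : ℂ)).mul_const (V - U)).const_add U
    have h2 := HasDerivAt.comp (t : ℂ) (h₂ := GA c F) (GA_deriv E (hz t ht).1) h1
    exact (h2.comp_ofReal).sub_const _
  set k := δ * ‖V - U‖ with hk
  have hk0 : 0 < k := mul_pos hδ (norm_pos_iff.2 (sub_ne_zero.2 hne.symm))
  have hg := norm_le_gronwallBound_of_norm_deriv_right_le (δ := 0) (K := k)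
    (ε := k * ‖GA c F U‖) (a := 0) (b := 1)
    (fun t ht => (hd t ht).continuousAt.continuousWithinAt)
    (fun t ht => (hd t (Ico_subset_Icc_self ht)).hasDerivWithinAt) (by simp) (by
      intro t ht
      have hz' := hz t (Ico_subset_Icc_self ht)
      have h1 := hb _ hz'.1 hz'.2
      rw [norm_mul, norm_mul]
      have h2 : ‖GA c F (U + t * (V - U))‖ ≤ ‖GA c F (U + t * (V - U)) - GA c F U‖ +
          ‖GA c F U‖ := by
        have := norm_add_le (GA c F (U + t * (V - U)) - GA c F U) (GA c F U)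
        rwa [sub_add_cancel] at this
      have h3 : ‖AA c F (U + t * (V - U))‖ * ‖GA c F (U + t * (V - U))‖ ≤
          δ * (‖GA c F (U + t * (V - U)) - GA c F U‖ + ‖GA c F U‖) :=
        mul_le_mul h1 h2 (norm_nonneg _) hδ.le
      have h4 := mul_le_mul_of_nonneg_right h3 (norm_nonneg (V - U))
      refine h4.trans (le_of_eq ?_)
      rw [hk]; ring) 1 (right_mem_Icc.2 zero_le_one)
  rw [gronwallBound_of_K_ne_0 hk0.ne'] at hg
  simp only [Complex.ofReal_one, one_mul, add_sub_cancel, sub_zero, mul_one, zero_mul,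
    zero_add] at hg
  refine hg.trans (le_of_eq ?_)
  field_simp

theorem KJ.kill (K : KJ v κ L p) (hf : AnalyticAt ℂ f 0)
    (hne : ¬ ∀ᶠ A in 𝓝 (0 : ℂ), f A = 0) (hodd : ∀ᶠ A in 𝓝 (0 : ℂ), f (-A) = -f A)
    (hch : ∀ᶠ s in 𝓝 (0 : ℂ), f (v s) = -(exp (w * s) * f (v (-s))))
    (hc : c * (2 * p - κ) = w) :
    1 + exp ((w + c * κ) * (I * L)) = 0 := by
  have hκ := K.hκ
  have hL := K.hL
  obtain ⟨r, G⟩ := exists_germ hκ hf hne hodd hch
  obtain ⟨σ, H⟩ := K.exists_inv
  obtain ⟨F, E⟩ := exists_ext H K G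
  have key : ∀ δ > 0, ‖1 + exp ((w + c * κ) * (I * L))‖ ≤ Real.exp (δ * (κ * L)) - 1 := by
    intro δ hδ
    obtain ⟨C, hC⟩ := AA_lim H K E hc hδ
    have h1 : ∀ᶠ y : ℝ in 𝓝[<] L, (v (I * (y : ℂ))).re < -C :=
      K.bot.eventually (Filter.eventually_lt_atBot _)
    have h2 : ∀ᶠ y : ℝ in 𝓝[<] L, 0 < y ∧ y < L := by
      have : Ioo 0 L ∈ 𝓝[<] L := Ioo_mem_nhdsLT hL
      filter_upwards [this] with y hy using ⟨hy.1, hy.2⟩
    have h3 : Tendsto (fun y : ℝ => ‖1 + exp ((w + c * κ) * (I * y))‖) (𝓝[<] L)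
        (𝓝 ‖1 + exp ((w + c * κ) * (I * L))‖) := by
      have : Continuous fun y : ℝ => ‖1 + exp ((w + c * κ) * (I * (y : ℂ)))‖ := by fun_prop
      exact (this.tendsto L).mono_left nhdsWithin_le_nhds
    refine le_of_tendsto h3 ?_
    filter_upwards [h1, h2] with y h4 h5
    have hy : |y| < L := by rw [abs_of_pos h5.1]; exact h5.2
    have hp := K.mem_ax h5.1.ne' hy
    have hm := (K.mem_ax (y := -y) (neg_ne_zero.2 h5.1.ne') (by rwa [abs_neg])).1
    have h6 : (I * ((-y : ℝ) : ℂ)) = -(I * y) := by push_cast; ring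
    rw [h6] at hm
    have hre : (v (-(I * (y : ℂ)))).re = (v (I * y)).re := by
      have := congrArg Complex.re hp.2
      simp at this
      linarith
    have hne' : v (-(I * (y : ℂ))) ≠ v (I * y) := by
      intro h7
      have h8 := hp.2
      rw [h7, sub_self] at h8
      have h9 : (κ : ℂ) * (I * y) ≠ 0 := by
        simp [hκ.ne', h5.1.ne']
      exact h9 h8.symm
    have hl := law_ax H K G E h5.1.le h5.2
    have hs := GA_seg E hδ hC hm (by rw [hre]; exact h4) hp.1 h4 hne'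
    have hn : ‖v (I * (y : ℂ)) - v (-(I * y))‖ ≤ κ * L := by
      rw [hp.2, norm_mul, norm_mul, Complex.norm_I, one_mul, Complex.norm_real, Complex.norm_real,
        Real.norm_eq_abs, Real.norm_eq_abs, abs_of_pos hκ]
      exact mul_le_mul_of_nonneg_left hy.le hκ.le
    have hG : GA c F (v (I * y)) = -(exp ((w + c * κ) * (I * y)) * GA c F (v (-(I * y)))) := by
      rw [GA, GA, hl]
      have h8 : v (I * y) = v (-(I * y)) + κ * (I * y) := by linear_combination hp.2
      have h9 : exp (c * v (I * y)) * exp (w * (I * y)) =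
          exp ((w + c * κ) * (I * y)) * exp (c * v (-(I * y))) := by
        rw [← Complex.exp_add, ← Complex.exp_add]
        congr 1
        nth_rw 1 [h8]
        ring
      linear_combination (-F (v (-(I * y)))) * h9
    have h10 : GA c F (v (-(I * y))) ≠ 0 := mul_ne_zero (Complex.exp_ne_zero _) (E.ne _ hm)
    have h11 : 0 < ‖GA c F (v (-(I * y)))‖ := norm_pos_iff.2 h10
    rw [hG, show -(exp ((w + c * κ) * (I * y)) * GA c F (v (-(I * y)))) - GA c F (v (-(I * y))) =
      -(GA c F (v (-(I * y))) * (1 + exp ((w + c * κ) * (I * y)))) by ring, norm_neg,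
      norm_mul] at hs
    have h12 := le_of_mul_le_mul_left hs h11
    refine h12.trans ?_
    have : δ * ‖v (I * (y : ℂ)) - v (-(I * y))‖ ≤ δ * (κ * L) := mul_le_mul_of_nonneg_left hn hδ.le
    have := Real.exp_le_exp.2 this
    linarith
  have hlim : Tendsto (fun δ : ℝ => Real.exp (δ * (κ * L)) - 1) (𝓝[>] 0) (𝓝 0) := by
    have : Continuous fun δ : ℝ => Real.exp (δ * (κ * L)) - 1 := by fun_prop
    have h := (this.tendsto 0).mono_left (nhdsWithin_le_nhds (s := Ioi 0))
    simpa using h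
  have h0 : ‖1 + exp ((w + c * κ) * (I * L))‖ ≤ 0 := by
    refine ge_of_tendsto hlim ?_
    filter_upwards [self_mem_nhdsWithin] with δ hδ
    exact key δ hδ
  exact norm_le_zero_iff.1 h0

end Vale.Agent.P097.H330.KI
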