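import Vale.Agent.P097.H330.KI5
import Vale.Agent.P097.H244.Inst5

/-! # P097 / H330 / KI: the data of the law at an isotropic end with exponent `m ≥ 3`. -/

set_option linter.all false

open Complex Metric Filter Topology Set
open scoped ComplexConjugate

namespace Vale.Agent.P097.H330.KI

open Vale.Agent.P097.H244

section

variable {a b : ℝ}

theorem ha0 (hb : 0 ≤ b) (hab : b < a) : 0 < a := by linarith

theorem par (hb : 0 ≤ b) (hab : b < a) {t : ℝ} (ht : t ∈ Ioo (0 : ℝ) 1) :
    0 < b + t * (a - b) ∧ b ≤ b + t * (a - b) ∧ b + t * (a - b) ≤ a := by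
  obtain ⟨h0, h1⟩ := ht
  have h2 : 0 < t * (a - b) := mul_pos h0 (by linarith)
  refine ⟨by linarith, by linarith, ?_⟩
  nlinarith

theorem par_mem (hb : 0 ≤ b) (hab : b < a) {t : ℝ} (ht : t ∈ Icc (0 : ℝ) 1) {s : ℂ}
    (hs : |s.im| < 2 * Real.pi / a) :
    ((b + t * (a - b) : ℝ) : ℂ) * s ∈ SS (2 * Real.pi) := by
  obtain ⟨h0, h1⟩ := ht
  have h2 : 0 ≤ t * (a - b) := mul_nonneg h0 (by linarith)
  have h3 : b + t * (a - b) ≤ a := by nlinarith
  exact mem_u (ha0 hb hab) (by rwa [abs_of_nonneg (by linarith)]) hs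

theorem par_PP (hb : 0 ≤ b) (hab : b < a) {t : ℝ} (ht : t ∈ Ioo (0 : ℝ) 1) {s : ℂ}
    (hs : s ∈ PP (2 * Real.pi / a)) :
    ((b + t * (a - b) : ℝ) : ℂ) * s ∈ PP (2 * Real.pi) := by
  refine ⟨?_, par_mem hb hab (Ioo_subset_Icc_self ht) hs.2⟩
  rw [Complex.re_ofReal_mul]
  exact mul_pos (par hb hab ht).1 hs.1

theorem e_ray (a b : ℝ) (s : ℂ) (t : ℝ) :
    (b : ℂ) * s + t * ((a - b : ℝ) * s) = ((b + t * (a - b) : ℝ) : ℂ) * s := by
  push_cast; ring

theorem ell_ray_c (hb : 0 ≤ b) (hab : b < a) {s c : ℂ} (hs : |s.im| < 2 * Real.pi / a)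
    {t : ℝ} (ht : t ∈ Icc (0 : ℝ) 1) :
    HasDerivAt (fun t : ℝ => (ell (b * s + t * ((a - b : ℝ) * s)) * c).re)
      ((deriv ell (b * s + t * ((a - b : ℝ) * s)) * ((a - b : ℝ) * s) * c).re) t := by
  have hm := par_mem hb hab ht hs
  have hd : DifferentiableAt ℂ ell (b * s + t * ((a - b : ℝ) * s)) := by
    rw [e_ray]; exact ell_dAt hm
  exact hasDerivAt_re_line (c := c) hd

theorem ell_ray (hb : 0 ≤ b) (hab : b < a) {s c : ℂ} (h0 : s ≠ 0) (hs : |s.im| < 2 * Real.pi / a)
    {t : ℝ} (ht : t ∈ Ioo (0 : ℝ) 1) :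
    HasDerivAt (fun t : ℝ => (ell (b * s + t * ((a - b : ℝ) * s)) * c).re)
      ((a - b) / (b + t * (a - b)) * (gg (((b + t * (a - b) : ℝ) : ℂ) * s) * c).re) t := by
  have hp := par hb hab ht
  have hm := par_mem hb hab (Ioo_subset_Icc_self ht) hs
  have h1 := ell_ray_c (c := c) hb hab hs (Ioo_subset_Icc_self ht)
  refine h1.congr_deriv ?_
  have hu : ((b + t * (a - b) : ℝ) : ℂ) ≠ 0 := by exact_mod_cast hp.1.ne'
  rw [e_ray, (ell_deriv hm (mul_ne_zero hu h0)).deriv]
  refine re_mul_of ?_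
  rw [Complex.ofReal_div]
  field_simp

theorem ray_cont (hb : 0 ≤ b) (hab : b < a) {s c : ℂ}
    (hs : |s.im| < 2 * Real.pi / a) :
    ContinuousOn (fun t : ℝ => (ell (b * s + t * ((a - b : ℝ) * s)) * c).re) (Icc 0 1) :=
  fun _ ht => (ell_ray_c hb hab hs ht).continuousAt.continuousWithinAt

theorem vv_lt (hb : 0 ≤ b) (hab : b < a) {s c : ℂ} (h0 : s ≠ 0)
    (hs : |s.im| < 2 * Real.pi / a)
    (h : ∀ u : ℝ, 0 < u → u ≤ a → 0 < (gg ((u : ℂ) * s) * c).re) : 0 < (vv a b s * c).re := by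
  rw [← ray_ends]
  refine seg_gt (ray_cont hb hab hs)
    (fun t ht => ell_ray hb hab h0 hs ht) ?_
  intro t ht
  have hp := par hb hab ht
  have := h _ hp.1 hp.2.2
  have h2 : 0 < a - b := by linarith
  exact mul_pos (div_pos h2 hp.1) this

theorem vv_neg (hb : 0 ≤ b) (hab : b < a) {s : ℂ} (hs : s ∈ PP (2 * Real.pi / a)) :
    (vv a b (-s)).re < 0 := by
  have h0 : s ≠ 0 := by
    rintro rfl; exact absurd hs.1 (by simp)
  have := vv_lt (c := -1) hb hab (neg_ne_zero.2 h0) (s := -s)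
    (by rw [Complex.neg_im, abs_neg]; exact hs.2) (fun u hu hua => by
      have h1 : (u : ℂ) * s ∈ PP (2 * Real.pi) := by
        refine ⟨by rw [Complex.re_ofReal_mul]; exact mul_pos hu hs.1, ?_⟩
        exact mem_u (hu.trans_le hua) (by rwa [abs_of_pos hu]) hs.2
      have h2 := gg_neg_re h1
      rw [mul_neg]
      simpa using h2)
  simpa using this

theorem vv_ax (hb : 0 ≤ b) (hab : b < a) {y : ℝ} (h0 : y ≠ 0) (hy : |y| < 2 * Real.pi / a) :
    (vv a b (I * y)).re < 0 := by
  have := vv_lt (c := -1) hb hab (s := I * y) (by simp [h0])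
    (by simpa using hy) (fun u hu hua => by
      have e : (u : ℂ) * (I * y) = I * ((u * y : ℝ) : ℂ) := by push_cast; ring
      have h1 : |u * y| < 2 * Real.pi := by
        rw [lt_div_iff₀ (hu.trans_le hua)] at hy
        rw [abs_mul, abs_of_pos hu]
        nlinarith [abs_nonneg y]
      have h2 := gg_ax (mul_ne_zero hu.ne' h0) h1
      rw [e]
      simpa using h2)
  simpa using this

theorem vv_ctr (hb : 0 ≤ b) (hab : b < a) {s : ℂ} (hs : s ∈ PP (2 * Real.pi / a)) :
    0 < ((vv a b s + vv a b (-s)) * conj s).re := by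
  have h0 : s ≠ 0 := by
    rintro rfl; exact absurd hs.1 (by simp)
  have h0' : -s ≠ 0 := neg_ne_zero.2 h0
  have hs' : |(-s).im| < 2 * Real.pi / a := by rw [Complex.neg_im, abs_neg]; exact hs.2
  rw [add_mul, Complex.add_re, ← ray_ends, ← ray_ends]
  have := seg_gt (c := 0)
    ((ray_cont (c := conj s) hb hab hs.2).add (ray_cont (c := conj s) hb hab hs'))
    (fun t ht => (ell_ray hb hab h0 hs.2 ht).add (ell_ray hb hab h0' hs' ht)) ?_
  · simp only [Pi.add_apply] at this
    linarith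
  · intro t ht
    have hp := par hb hab ht
    have hP := par_PP hb hab ht hs
    have h1 := gg_ctr hP
    set u := b + t * (a - b)
    have e : (gg ((u : ℂ) * s) + gg (-((u : ℂ) * s))) * conj ((u : ℂ) * s) =
        (u : ℂ) * (gg ((u : ℂ) * s) * conj s + gg ((u : ℂ) * (-s)) * conj s) := by
      rw [map_mul, Complex.conj_ofReal, mul_neg]; ring
    rw [e, Complex.re_ofReal_mul, Complex.add_re] at h1
    have h2 : 0 < a - b := by linarith
    have h3 := (pos_iff_pos_of_mul_pos h1).1 hp.1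
    rw [← mul_add]
    exact mul_pos (div_pos h2 hp.1) h3

theorem vv_deriv (hb : 0 ≤ b) (hab : b < a) {s : ℂ} (hs : |s.im| < 2 * Real.pi / a)
    (h0 : s ≠ 0) : HasDerivAt (vv a b) ((gg (a * s) - gg (b * s)) / s) s := by
  have ha : 0 < a := ha0 hb hab
  have hac : (a : ℂ) ≠ 0 := by exact_mod_cast ha.ne'
  have h1 := ell_deriv (mem_u ha (by rw [abs_of_pos ha]) hs) (mul_ne_zero hac h0)
  have m1 : HasDerivAt (fun s : ℂ => (a : ℂ) * s) a s := by
    simpa using (hasDerivAt_id s).const_mul (a : ℂ)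
  rcases hb.eq_or_lt with hb0 | hb0
  · subst hb0
    have h3 := (HasDerivAt.comp s h1 m1).sub (hasDerivAt_const s (ell 0))
    have e : vv a 0 = ell ∘ (fun s : ℂ => (a : ℂ) * s) - fun _ => ell 0 := by
      funext z
      simp [vv]
    rw [e]
    refine (h3.congr_deriv ?_)
    simp only [Complex.ofReal_zero, zero_mul, gg_zero, sub_zero]
    field_simp
  · exact H244.vv_deriv hb0 hab hs h0

theorem vv_der (hb : 0 ≤ b) (hab : b < a) {s : ℂ} (hs : s ∈ PP (2 * Real.pi / a)) :
    (a - b) / 2 < (deriv (vv a b) s).re := by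
  have h0 : s ≠ 0 := by
    rintro rfl; exact absurd hs.1 (by simp)
  rw [(vv_deriv hb hab hs.2 h0).deriv]
  have hl : ∀ t ∈ Icc (0 : ℝ) 1,
      HasDerivAt (fun t : ℝ => (gg (b * s + t * ((a - b : ℝ) * s)) * s⁻¹).re)
        ((deriv gg (b * s + t * ((a - b : ℝ) * s)) * ((a - b : ℝ) * s) * s⁻¹).re) t := by
    intro t ht
    refine hasDerivAt_re_line ?_
    rw [e_ray]
    have hm := par_mem hb hab ht hs.2
    exact (gg_diff _ hm).differentiableAt ((isOpen_SS _).mem_nhds hm)
  have := seg_gt (c := (a - b) / 2) (fun t ht => (hl t ht).continuousAt.continuousWithinAt)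
    (fun t ht => hl t (Ioo_subset_Icc_self ht)) ?_
  · simp only [Complex.ofReal_one, one_mul, Complex.ofReal_zero, zero_mul, add_zero] at this
    have e : (b : ℂ) * s + (a - b : ℝ) * s = a * s := by push_cast; ring
    rw [e, ← Complex.sub_re, ← sub_mul, ← div_eq_mul_inv] at this
    exact this
  · intro t ht
    have h1 := gg_der_re (par_PP hb hab ht hs)
    have h2 : 0 < a - b := by linarith
    rw [e_ray]
    have e2 : deriv gg (((b + t * (a - b) : ℝ) : ℂ) * s) * ((a - b : ℝ) * s) * s⁻¹ =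
        ((a - b : ℝ) : ℂ) * deriv gg (((b + t * (a - b) : ℝ) : ℂ) * s) := by
      field_simp
    rw [e2, Complex.re_ofReal_mul]
    nlinarith

theorem mem_b (hb : 0 ≤ b) (hab : b < a) {s : ℂ} (hs : |s.im| < 2 * Real.pi / a) :
    (b : ℂ) * s ∈ SS (2 * Real.pi) :=
  mem_u (ha0 hb hab) (by rw [abs_of_nonneg hb]; exact hab.le) hs

theorem mem_a (hb : 0 ≤ b) (hab : b < a) {s : ℂ} (hs : |s.im| < 2 * Real.pi / a) :
    (a : ℂ) * s ∈ SS (2 * Real.pi) :=
  mem_u (ha0 hb hab) (by rw [abs_of_pos (ha0 hb hab)]) hs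

theorem vv_far (hb : 0 ≤ b) (hab : b < a) (M : ℝ) :
    ∃ C : ℝ, ∀ s ∈ PP (2 * Real.pi / a), C < (vv a b s).re → M < s.re := by
  have ha : 0 < a := ha0 hb hab
  set L := 2 * Real.pi / a with hL
  have hpi := Real.pi_pos
  have hKc : IsCompact ((Icc 0 M) ×ℂ (Icc (-L) L)) := isCompact_Icc.reProdIm isCompact_Icc
  have hL0 : 0 < L := by positivity
  have hq : ∀ z ∈ (Icc 0 M) ×ℂ (Icc (-L) L), Ex (b * z) ≠ 0 := by
    intro z hz
    rw [Complex.mem_reProdIm] at hz
    refine Ex_ne ?_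
    rw [Complex.im_ofReal_mul, abs_mul, abs_of_nonneg hb]
    have h1 : |z.im| ≤ L := abs_le.2 hz.2
    have h2 : b * |z.im| ≤ b * L := mul_le_mul_of_nonneg_left h1 hb
    have h3 : b * L < a * L := mul_lt_mul_of_pos_right hab hL0
    have h4 : a * L = 2 * Real.pi := by rw [hL]; field_simp
    linarith
  have hcont : ContinuousOn (fun z : ℂ => Ex (a * z) / Ex (b * z)) ((Icc 0 M) ×ℂ (Icc (-L) L)) := by
    refine ContinuousOn.div ?_ ?_ hq
    · exact (Ex_cont.comp (continuous_const.mul continuous_id)).continuousOn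
    · exact (Ex_cont.comp (continuous_const.mul continuous_id)).continuousOn
  obtain ⟨B, hB⟩ := hKc.exists_bound_of_continuousOn hcont
  refine ⟨B, fun s hs h => ?_⟩
  by_contra hM
  push Not at hM
  have h1 : s ∈ (Icc 0 M) ×ℂ (Icc (-L) L) := by
    rw [Complex.mem_reProdIm]
    exact ⟨⟨hs.1.le, hM⟩, abs_le.1 hs.2.le⟩
  have h2 := hB s h1
  have h3 : Complex.exp (vv a b s) = Ex (a * s) / Ex (b * s) := by
    rw [vv, Complex.exp_sub, exp_ell (mem_a hb hab hs.2), exp_ell (mem_b hb hab hs.2)]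
  rw [← h3, Complex.norm_exp] at h2
  have := Real.add_one_le_exp (vv a b s).re
  linarith

theorem vv_bot (hb : 0 ≤ b) (hab : b < a) :
    Tendsto (fun y : ℝ => (vv a b (I * y)).re) (𝓝[<] (2 * Real.pi / a)) atBot := by
  have ha : 0 < a := ha0 hb hab
  set L := 2 * Real.pi / a with hL
  have hpi := Real.pi_pos
  have hL0 : 0 < L := by positivity
  have h4 : a * L = 2 * Real.pi := by rw [hL]; field_simp
  have hI : Ioo 0 L ∈ 𝓝[<] L := Ioo_mem_nhdsLT hL0
  have hmem : ∀ y ∈ Ioo 0 L, |(I * (y : ℂ)).im| < L := by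
    intro y hy
    simpa [abs_of_pos hy.1] using hy.2
  have h1 : (fun y : ℝ => (vv a b (I * y)).re) =ᶠ[𝓝[<] L]
      fun y => Real.log ‖Ex (a * (I * y))‖ + -Real.log ‖Ex (b * (I * y))‖ := by
    filter_upwards [hI] with y hy
    rw [vv, Complex.sub_re, re_ell (mem_a hb hab (hmem y hy)),
      re_ell (mem_b hb hab (hmem y hy))]
    ring
  refine Tendsto.congr' h1.symm ?_
  have hbL : Ex (b * (I * L)) ≠ 0 := by
    refine Ex_ne ?_
    have : ((b : ℂ) * (I * L)).im = b * L := by simp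
    rw [this, abs_of_nonneg (by positivity)]
    nlinarith
  have hc : ∀ c : ℝ, Continuous fun y : ℝ => ‖Ex (c * (I * y))‖ := by
    intro c
    exact (Ex_cont.comp (continuous_const.mul (continuous_const.mul Complex.continuous_ofReal))).norm
  have t2 : Tendsto (fun y : ℝ => -Real.log ‖Ex (b * (I * y))‖) (𝓝[<] L)
      (𝓝 (-Real.log ‖Ex (b * (I * L))‖)) := by
    refine Tendsto.neg ?_
    refine ((Real.continuousAt_log (norm_ne_zero_iff.2 hbL)).tendsto.comp ?_)
    exact ((hc b).tendsto L).mono_left nhdsWithin_le_nhds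
  refine Tendsto.atBot_add ?_ t2
  refine Real.tendsto_log_nhdsGT_zero.comp ?_
  rw [tendsto_nhdsWithin_iff]
  constructor
  · have h5 := ((hc a).tendsto L).mono_left (nhdsWithin_le_nhds (s := Iio L))
    have h6 : Ex (a * (I * L)) = 0 := by
      have e : (a : ℂ) * (I * L) = 2 * Real.pi * I := by
        have : ((a * L : ℝ) : ℂ) = ((2 * Real.pi : ℝ) : ℂ) := by rw [h4]
        push_cast at this
        linear_combination I * this
      rw [e, Ex_of_ne (by simp [hpi.ne']), Complex.exp_two_pi_mul_I]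
      simp
    rw [h6, norm_zero] at h5
    exact h5
  · filter_upwards [hI] with y hy
    exact norm_pos_iff.2 (Ex_ne (mem_a hb hab (hmem y hy)))

/-! ## the other sign of `b` -/

theorem vv_flip (s : ℂ) : vv a (-b) s = vv a b s + b * s := by
  have h := ell_sub (b * s)
  rw [vv, vv]
  push_cast
  rw [neg_mul]
  linear_combination h

theorem vf_deriv (hb : 0 ≤ b) (hab : b < a) {s : ℂ} (hs : |s.im| < 2 * Real.pi / a)
    (h0 : s ≠ 0) : HasDerivAt (vv a (-b)) ((gg (a * s) - gg (b * s)) / s + b) s := by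
  have e : vv a (-b) = fun s => vv a b s + b * s := by
    funext s; exact vv_flip s
  rw [e]
  have : HasDerivAt (fun s : ℂ => (b : ℂ) * s) b s := by
    simpa using (hasDerivAt_id s).const_mul (b : ℂ)
  exact (vv_deriv hb hab hs h0).add this

/-- `z / (e ^ z - 1)` is small -/
theorem exp_sub_ge {u x₀ : ℝ} {s : ℂ} (hu : 0 ≤ u) (h : x₀ ≤ u * s.re) :
    Real.exp x₀ - 1 ≤ ‖Complex.exp (u * s) - 1‖ := by
  have h3 := norm_sub_norm_le (Complex.exp (u * s)) 1
  rw [Complex.norm_exp, norm_one, Complex.re_ofReal_mul] at h3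
  have h4 : Real.exp x₀ ≤ Real.exp (u * s.re) := Real.exp_le_exp.2 h
  linarith

theorem gg_div (hb : 0 < b) {s : ℂ} (hm : (b : ℂ) * s ∈ SS (2 * Real.pi)) (h0 : s ≠ 0) :
    gg (b * s) / s = b + b / (Complex.exp (b * s) - 1) - 1 / s := by
  have hbc : (b : ℂ) ≠ 0 := by exact_mod_cast hb.ne'
  have hz : (b : ℂ) * s ≠ 0 := mul_ne_zero hbc h0
  have he : Complex.exp (b * s) - 1 ≠ 0 := sub_ne_zero.2 (exp_ne_one hz hm)
  have h1 := gg_sub hm
  have h2 : gg (-(b * s)) = b * s / (Complex.exp (b * s) - 1) - 1 := by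
    rw [gg, neg_neg, Ex_of_ne hz, one_div_div]
  have h3 : gg (b * s) = b * s + (b * s / (Complex.exp (b * s) - 1) - 1) := by
    rw [← h2]; linear_combination h1
  rw [h3]
  field_simp
  ring

/-- `b / (e ^ (b s) - 1) → 0` -/
theorem small_e (hb : 0 < b) {ε : ℝ} (hε : 0 < ε) : ∃ M : ℝ, 0 < M ∧ ∀ s : ℂ, M < s.re →
    ‖(b : ℂ) / (Complex.exp (b * s) - 1)‖ < ε := by
  refine ⟨1 / ε, by positivity, fun s hs => ?_⟩
  have hs0 : 0 < s.re := lt_trans (by positivity) hs
  have h1 := exp_sub_ge (u := b) (s := s) hb.le le_rfl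
  have h2 : b * s.re ≤ Real.exp (b * s.re) - 1 := by
    have := Real.add_one_le_exp (b * s.re); linarith
  have h3 : 0 < b * s.re := mul_pos hb hs0
  rw [norm_div, Complex.norm_real, Real.norm_eq_abs, abs_of_pos hb, div_lt_iff₀ (by linarith)]
  have h4 : b < ε * (b * s.re) := by
    rw [div_lt_iff₀ hε] at hs
    nlinarith
  nlinarith

theorem small_i {ε : ℝ} (hε : 0 < ε) : ∃ M : ℝ, 0 < M ∧ ∀ s : ℂ, M < s.re →
    ‖(1 : ℂ) / s‖ < ε := by
  refine ⟨1 / ε, by positivity, fun s hs => ?_⟩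
  have hs0 : 0 < s.re := lt_trans (by positivity) hs
  have h1 := Complex.re_le_norm s
  rw [norm_div, norm_one, div_lt_iff₀ (by linarith)]
  rw [div_lt_iff₀ hε] at hs
  nlinarith

theorem vf_dlim (hb : 0 ≤ b) (hab : b < a) {ε : ℝ} (hε : 0 < ε) :
    ∃ M : ℝ, ∀ s ∈ PP (2 * Real.pi / a), M < s.re → ‖deriv (vv a (-b)) s - a‖ < ε := by
  have ha : 0 < a := ha0 hb hab
  obtain ⟨M1, hM1, h1⟩ := small_e ha (half_pos hε)
  rcases hb.eq_or_lt with hb0 | hb0
  · obtain ⟨M2, hM2, h2⟩ := small_i (half_pos hε)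
    refine ⟨max M1 M2, fun s hs h => ?_⟩
    have h0 : s ≠ 0 := by
      rintro rfl; exact absurd hs.1 (by simp)
    rw [(vf_deriv hb hab hs.2 h0).deriv, sub_div, gg_div ha (mem_a hb hab hs.2) h0, ← hb0]
    simp only [Complex.ofReal_zero, zero_mul, gg_zero, zero_div, sub_zero, add_zero]
    have e : (a : ℂ) + a / (Complex.exp (a * s) - 1) - 1 / s - a =
        a / (Complex.exp (a * s) - 1) - 1 / s := by ring
    rw [e]
    have k1 := h1 s ((le_max_left _ _).trans_lt h)
    have k2 := h2 s ((le_max_right _ _).trans_lt h)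
    have k3 := norm_sub_le ((a : ℂ) / (Complex.exp (a * s) - 1)) (1 / s)
    linarith
  · obtain ⟨M2, hM2, h2⟩ := small_e hb0 (half_pos hε)
    refine ⟨max M1 M2, fun s hs h => ?_⟩
    have h0 : s ≠ 0 := by
      rintro rfl; exact absurd hs.1 (by simp)
    rw [(vf_deriv hb hab hs.2 h0).deriv, sub_div, gg_div ha (mem_a hb hab hs.2) h0,
      gg_div hb0 (mem_b hb hab hs.2) h0]
    have e : (a : ℂ) + a / (Complex.exp (a * s) - 1) - 1 / s -
        (b + b / (Complex.exp (b * s) - 1) - 1 / s) + b - a =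
        a / (Complex.exp (a * s) - 1) - b / (Complex.exp (b * s) - 1) := by ring
    rw [e]
    have k1 := h1 s ((le_max_left _ _).trans_lt h)
    have k2 := h2 s ((le_max_right _ _).trans_lt h)
    have k3 := norm_sub_le ((a : ℂ) / (Complex.exp (a * s) - 1)) (b / (Complex.exp (b * s) - 1))
    linarith

theorem vf_inf (hb : 0 ≤ b) (hab : b < a) (C : ℝ) :
    ∃ M : ℝ, ∀ s ∈ PP (2 * Real.pi / a), M < s.re → (vv a (-b) (-s)).re < -C := by
  have ha : 0 < a := ha0 hb hab
  rcases hb.eq_or_lt with hb0 | hb0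
  · refine ⟨2 * Real.exp C / a, fun s hs h => ?_⟩
    have h0 : s ≠ 0 := by
      rintro rfl; exact absurd hs.1 (by simp)
    have hs' : |(-s).im| < 2 * Real.pi / a := by rw [Complex.neg_im, abs_neg]; exact hs.2
    have hm := mem_a hb hab hs'
    have e : vv a (-b) (-s) = ell (a * (-s)) := by
      rw [← hb0, vv]
      simp [ell_zero]
    rw [e, re_ell hm]
    have hac : (a : ℂ) ≠ 0 := by exact_mod_cast ha.ne'
    have hz : (a : ℂ) * (-s) ≠ 0 := mul_ne_zero hac (neg_ne_zero.2 h0)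
    have h1 : ‖Complex.exp (a * (-s)) - 1‖ < 2 := by
      have k1 := norm_sub_le (Complex.exp (a * (-s))) 1
      rw [Complex.norm_exp, norm_one, Complex.re_ofReal_mul, Complex.neg_re] at k1
      have k2 : Real.exp (a * (-s.re)) < 1 := by
        rw [Real.exp_lt_one_iff]
        have := mul_pos ha hs.1
        linarith
      linarith
    have h2 : a * s.re ≤ ‖(a : ℂ) * (-s)‖ := by
      rw [norm_mul, norm_neg, Complex.norm_real, Real.norm_eq_abs, abs_of_pos ha]
      exact mul_le_mul_of_nonneg_left (Complex.re_le_norm s) ha.le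
    have h3 : 0 < a * s.re := mul_pos ha hs.1
    have h4 : ‖Ex (a * (-s))‖ < Real.exp (-C) := by
      rw [Ex_of_ne hz, norm_div, div_lt_iff₀ (by linarith)]
      have h5 : 2 * Real.exp C < a * s.re := by
        rw [div_lt_iff₀ ha] at h
        linarith
      have h6 : Real.exp (-C) * (2 * Real.exp C) = 2 := by
        rw [Real.exp_neg]
        have := Real.exp_pos C
        field_simp
      have h7 : 2 < Real.exp (-C) * (a * s.re) := by
        rw [← h6]; exact mul_lt_mul_of_pos_left h5 (Real.exp_pos _)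
      have h8 := mul_le_mul_of_nonneg_left h2 (Real.exp_pos (-C)).le
      linarith
    have h9 : 0 < ‖Ex (a * (-s))‖ := norm_pos_iff.2 (Ex_ne hm)
    have := Real.log_lt_log h9 h4
    rwa [Real.log_exp] at this
  · refine ⟨C / b, fun s hs h => ?_⟩
    rw [vv_flip, Complex.add_re, Complex.re_ofReal_mul, Complex.neg_re]
    have h1 := vv_neg hb hab hs
    rw [div_lt_iff₀ hb0] at h
    linarith

theorem KJv (hb : 0 ≤ b) (hab : b < a) : KJ (vv a (-b)) (a + b) (2 * Real.pi / a) a where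
  hκ := by linarith
  hL := by have := ha0 hb hab; positivity
  hp := by linarith
  an := by
    intro s hs
    rcases eq_or_ne s 0 with h0 | h0
    · have h1 := ell_dAt (mem_a hb hab hs)
      have h2 := ell_dAt (mem_b hb hab (neg_mem hs))
      have m1 : DifferentiableAt ℂ (fun s : ℂ => (a : ℂ) * s) s := by fun_prop
      have m2 : DifferentiableAt ℂ (fun s : ℂ => (b : ℂ) * (-s)) s := by fun_prop
      have e : vv a (-b) = fun s => ell (a * s) - ell (b * (-s)) := by
        funext s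
        rw [vv]; push_cast; rw [neg_mul, mul_neg]
      rw [e]
      exact ((DifferentiableAt.comp s h1 m1).sub
        (DifferentiableAt.comp s (g := ell) h2 m2)).differentiableWithinAt
    · exact (vf_deriv hb hab hs h0).differentiableAt.differentiableWithinAt
  v0 := by simp [vv]
  dif := by
    intro s _
    have h1 := ell_sub (a * s)
    have h2 := ell_sub (b * s)
    rw [vv, vv, mul_neg, mul_neg]
    push_cast
    rw [neg_mul, neg_neg]
    linear_combination h1 + h2
  cj := by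
    intro s hs
    have h1 := ell_conj (mem_a hb hab hs)
    have h2 := ell_conj (mem_b hb hab (neg_mem hs))
    rw [map_mul, Complex.conj_ofReal] at h1 h2
    rw [vv, vv, map_sub, h1]
    push_cast
    rw [neg_mul, neg_mul, ← mul_neg, ← mul_neg, ← h2, map_neg]
  der := by
    intro s hs
    have h0 : s ≠ 0 := by
      rintro rfl; exact absurd hs.1 (by simp)
    have h1 := vv_der hb hab hs
    rw [(vv_deriv hb hab hs.2 h0).deriv] at h1
    rw [(vf_deriv hb hab hs.2 h0).deriv, Complex.add_re, Complex.ofReal_re]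
    linarith
  neg := by
    intro s hs
    rw [vv_flip, Complex.add_re, Complex.re_ofReal_mul, Complex.neg_re]
    have h1 := vv_neg hb hab hs
    have := mul_nonneg hb hs.1.le
    linarith
  ctr := by
    intro s hs
    have h1 := vv_ctr hb hab hs
    rw [vv_flip, vv_flip]
    have e : vv a b s + b * s + (vv a b (-s) + b * -s) = vv a b s + vv a b (-s) := by ring
    rw [e]
    exact h1
  ax := by
    intro y h0 h1
    have := vv_ax hb hab h0 h1
    rw [vv_flip, Complex.add_re, Complex.re_ofReal_mul]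
    simpa using this
  far := by
    intro M
    obtain ⟨C, hC⟩ := vv_far hb hab (max M 0)
    refine ⟨max C 0 + b * (max M 0), fun s hs h => ?_⟩
    rw [vv_flip, Complex.add_re, Complex.re_ofReal_mul] at h
    by_contra hc
    push Not at hc
    have h1 : b * s.re ≤ b * max M 0 := mul_le_mul_of_nonneg_left (hc.trans (le_max_left _ _)) hb
    have h2 : C < (vv a b s).re := by
      have := le_max_left C 0
      linarith
    have h3 := hC s hs h2
    have := le_max_left M 0
    linarith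
  dlim := fun ε hε => vf_dlim hb hab hε
  inf := fun C => vf_inf hb hab C
  bot := by
    have h := vv_bot hb hab
    refine h.congr fun y => ?_
    rw [vv_flip, Complex.add_re, Complex.re_ofReal_mul]
    simp

end

end Vale.Agent.P097.H330.KI
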