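import Vale.Agent.P097.H330.KI6
import Vale.Agent.P097.H244.K5

/-! # P097 / RAT: no pencil law at an isotropic end with exponent `m ≥ 3`. -/

set_option linter.all false

open Complex Metric Filter Topology Set
open scoped ComplexConjugate

namespace Vale.Agent.P097.H330.KI

open Vale.Agent.P097.H244
open Vale.Agent.P097.H402.Rat (LawI vI)

theorem vf_eq {a b : ℝ} (hb : 0 ≤ b) (hab : b < a) :
    ∀ᶠ s in 𝓝 (0 : ℂ), Complex.log (Vale.Agent.P097.H402.Rat.Ex (a * s) /
      Vale.Agent.P097.H402.Rat.Ex ((-b : ℝ) * s)) = vv a (-b) s := by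
  have ha : 0 < a := ha0 hb hab
  have K := KJv hb hab
  have h1 : SS (2 * Real.pi / a) ∈ 𝓝 (0 : ℂ) :=
    (isOpen_SS _).mem_nhds (by show |(0 : ℂ).im| < _; simpa using K.hL)
  have h2 : ContinuousAt (vv a (-b)) 0 := (K.an.differentiableAt h1).continuousAt
  have h4 : ∀ᶠ s in 𝓝 (0 : ℂ), |(vv a (-b) s).im| < Real.pi := by
    have h5 : ContinuousAt (fun s => |(vv a (-b) s).im|) 0 :=
      (continuous_abs.comp Complex.continuous_im).continuousAt.comp h2
    have h6 : |(vv a (-b) 0).im| < Real.pi := by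
      rw [K.v0]; simpa using Real.pi_pos
    exact h5.eventually_lt continuousAt_const h6
  filter_upwards [h1, h4] with s hs hs2
  have e : Vale.Agent.P097.H402.Rat.Ex (a * s) /
      Vale.Agent.P097.H402.Rat.Ex ((-b : ℝ) * s) = Complex.exp (vv a (-b) s) := by
    have e1 := exp_ell (mem_a hb hab hs)
    have e2 := exp_ell (mem_b hb hab (neg_mem hs))
    rw [mul_neg, ← neg_mul, ← Complex.ofReal_neg] at e2
    rw [vv, Complex.exp_sub, e1, e2, Ex_same, Ex_same]
  rw [e]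
  exact Complex.log_exp (by linarith [(abs_lt.1 hs2).1]) (abs_lt.1 hs2).2.le

/-- no pencil law at an isotropic end with exponent `m ≥ 3` -/
theorem pk6 : ∀ (m : ℝ) (f : ℂ → ℂ), 3 ≤ m → ¬ LawI m f := by
  intro m f h3 h
  have hb : (0 : ℝ) ≤ m - 3 := by linarith
  have hab : m - 3 < 3 + m := by linarith
  have ha : (0 : ℝ) < 3 + m := by linarith
  have hv : ∀ᶠ s in 𝓝 (0 : ℂ), vI m s = vv (3 + m) (-(m - 3)) s := by
    have := vf_eq hb hab
    have e : (((-(m - 3) : ℝ)) : ℂ) = 3 - m := by push_cast; ring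
    simp only [e] at this
    filter_upwards [this] with s hs
    rw [← hs, vI]
    push_cast
    rfl
  have hv' : ∀ᶠ s in 𝓝 (0 : ℂ), vI m (-s) = vv (3 + m) (-(m - 3)) (-s) := by
    have : Tendsto (fun s : ℂ => -s) (𝓝 0) (𝓝 0) := by
      simpa using (continuous_neg (G := ℂ)).tendsto 0
    exact this.eventually hv
  have hk := (KJv hb hab).kill (f := f) (w := 3) (c := 1 / 2) h.an h.ne h.refl (by
    filter_upwards [h.chord, hv, hv'] with s h4 h5 h6
    rw [← h5, ← h6, h4]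
    push_cast
    rfl) (by ring)
  have hA : ((3 + m : ℝ) : ℂ) ≠ 0 := by exact_mod_cast ha.ne'
  have e : (((3 : ℝ) : ℂ) + ((1 / 2 : ℝ) : ℂ) * ((3 + m + (m - 3) : ℝ) : ℂ)) *
      (I * ((2 * Real.pi / (3 + m) : ℝ) : ℂ)) = 2 * Real.pi * I := by
    have e1 : ((3 : ℝ) : ℂ) + ((1 / 2 : ℝ) : ℂ) * ((3 + m + (m - 3) : ℝ) : ℂ) =
        ((3 + m : ℝ) : ℂ) := by push_cast; ring
    rw [e1, Complex.ofReal_div]
    field_simp
    push_cast
    ring
  rw [e, Complex.exp_two_pi_mul_I] at hk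
  norm_num at hk

end Vale.Agent.P097.H330.KI

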