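import Mathlib

/-! P097, endgame (Case III), part 1: the logarithmic derivative lemma on discs. -/

namespace Vale.Agent.P097.H330

open Complex Metric Set Real MeasureTheory

/-- a branch of the logarithm of a function without zeros in a disc -/
theorem exists_log {F : ℂ → ℂ} {c : ℂ} {R : ℝ} (hF : DifferentiableOn ℂ F (ball c R)) (hR : 0 < R)
    (h0 : ∀ z ∈ ball c R, F z ≠ 0) :
    ∃ h : ℂ → ℂ, h c = 0 ∧ (∀ z ∈ ball c R, HasDerivAt h (deriv F z / F z) z) ∧
      ∀ z ∈ ball c R, F z = F c * Complex.exp (h z) := by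
  have hd : DifferentiableOn ℂ (fun z => deriv F z / F z) (ball c R) :=
    (hF.deriv isOpen_ball).div hF h0
  obtain ⟨h, hc, hh⟩ := hd.isExactOn_ball.with_val_at c 0
  refine ⟨h, hc, hh, fun z hz => ?_⟩
  have key : ∀ w ∈ ball c R, HasDerivAt (fun w => F w * Complex.exp (-h w)) 0 w := by
    intro w hw
    have h1 : HasDerivAt F (deriv F w) w :=
      (hF.differentiableAt (isOpen_ball.mem_nhds hw)).hasDerivAt
    have h2 := (hh w hw).neg.cexp
    have h3 : HasDerivAt (fun w => F w * Complex.exp (-h w)) _ w := h1.mul h2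
    refine h3.congr_deriv ?_
    have := h0 w hw
    simp only [Pi.neg_apply]
    field_simp
    ring
  have hc' : c ∈ ball c R := mem_ball_self hR
  have := (convex_ball c R).is_const_of_fderivWithin_eq_zero (𝕜 := ℂ)
    (f := fun w => F w * Complex.exp (-h w))
    (fun w hw => (key w hw).differentiableAt.differentiableWithinAt)
    (fun w hw => by
      rw [fderivWithin_of_isOpen isOpen_ball hw, (key w hw).hasFDerivAt.fderiv]
      ext; simp) hz hc'
  simp only [hc, neg_zero, Complex.exp_zero, mul_one] at this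
  rw [← this, mul_assoc, ← Complex.exp_add]
  simp

/-- logarithmic derivative of a zero free function -/
theorem logDeriv_zero_free {H : ℂ → ℂ} {R S B : ℝ} (hR : 0 ≤ R) (hRS : R < S)
    (hH : DifferentiableOn ℂ H (ball 0 S)) (h0 : ∀ z ∈ ball (0 : ℂ) S, H z ≠ 0)
    (hB : 0 < B) (hb : ∀ z ∈ ball (0 : ℂ) S, ‖H z‖ ≤ Real.exp B * ‖H 0‖)
    {z : ℂ} (hz : ‖z‖ ≤ R) : ‖deriv H z / H z‖ ≤ 8 * S * B / (S - R) ^ 2 := by
  have hS : 0 < S := hR.trans_lt hRS
  obtain ⟨h, hc, hh, he⟩ := exists_log hH hS h0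
  have hcb : (0 : ℂ) ∈ ball (0 : ℂ) S := mem_ball_self hS
  have hFc : 0 < ‖H 0‖ := norm_pos_iff.2 (h0 0 hcb)
  have hre : ∀ z ∈ ball (0 : ℂ) S, (h z).re ≤ B := by
    intro z hz
    have h1 := hb z hz
    rw [he z hz, norm_mul, Complex.norm_exp, mul_comm] at h1
    exact Real.exp_le_exp.1 (le_of_mul_le_mul_right h1 hFc)
  have hdiff : DifferentiableOn ℂ h (ball 0 S) := fun z hz =>
    (hh z hz).differentiableAt.differentiableWithinAt
  have hbc : ∀ w : ℂ, ‖w‖ < S → ‖h w‖ ≤ 2 * B * ‖w‖ / (S - ‖w‖) := by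
    intro w hw
    exact Complex.borelCaratheodory_zero hB hdiff (fun x hx => hre x hx) hS (by simpa using hw) hc
  have hzS : z ∈ ball (0 : ℂ) S := by simpa using hz.trans_lt hRS
  rw [← (hh z hzS).deriv]
  set r : ℝ := (S - R) / 2 with hr
  have hr0 : 0 < r := by rw [hr]; linarith
  have hsub : closedBall z r ⊆ ball (0 : ℂ) S := by
    intro w hw
    rw [mem_closedBall, dist_eq_norm] at hw
    rw [mem_ball, dist_zero_right]
    have : ‖w‖ ≤ ‖w - z‖ + ‖z‖ := by simpa using norm_add_le (w - z) z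
    rw [hr] at hw
    linarith
  have hcl : DiffContOnCl ℂ h (ball z r) := by
    refine DifferentiableOn.diffContOnCl ?_
    rw [closure_ball z hr0.ne']
    exact hdiff.mono hsub
  have hbd : ∀ w ∈ sphere z r, ‖h w‖ ≤ 4 * S * B / (S - R) := by
    intro w hw
    have hw' : ‖w - z‖ = r := by simpa [dist_eq_norm] using hw
    have h1 : ‖w‖ ≤ R + r := by
      have : ‖w‖ ≤ ‖w - z‖ + ‖z‖ := by simpa using norm_add_le (w - z) z
      linarith
    have h2 : ‖w‖ < S := by rw [hr] at h1; linarith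
    refine (hbc w h2).trans ?_
    have h3 : (S - R) / 2 ≤ S - ‖w‖ := by rw [hr] at h1; linarith
    have h4 : 0 < S - R := by linarith
    calc 2 * B * ‖w‖ / (S - ‖w‖) ≤ 2 * B * S / ((S - R) / 2) := by gcongr
      _ = 4 * S * B / (S - R) := by field_simp; ring
  refine (Complex.norm_deriv_le_of_forall_mem_sphere_norm_le hr0 hcl hbd).trans (le_of_eq ?_)
  have h4 : S - R ≠ 0 := by linarith
  rw [hr]; field_simp; ring


/-- the state of the process of dividing out zeros by Blaschke factors -/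
structure Fac (F : ℂ → ℂ) (R2 R3 : ℝ) (s : List ℂ) (H : ℂ → ℂ) : Prop where
  an : AnalyticOnNhd ℂ H (closedBall 0 R3)
  sph : ∀ z ∈ sphere (0 : ℂ) R3, ‖H z‖ = ‖F z‖
  ctr : ‖F 0‖ * (R3 / R2) ^ s.length ≤ ‖H 0‖
  ld : ∀ z ∈ closedBall (0 : ℂ) R2, F z ≠ 0 → H z ≠ 0 ∧
    ‖deriv F z / F z‖ ≤ (s.map (fun a => ‖z - a‖⁻¹ + 1 / (R3 - R2))).sum + ‖deriv H z / H z‖

theorem Fac.step {F : ℂ → ℂ} {R2 R3 : ℝ} {s : List ℂ} {H : ℂ → ℂ} (h2 : 0 < R2) (h23 : R2 < R3)
    (hF0 : F 0 ≠ 0) (h : Fac F R2 R3 s H) {a : ℂ} (ha : a ∈ closedBall (0 : ℂ) R2)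
    (hHa : H a = 0) : ∃ H1, Fac F R2 R3 (a :: s) H1 := by
  have h3 : 0 < R3 := h2.trans h23
  have ha' : ‖a‖ ≤ R2 := by simpa using ha
  have ha3 : a ∈ closedBall (0 : ℂ) R3 := by
    rw [mem_closedBall, dist_zero_right]; linarith
  set D := dslope H a with hD
  have hfac : ∀ z, H z = (z - a) * D z := by
    intro z
    have := sub_smul_dslope H a z
    rw [hHa, sub_zero, smul_eq_mul] at this
    exact this.symm
  have hDan : AnalyticOnNhd ℂ D (closedBall 0 R3) := by
    intro z hz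
    by_cases hza : z = a
    · subst hza
      have hev : ∀ᶠ w in nhds z, AnalyticAt ℂ H w := (h.an z hz).eventually_analyticAt
      obtain ⟨r, hr, hrs⟩ := Metric.eventually_nhds_iff_ball.1 hev
      have hd : DifferentiableOn ℂ (dslope H z) (ball z r) := by
        rw [Complex.differentiableOn_dslope (ball_mem_nhds z hr)]
        exact fun w hw => (hrs w hw).differentiableAt.differentiableWithinAt
      exact hd.analyticAt (ball_mem_nhds z hr)
    · have hev : D =ᶠ[nhds z] fun w => (H w) / (w - a) := by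
        filter_upwards [isOpen_ne.mem_nhds hza] with w hw
        have hw' : w - a ≠ 0 := sub_ne_zero.2 hw
        rw [hfac w]; field_simp
      rw [analyticAt_congr hev]
      exact (h.an z hz).div (by fun_prop) (sub_ne_zero.2 hza)
  have hden : ∀ z ∈ closedBall (0 : ℂ) R3, (R3 : ℂ) ^ 2 - (starRingEnd ℂ) a * z ≠ 0 := by
    intro z hz h0
    have hz' : ‖z‖ ≤ R3 := by simpa using hz
    have h1 : ((R3 : ℂ) ^ 2) = (starRingEnd ℂ) a * z := sub_eq_zero.1 h0
    have h2' : ‖((R3 : ℂ) ^ 2)‖ = ‖(starRingEnd ℂ) a * z‖ := by rw [h1]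
    rw [norm_pow, norm_mul, RCLike.norm_conj, Complex.norm_real, Real.norm_eq_abs, sq_abs] at h2'
    nlinarith [norm_nonneg a, norm_nonneg z]
  refine ⟨fun z => D z * (((R3 : ℂ) ^ 2 - (starRingEnd ℂ) a * z) / R3), ?_, ?_, ?_, ?_⟩
  · intro z hz
    exact (hDan z hz).mul (by fun_prop)
  · intro z hz
    have hz' : ‖z‖ = R3 := by simpa using hz
    rw [← h.sph z hz, hfac z, norm_mul, norm_mul, mul_comm ‖z - a‖]
    congr 1
    have h1 : (R3 : ℂ) ^ 2 - (starRingEnd ℂ) a * z = z * (starRingEnd ℂ) (z - a) := by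
      have : (R3 : ℂ) ^ 2 = z * (starRingEnd ℂ) z := by
        rw [Complex.mul_conj, Complex.normSq_eq_norm_sq, hz']; push_cast; ring
      rw [this, map_sub]; ring
    rw [h1, norm_div, norm_mul, RCLike.norm_conj, hz', Complex.norm_real, Real.norm_eq_abs,
      abs_of_pos h3]
    field_simp
  · have hH0 : H 0 = -a * D 0 := by rw [hfac 0]; ring
    have hHn : 0 < ‖H 0‖ := by
      refine lt_of_lt_of_le ?_ h.ctr
      have := norm_pos_iff.2 hF0
      positivity
    have ha0 : 0 < ‖a‖ := by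
      rw [norm_pos_iff]; rintro rfl
      rw [hH0] at hHn; simp at hHn
    have h1 : ‖H 0‖ = ‖a‖ * ‖D 0‖ := by rw [hH0]; simp
    have h2' : ‖D 0 * (((R3 : ℂ) ^ 2 - (starRingEnd ℂ) a * 0) / R3)‖ = ‖D 0‖ * R3 := by
      rw [norm_mul, mul_zero, sub_zero, norm_div, norm_pow, Complex.norm_real, Real.norm_eq_abs,
        abs_of_pos h3]
      field_simp
    rw [h2', List.length_cons, pow_succ, ← mul_assoc]
    calc ‖F 0‖ * (R3 / R2) ^ s.length * (R3 / R2) ≤ ‖H 0‖ * (R3 / R2) := by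
          gcongr; exact h.ctr
      _ = ‖a‖ * ‖D 0‖ * (R3 / R2) := by rw [h1]
      _ ≤ R2 * ‖D 0‖ * (R3 / R2) := by gcongr
      _ = ‖D 0‖ * R3 := by field_simp
  · intro z hz hFz
    obtain ⟨hHz, hle⟩ := h.ld z hz hFz
    have hz' : ‖z‖ ≤ R2 := by simpa using hz
    have hz3 : z ∈ closedBall (0 : ℂ) R3 := by rw [mem_closedBall, dist_zero_right]; linarith
    have hDz : D z ≠ 0 := by intro h0; exact hHz (by rw [hfac, h0, mul_zero])
    have hza : z - a ≠ 0 := by intro h0; exact hHz (by rw [hfac, h0, zero_mul])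
    have hdz := hden z hz3
    have h3' : (R3 : ℂ) ≠ 0 := by exact_mod_cast h3.ne'
    have hDd : DifferentiableAt ℂ D z := (hDan z hz3).differentiableAt
    have e1 : deriv H z / H z = 1 / (z - a) + deriv D z / D z := by
      have hH' : HasDerivAt H (1 * D z + (z - a) * deriv D z) z := by
        have := ((hasDerivAt_id z).sub_const a).mul hDd.hasDerivAt
        refine HasDerivAt.congr_of_eventuallyEq this ?_
        exact Filter.Eventually.of_forall fun w => by simp [hfac w]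
      rw [hH'.deriv, hfac z]; field_simp
    have e2 : deriv (fun z => D z * (((R3 : ℂ) ^ 2 - (starRingEnd ℂ) a * z) / R3)) z /
        (D z * (((R3 : ℂ) ^ 2 - (starRingEnd ℂ) a * z) / R3)) =
        deriv D z / D z - (starRingEnd ℂ) a / ((R3 : ℂ) ^ 2 - (starRingEnd ℂ) a * z) := by
      have hq : HasDerivAt (fun z : ℂ => (((R3 : ℂ) ^ 2 - (starRingEnd ℂ) a * z) / R3))
          ((-((starRingEnd ℂ) a)) / R3) z := by
        have := (((hasDerivAt_id z).const_mul ((starRingEnd ℂ) a)).const_sub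
          ((R3 : ℂ) ^ 2)).div_const (R3 : ℂ)
        simpa using this
      have hm : HasDerivAt (fun z => D z * (((R3 : ℂ) ^ 2 - (starRingEnd ℂ) a * z) / R3)) _ z :=
        hDd.hasDerivAt.mul hq
      rw [hm.deriv]
      field_simp
      ring
    refine ⟨?_, ?_⟩
    · exact mul_ne_zero hDz (div_ne_zero hdz h3')
    · rw [List.map_cons, List.sum_cons]
      refine hle.trans ?_
      rw [e2]
      have e3 : deriv H z / H z = 1 / (z - a) +
          ((starRingEnd ℂ) a / ((R3 : ℂ) ^ 2 - (starRingEnd ℂ) a * z)) +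
          (deriv D z / D z - (starRingEnd ℂ) a / ((R3 : ℂ) ^ 2 - (starRingEnd ℂ) a * z)) := by
        rw [e1]; ring
      have e4 : ‖(starRingEnd ℂ) a / ((R3 : ℂ) ^ 2 - (starRingEnd ℂ) a * z)‖ ≤ 1 / (R3 - R2) := by
        rw [norm_div, RCLike.norm_conj]
        have h5 : R3 ^ 2 - R2 ^ 2 ≤ ‖(R3 : ℂ) ^ 2 - (starRingEnd ℂ) a * z‖ := by
          have := norm_sub_norm_le ((R3 : ℂ) ^ 2) ((starRingEnd ℂ) a * z)
          rw [norm_pow, norm_mul, RCLike.norm_conj, Complex.norm_real, Real.norm_eq_abs,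
            sq_abs] at this
          nlinarith [norm_nonneg a, norm_nonneg z]
        have h6 : 0 < R3 ^ 2 - R2 ^ 2 := by nlinarith
        rw [div_le_div_iff₀ (h6.trans_le h5) (by linarith)]
        nlinarith [norm_nonneg a]
      have e5 : ‖(1 : ℂ) / (z - a)‖ = ‖z - a‖⁻¹ := by rw [norm_div, norm_one, one_div]
      have e6 : ‖deriv H z / H z‖ ≤ ‖z - a‖⁻¹ + 1 / (R3 - R2) +
          ‖deriv D z / D z - (starRingEnd ℂ) a / ((R3 : ℂ) ^ 2 - (starRingEnd ℂ) a * z)‖ := by
        rw [e3]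
        refine (norm_add_le _ _).trans ?_
        gcongr
        refine (norm_add_le _ _).trans ?_
        rw [e5]
        gcongr
      linarith


theorem Fac.card {F : ℂ → ℂ} {R2 R3 B : ℝ} {s : List ℂ} {H : ℂ → ℂ} (h2 : 0 < R2) (h23 : R2 < R3)
    (hF0 : F 0 ≠ 0) (hB : ∀ z ∈ sphere (0 : ℂ) R3, ‖F z‖ ≤ Real.exp B)
    (h : Fac F R2 R3 s H) :
    (∀ z ∈ closedBall (0 : ℂ) R3, ‖H z‖ ≤ Real.exp B) ∧
      (s.length : ℝ) * Real.log (R3 / R2) ≤ B - Real.log ‖F 0‖ := by
  have h3 : 0 < R3 := h2.trans h23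
  have hmax : ∀ z ∈ closedBall (0 : ℂ) R3, ‖H z‖ ≤ Real.exp B := by
    intro z hz
    refine Complex.norm_le_of_forall_mem_frontier_norm_le (U := ball (0 : ℂ) R3) isBounded_ball
      ?_ ?_ ?_
    · refine DifferentiableOn.diffContOnCl ?_
      rw [closure_ball _ h3.ne']
      exact h.an.differentiableOn
    · intro w hw
      rw [frontier_ball _ h3.ne'] at hw
      rw [h.sph w hw]; exact hB w hw
    · rw [closure_ball _ h3.ne']; exact hz
  refine ⟨hmax, ?_⟩
  have h0 := hmax 0 (mem_closedBall_self h3.le)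
  have hFp : 0 < ‖F 0‖ := norm_pos_iff.2 hF0
  have h1 : ‖F 0‖ * (R3 / R2) ^ s.length ≤ Real.exp B := h.ctr.trans h0
  have h4 := Real.log_le_log (by positivity) h1
  rw [Real.log_exp, Real.log_mul (by positivity) (by positivity), Real.log_pow] at h4
  linarith

theorem exists_factor {F : ℂ → ℂ} {R2 R3 B : ℝ} (h2 : 0 < R2) (h23 : R2 < R3)
    (hF : AnalyticOnNhd ℂ F (closedBall 0 R3)) (hF0 : F 0 ≠ 0)
    (hB : ∀ z ∈ sphere (0 : ℂ) R3, ‖F z‖ ≤ Real.exp B) :
    ∃ (s : List ℂ) (H : ℂ → ℂ), Fac F R2 R3 s H ∧ ∀ z ∈ closedBall (0 : ℂ) R2, H z ≠ 0 := by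
  by_contra hno
  push Not at hno
  have hall : ∀ n : ℕ, ∃ (s : List ℂ) (H : ℂ → ℂ), Fac F R2 R3 s H ∧ s.length = n := by
    intro n
    induction n with
    | zero =>
      exact ⟨[], F, ⟨hF, fun z _ => rfl, by simp, fun z _ hz => ⟨hz, by simp⟩⟩, rfl⟩
    | succ n ih =>
      obtain ⟨s, H, hs, hl⟩ := ih
      obtain ⟨a, ha, hHa⟩ := hno s H hs
      obtain ⟨H1, hH1⟩ := hs.step h2 h23 hF0 ha hHa
      exact ⟨a :: s, H1, hH1, by simp [hl]⟩
  have hlog : 0 < Real.log (R3 / R2) := Real.log_pos (by rwa [one_lt_div h2])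
  obtain ⟨n, hn⟩ := exists_nat_gt ((B - Real.log ‖F 0‖) / Real.log (R3 / R2))
  obtain ⟨s, H, hs, hl⟩ := hall n
  have := (hs.card h2 h23 hF0 hB).2
  rw [hl] at this
  rw [div_lt_iff₀ hlog] at hn
  linarith

/-- pointwise bound of the logarithmic derivative -/
theorem logDeriv_pointwise {F : ℂ → ℂ} {R κ B B' : ℝ} (hR : 0 < R) (hκ : 0 < κ)
    (hF : AnalyticOnNhd ℂ F (closedBall 0 (R + 2 * κ))) (hF0 : F 0 ≠ 0)
    (hB : ∀ z ∈ sphere (0 : ℂ) (R + 2 * κ), ‖F z‖ ≤ Real.exp B) (hB' : -Real.log ‖F 0‖ ≤ B')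
    (hBB : 0 < B + B') :
    ∃ s : List ℂ, (s.length : ℝ) ≤ (R + 2 * κ) * (B + B') / κ ∧
      ∀ z ∈ closedBall (0 : ℂ) R, F z ≠ 0 →
        ‖deriv F z / F z‖ ≤ (s.map (fun a => ‖z - a‖⁻¹)).sum + (s.length : ℝ) / κ +
          8 * (R + κ) * (B + B') / κ ^ 2 := by
  have h2 : 0 < R + κ := by linarith
  have h23 : R + κ < R + 2 * κ := by linarith
  obtain ⟨s, H, hs, hH⟩ := exists_factor h2 h23 hF hF0 hB
  obtain ⟨hmax, hcard⟩ := hs.card h2 h23 hF0 hB
  refine ⟨s, ?_, ?_⟩
  · have h1 : κ / (R + 2 * κ) ≤ Real.log ((R + 2 * κ) / (R + κ)) := by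
      have := Real.one_sub_inv_le_log_of_pos (x := (R + 2 * κ) / (R + κ)) (by positivity)
      refine le_trans (le_of_eq ?_) this
      field_simp
      ring
    have h4 : (s.length : ℝ) * (κ / (R + 2 * κ)) ≤ B + B' := by
      have : (s.length : ℝ) * (κ / (R + 2 * κ)) ≤
          (s.length : ℝ) * Real.log ((R + 2 * κ) / (R + κ)) := by gcongr
      linarith
    rw [le_div_iff₀ hκ]
    have h5 : (s.length : ℝ) * κ = (s.length : ℝ) * (κ / (R + 2 * κ)) * (R + 2 * κ) := by
      field_simp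
    rw [h5]
    nlinarith
  · intro z hz hFz
    have hzR : ‖z‖ ≤ R := by simpa using hz
    have hz2 : z ∈ closedBall (0 : ℂ) (R + κ) := by
      rw [mem_closedBall, dist_zero_right]; linarith
    refine (hs.ld z hz2 hFz).2.trans ?_
    have h5 : (s.map (fun a => ‖z - a‖⁻¹ + 1 / (R + 2 * κ - (R + κ)))).sum =
        (s.map (fun a => ‖z - a‖⁻¹)).sum + (s.length : ℝ) / κ := by
      have : R + 2 * κ - (R + κ) = κ := by ring
      rw [this, List.sum_map_add]
      congr 1
      rw [List.map_const', List.sum_replicate, nsmul_eq_mul]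
      ring
    rw [h5]
    gcongr
    have hFp : 0 < ‖F 0‖ := norm_pos_iff.2 hF0
    have hH0 : Real.exp (-B') ≤ ‖H 0‖ := by
      have h6 : Real.exp (-B') ≤ ‖F 0‖ := by
        rw [← Real.le_log_iff_exp_le hFp]; linarith
      refine h6.trans (le_trans ?_ hs.ctr)
      have : (1 : ℝ) ≤ ((R + 2 * κ) / (R + κ)) ^ s.length := by
        apply one_le_pow₀
        rw [one_le_div h2]; linarith
      nlinarith
    have := logDeriv_zero_free (H := H) (R := R) (S := R + κ) (B := B + B') hR.le (by linarith)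
      (hs.an.differentiableOn.mono (fun w hw => by
        rw [mem_ball, dist_zero_right] at hw
        rw [mem_closedBall, dist_zero_right]; linarith))
      (fun w hw => hH w (ball_subset_closedBall hw)) hBB (fun w hw => by
        have h7 : w ∈ closedBall (0 : ℂ) (R + 2 * κ) := by
          rw [mem_ball, dist_zero_right] at hw
          rw [mem_closedBall, dist_zero_right]; linarith
        refine (hmax w h7).trans ?_
        calc Real.exp B = Real.exp (B + B') * Real.exp (-B') := by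
              rw [← Real.exp_add]; congr 1; ring
          _ ≤ Real.exp (B + B') * ‖H 0‖ := by gcongr) hzR
    refine this.trans (le_of_eq ?_)
    congr 2; ring

end Vale.Agent.P097.H330
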