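import Vale.Agent.P097.H330.LogDer

/-! P097, endgame (Case III), part 2: circle averages of `‖z - a‖ ^ (-1/2)` and of `log⁺ ‖F'/F‖`. -/

namespace Vale.Agent.P097.H330

open Complex Metric Set Real MeasureTheory

/-- the function `|sin|^(-1/2)` -/
noncomputable def sinv (x : ℝ) : ℝ := (√|Real.sin x|)⁻¹

theorem sinv_nonneg (x : ℝ) : 0 ≤ sinv x := inv_nonneg.2 (Real.sqrt_nonneg _)

theorem sinv_measurable : Measurable sinv := by
  unfold sinv
  fun_prop

theorem sinv_periodic : Function.Periodic sinv π := by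
  intro x
  simp [sinv, Real.sin_add_pi]

theorem sinv_integrable_half : IntervalIntegrable sinv volume 0 (π / 2) := by
  have h1 : IntervalIntegrable (fun x : ℝ => √(π / 2) * x ^ (-(1 / 2) : ℝ)) volume 0 (π / 2) :=
    (intervalIntegral.intervalIntegrable_rpow' (by norm_num)).const_mul _
  refine h1.mono_fun sinv_measurable.aestronglyMeasurable ?_
  rw [uIoc_of_le (by positivity)]
  refine (ae_restrict_iff' measurableSet_Ioc).2 (Filter.Eventually.of_forall fun x hx => ?_)
  have hx0 : 0 < x := hx.1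
  have hs : 2 / π * x ≤ Real.sin x := Real.mul_le_sin hx0.le hx.2
  have hp : 0 < 2 / π * x := by positivity
  show ‖sinv x‖ ≤ ‖√(π / 2) * x ^ (-(1 / 2) : ℝ)‖
  rw [Real.norm_of_nonneg (sinv_nonneg x), Real.norm_of_nonneg (by positivity)]
  unfold sinv
  rw [abs_of_pos (hp.trans_le hs), Real.rpow_neg hx0.le, ← Real.sqrt_eq_rpow]
  calc (√(Real.sin x))⁻¹ ≤ (√(2 / π * x))⁻¹ := by gcongr
    _ = √(π / 2) * (√x)⁻¹ := by
      rw [Real.sqrt_mul (by positivity), mul_inv, ← Real.sqrt_inv, inv_div]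

theorem sinv_integrable (a b : ℝ) : IntervalIntegrable sinv volume a b := by
  have h1 := sinv_integrable_half
  have h2 : IntervalIntegrable sinv volume (π / 2) π := by
    have := (h1.comp_sub_left π)
    have e : (fun x => sinv (π - x)) = sinv := by
      ext x; simp [sinv, Real.sin_pi_sub]
    rw [e] at this
    have h3 := this.symm
    simp only [sub_zero] at h3
    convert h3 using 1
    ring
  have h3 : IntervalIntegrable sinv volume 0 (0 + π) := by
    rw [zero_add]; exact h1.trans h2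
  exact sinv_periodic.intervalIntegrable Real.pi_pos.ne' h3 a b

/-- the constant -/
noncomputable def C0 : ℝ := (2 * π)⁻¹ * ∫ x in (0 : ℝ)..(2 * π), sinv x

theorem C0_nonneg : 0 ≤ C0 := by
  unfold C0
  have : 0 ≤ ∫ x in (0 : ℝ)..(2 * π), sinv x :=
    intervalIntegral.integral_nonneg (by positivity) fun x _ => sinv_nonneg x
  positivity

theorem sqrt_norm_bound {R : ℝ} (hR : 0 < R) (a : ℂ) (θ : ℝ) (h : Real.sin (θ - arg a) ≠ 0) :
    (√‖circleMap 0 R θ - a‖)⁻¹ ≤ (√R)⁻¹ * sinv (θ - arg a) := by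
  unfold sinv
  rw [← mul_inv, ← Real.sqrt_mul hR.le]
  have hs : 0 < R * |Real.sin (θ - arg a)| := by positivity
  gcongr
  have e : circleMap 0 R θ - a = Complex.exp (arg a * I) *
      (R * Complex.exp ((θ - arg a : ℝ) * I) - ‖a‖) := by
    have ha : a = ‖a‖ * Complex.exp (arg a * I) := (Complex.norm_mul_exp_arg_mul_I a).symm
    conv_lhs => rw [ha]
    rw [circleMap, zero_add, mul_sub]
    push_cast
    have : Complex.exp (θ * I) = Complex.exp (arg a * I) * Complex.exp ((θ - arg a) * I) := by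
      rw [← Complex.exp_add]; congr 1; ring
    rw [this]; ring
  rw [e, norm_mul, Complex.norm_exp_ofReal_mul_I, one_mul]
  refine le_trans (le_of_eq ?_) (Complex.abs_im_le_norm _)
  rw [Complex.sub_im, Complex.ofReal_im, sub_zero, Complex.im_ofReal_mul,
    Complex.exp_ofReal_mul_I_im, abs_mul, abs_of_pos hR]


theorem ae_sin_ne (α : ℝ) : ∀ᵐ θ : ℝ, Real.sin (θ - α) ≠ 0 := by
  have hc : ({θ : ℝ | Real.sin (θ - α) = 0}).Countable := by
    refine (Set.countable_range (fun k : ℤ => (k : ℝ) * π + α)).mono ?_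
    intro θ hθ
    obtain ⟨k, hk⟩ := Real.sin_eq_zero_iff.1 hθ
    exact ⟨k, by simp only []; linarith⟩
  filter_upwards [hc.ae_notMem volume] with θ hθ h0
  exact hθ h0

theorem circleIntegrable_sqrt {R : ℝ} (hR : 0 < R) (a : ℂ) :
    CircleIntegrable (fun z => (√‖z - a‖)⁻¹) 0 R := by
  unfold CircleIntegrable
  have h1 : IntervalIntegrable (fun θ : ℝ => (√R)⁻¹ * sinv (θ - arg a)) volume 0 (2 * π) := by
    have := (sinv_integrable (0 - arg a) (2 * π - arg a)).comp_sub_right (arg a)
    simp only [sub_add_cancel] at this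
    exact this.const_mul _
  refine h1.mono_fun ?_ ?_
  · apply Measurable.aestronglyMeasurable
    have : Measurable (circleMap 0 R) := (continuous_circleMap 0 R).measurable
    fun_prop
  · filter_upwards [ae_restrict_of_ae (ae_sin_ne (arg a))] with θ hθ
    rw [Real.norm_of_nonneg (by positivity), Real.norm_of_nonneg
      (mul_nonneg (by positivity) (sinv_nonneg _))]
    exact sqrt_norm_bound hR a θ hθ

theorem circleAverage_sqrt_le {R : ℝ} (hR : 0 < R) (a : ℂ) :
    circleAverage (fun z => (√‖z - a‖)⁻¹) 0 R ≤ (√R)⁻¹ * C0 := by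
  rw [circleAverage_def, smul_eq_mul, C0]
  have h1 : IntervalIntegrable (fun θ : ℝ => (√R)⁻¹ * sinv (θ - arg a)) volume 0 (2 * π) := by
    have := (sinv_integrable (0 - arg a) (2 * π - arg a)).comp_sub_right (arg a)
    simp only [sub_add_cancel] at this
    exact this.const_mul _
  have h2 : ∫ θ in (0 : ℝ)..(2 * π), (√‖circleMap 0 R θ - a‖)⁻¹ ≤
      ∫ θ in (0 : ℝ)..(2 * π), (√R)⁻¹ * sinv (θ - arg a) := by
    refine intervalIntegral.integral_mono_ae (by positivity) (circleIntegrable_sqrt hR a) h1 ?_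
    filter_upwards [ae_sin_ne (arg a)] with θ hθ
    exact sqrt_norm_bound hR a θ hθ
  have h3 : ∫ θ in (0 : ℝ)..(2 * π), (√R)⁻¹ * sinv (θ - arg a) =
      (√R)⁻¹ * ∫ x in (0 : ℝ)..(2 * π), sinv x := by
    rw [intervalIntegral.integral_const_mul, intervalIntegral.integral_comp_sub_right]
    congr 1
    have hp : Function.Periodic sinv (2 * π) := by
      have := sinv_periodic.nat_mul 2
      simpa using this
    have := hp.intervalIntegral_add_eq (0 - arg a) 0
    rw [zero_add] at this
    rw [← this]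
    congr 1
    ring
  rw [h3] at h2
  calc (2 * π)⁻¹ * ∫ θ in (0 : ℝ)..(2 * π), (√‖circleMap 0 R θ - a‖)⁻¹
      ≤ (2 * π)⁻¹ * ((√R)⁻¹ * ∫ x in (0 : ℝ)..(2 * π), sinv x) := by gcongr
    _ = _ := by ring

/-- `log⁺ x` is controlled by the square root -/
theorem posLog_le_sqrt {x A : ℝ} (hx : 0 ≤ x) (hA : 1 ≤ A) :
    log⁺ x ≤ 2 * (Real.log A + (1 + √x) / A - 1) := by
  have hA0 : 0 < A := by linarith
  have h1 : Real.log (1 + √x) ≤ Real.log A + (1 + √x) / A - 1 := by
    have := Real.log_le_sub_one_of_pos (x := (1 + √x) / A) (by positivity)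
    rw [Real.log_div (by positivity) (by positivity)] at this
    linarith
  have h2 : log⁺ x ≤ 2 * Real.log (1 + √x) := by
    rw [Real.posLog_def]
    refine max_le (mul_nonneg (by norm_num) (Real.log_nonneg (by linarith [Real.sqrt_nonneg x]))) ?_
    rcases hx.eq_or_lt with h0 | h0
    · rw [← h0]; simp
    · have h3 : Real.log x = 2 * Real.log √x := by
        rw [Real.log_sqrt hx]; ring
      show Real.log x ≤ _
      rw [h3]
      have : Real.log √x ≤ Real.log (1 + √x) :=
        Real.log_le_log (Real.sqrt_pos.2 h0) (by linarith)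
      linarith
  linarith

theorem sqrt_list_sum_le (s : List ℝ) (h : ∀ x ∈ s, 0 ≤ x) :
    √(s.sum) ≤ (s.map (fun x => √x)).sum := by
  induction s with
  | nil => simp
  | cons a t ih =>
    rw [List.sum_cons, List.map_cons, List.sum_cons]
    have h1 : 0 ≤ a := h a (by simp)
    have h2 : 0 ≤ t.sum := List.sum_nonneg fun x hx => h x (by simp [hx])
    have h3 := ih fun x hx => h x (by simp [hx])
    have h4 : √(a + t.sum) ≤ √a + √(t.sum) := by
      rw [Real.sqrt_le_left (by positivity)]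
      nlinarith [Real.sq_sqrt h1, Real.sq_sqrt h2, Real.sqrt_nonneg a, Real.sqrt_nonneg t.sum]
    linarith

theorem circleAverage_list_sum {R : ℝ} (hR : 0 < R) (s : List ℂ) :
    CircleIntegrable (fun z => (s.map (fun a => (√‖z - a‖)⁻¹)).sum) 0 R ∧
    circleAverage (fun z => (s.map (fun a => (√‖z - a‖)⁻¹)).sum) 0 R ≤
      (s.length : ℝ) * ((√R)⁻¹ * C0) := by
  induction s with
  | nil => simp [circleAverage_def, CircleIntegrable]
  | cons a t ih =>
    have e : (fun z : ℂ => ((a :: t).map (fun a => (√‖z - a‖)⁻¹)).sum) =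
        fun z : ℂ => (√‖z - a‖)⁻¹ + (t.map (fun a => (√‖z - a‖)⁻¹)).sum := by
      ext z; simp
    rw [e]
    refine ⟨(circleIntegrable_sqrt hR a).add ih.1, ?_⟩
    rw [circleAverage_fun_add (circleIntegrable_sqrt hR a) ih.1, List.length_cons]
    push_cast
    have := circleAverage_sqrt_le hR a
    linarith [ih.2]


/-- **the logarithmic derivative lemma** (centre `0`). -/
theorem logDeriv_average₀ {F : ℂ → ℂ} {R κ B B' : ℝ} (hR : 1 ≤ R) (hκ : 0 < κ) (hκ1 : κ ≤ 1)
    (hF : AnalyticOnNhd ℂ F (closedBall 0 (R + 2 * κ))) (hF0 : F 0 ≠ 0)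
    (hB : ∀ z ∈ sphere (0 : ℂ) (R + 2 * κ), ‖F z‖ ≤ Real.exp B) (hB' : -Real.log ‖F 0‖ ≤ B')
    (hBB : 1 ≤ B + B') :
    circleAverage (fun z => log⁺ ‖deriv F z / F z‖) 0 R ≤
      2 * Real.log (30 * (R * (B + B') / κ ^ 2)) + C0 := by
  have hR0 : 0 < R := by linarith
  obtain ⟨s, hs, hpt⟩ := logDeriv_pointwise hR0 hκ hF hF0 hB hB' (by linarith)
  set Q : ℝ := R * (B + B') / κ ^ 2 with hQ
  have hκ2 : κ ^ 2 ≤ κ := by nlinarith
  have hQ1 : 1 ≤ Q := by
    rw [hQ, le_div_iff₀ (by positivity)]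
    nlinarith
  set A : ℝ := 30 * Q with hA
  have hA1 : 1 ≤ A := by linarith
  have hA0 : 0 < A := by linarith
  have hn : (s.length : ℝ) ≤ 3 * Q * κ := by
    refine hs.trans ?_
    rw [hQ]
    have h1 : (R + 2 * κ) * (B + B') ≤ 3 * R * (B + B') := by nlinarith
    calc (R + 2 * κ) * (B + B') / κ ≤ 3 * R * (B + B') / κ := by gcongr
      _ = _ := by field_simp
  set K1 : ℝ := (s.length : ℝ) / κ + 8 * (R + κ) * (B + B') / κ ^ 2 with hK1
  have hK1b : K1 ≤ 19 * Q := by
    have h1 : (s.length : ℝ) / κ ≤ 3 * Q := by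
      rw [div_le_iff₀ hκ]; linarith
    have h2 : 8 * (R + κ) * (B + B') / κ ^ 2 ≤ 16 * Q := by
      rw [hQ]
      have h1 : 8 * (R + κ) * (B + B') ≤ 16 * (R * (B + B')) := by nlinarith
      calc 8 * (R + κ) * (B + B') / κ ^ 2 ≤ 16 * (R * (B + B')) / κ ^ 2 := by gcongr
        _ = _ := by ring
    linarith
  have hK10 : 0 ≤ K1 := by
    have : 0 < B + B' := by linarith
    positivity
  obtain ⟨hint, hav⟩ := circleAverage_list_sum hR0 s
  set S : ℂ → ℝ := fun z => (s.map (fun a => (√‖z - a‖)⁻¹)).sum with hS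
  have hS0 : ∀ z, 0 ≤ S z := fun z => List.sum_nonneg (by
    intro x hx
    obtain ⟨a, _, rfl⟩ := List.mem_map.1 hx
    positivity)
  have hsq : ∀ z ∈ sphere (0 : ℂ) |R|, √‖deriv F z / F z‖ ≤ S z + √K1 := by
    intro z hz
    rw [abs_of_pos hR0] at hz
    by_cases h0 : F z = 0
    · rw [h0, div_zero, norm_zero, Real.sqrt_zero]
      have := hS0 z
      positivity
    · have h1 := hpt z (sphere_subset_closedBall hz) h0
      rw [add_assoc, ← hK1] at h1
      have h2 : 0 ≤ (s.map (fun a => ‖z - a‖⁻¹)).sum := List.sum_nonneg (by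
        intro x hx
        obtain ⟨a, _, rfl⟩ := List.mem_map.1 hx
        positivity)
      refine (Real.sqrt_le_sqrt h1).trans ?_
      have h3 : √((s.map (fun a => ‖z - a‖⁻¹)).sum + K1) ≤
          √((s.map (fun a => ‖z - a‖⁻¹)).sum) + √K1 := by
        rw [Real.sqrt_le_left (by positivity)]
        nlinarith [Real.sq_sqrt h2, Real.sq_sqrt hK10,
          Real.sqrt_nonneg (s.map (fun a => ‖z - a‖⁻¹)).sum, Real.sqrt_nonneg K1]
      refine h3.trans ?_
      gcongr
      refine (sqrt_list_sum_le _ ?_).trans (le_of_eq ?_)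
      · intro x hx
        obtain ⟨a, _, rfl⟩ := List.mem_map.1 hx
        positivity
      · rw [List.map_map, hS]
        simp only []
        congr 2
        ext a
        simp [Real.sqrt_inv]
  have hsqK : √K1 ≤ 1 + K1 := by
    rw [Real.sqrt_le_left (by positivity)]
    nlinarith
  have hpoint : ∀ z ∈ sphere (0 : ℂ) |R|, log⁺ ‖deriv F z / F z‖ ≤
      2 * (Real.log A + (1 + (1 + K1)) / A - 1) + 2 / A * S z := by
    intro z hz
    refine (posLog_le_sqrt (norm_nonneg _) hA1).trans ?_
    have h1 := hsq z hz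
    have h2 : (1 + √‖deriv F z / F z‖) / A ≤ (1 + (S z + (1 + K1))) / A := by
      gcongr
      linarith
    have h3 : (1 + (S z + (1 + K1))) / A = (1 + (1 + K1)) / A + S z / A := by ring
    have h4 : 2 / A * S z = 2 * (S z / A) := by ring
    rw [h4]
    linarith
  have hmer : CircleIntegrable (fun z => log⁺ ‖deriv F z / F z‖) 0 R := by
    have hFs : AnalyticOnNhd ℂ F (sphere 0 |R|) := by
      refine hF.mono fun z hz => ?_
      rw [abs_of_pos hR0, mem_sphere, dist_zero_right] at hz
      rw [mem_closedBall, dist_zero_right, hz]; linarith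
    have : MeromorphicOn (fun z => deriv F z / F z) (sphere 0 |R|) :=
      hFs.deriv.meromorphicOn.div hFs.meromorphicOn
    exact this.circleIntegrable_posLog_norm
  have hcint : CircleIntegrable
      (fun z => 2 * (Real.log A + (1 + (1 + K1)) / A - 1) + 2 / A * S z) 0 R := by
    exact (circleIntegrable_const _ _ _).add (hint.const_mul _)
  refine (circleAverage_mono hmer hcint hpoint).trans ?_
  have e1 : circleAverage (fun z => 2 * (Real.log A + (1 + (1 + K1)) / A - 1) + 2 / A * S z) 0 R =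
      2 * (Real.log A + (1 + (1 + K1)) / A - 1) + 2 / A * circleAverage S 0 R := by
    have hint2 : CircleIntegrable (fun z => 2 / A * S z) 0 R := hint.const_mul _
    rw [circleAverage_fun_add (circleIntegrable_const _ _ _) hint2, circleAverage_const]
    congr 1
    have := circleAverage_fun_smul (a := 2 / A) (f := S) (c := (0 : ℂ)) (R := R)
    simpa [smul_eq_mul] using this
  rw [e1]
  have h5 : (1 + (1 + K1)) / A ≤ 1 := by
    rw [div_le_one hA0]; linarith
  have hC := C0_nonneg
  have h6 : (√R)⁻¹ ≤ 1 := by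
    rw [inv_le_one₀ (by positivity)]
    exact Real.one_le_sqrt.2 hR
  have h7 : circleAverage S 0 R ≤ 3 * Q * C0 := by
    refine hav.trans ?_
    have : (√R)⁻¹ * C0 ≤ C0 := by nlinarith
    calc (s.length : ℝ) * ((√R)⁻¹ * C0) ≤ (s.length : ℝ) * C0 := by gcongr
      _ ≤ 3 * Q * C0 := by
        gcongr
        nlinarith
  have h8 : 2 / A * circleAverage S 0 R ≤ C0 := by
    calc 2 / A * circleAverage S 0 R ≤ 2 / A * (3 * Q * C0) := by gcongr
      _ = (6 / 30) * C0 := by
        rw [hA]
        field_simp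
        ring
      _ ≤ C0 := by linarith
  linarith

end Vale.Agent.P097.H330
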