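import Vale.Agent.P097.H330.LogDer2

/-! P097, endgame (Case III), part 3: the main estimate in one variable. -/

namespace Vale.Agent.P097.H330

open Complex Metric Set Real MeasureTheory Filter

theorem circleAverage_mono_codiscrete {f g : ℂ → ℝ} {c : ℂ} {R : ℝ} (hR : 0 < R)
    (hf : CircleIntegrable f c R) (hg : CircleIntegrable g c R) {s : Set ℂ}
    (hs : s ∈ codiscreteWithin (sphere c |R|)) (h : ∀ z ∈ s, f z ≤ g z) :
    circleAverage f c R ≤ circleAverage g c R := by
  rw [circleAverage_def, circleAverage_def, smul_eq_mul, smul_eq_mul]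
  refine mul_le_mul_of_nonneg_left ?_ (by positivity)
  have h1 : circleMap c R ⁻¹' s ∈ codiscrete ℝ := circleMap_preimage_codiscrete hR.ne' hs
  have h2 : circleMap c R ⁻¹' s ∈ codiscreteWithin (Icc 0 (2 * π)) :=
    codiscreteWithin_mono (subset_univ _) h1
  have h3 : ∀ᵐ θ ∂(volume.restrict (Icc 0 (2 * π))), θ ∈ circleMap c R ⁻¹' s :=
    ae_restrict_le_codiscreteWithin measurableSet_Icc h2
  have hf' : IntervalIntegrable (fun θ => f (circleMap c R θ)) volume 0 (2 * π) := hf
  have hg' : IntervalIntegrable (fun θ => g (circleMap c R θ)) volume 0 (2 * π) := hg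
  exact intervalIntegral.integral_mono_ae_restrict (by positivity) hf' hg'
    (h3.mono fun θ hθ => h _ hθ)

theorem ne_zero_codiscrete {f : ℂ → ℂ} {c : ℂ} {R : ℝ} (hR : 0 < R)
    (hf : AnalyticOnNhd ℂ f (closedBall c R)) (h0 : f c ≠ 0) :
    {z | f z ≠ 0} ∈ codiscreteWithin (sphere c |R|) := by
  have h1 := hf.preimage_zero_mem_codiscreteWithin h0 (mem_closedBall_self hR.le)
    ⟨nonempty_closedBall.mpr hR.le, (convex_closedBall c R).isPreconnected⟩
  have h2 : sphere c |R| ⊆ closedBall c R := by
    rw [abs_of_pos hR]; exact sphere_subset_closedBall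
  exact codiscreteWithin_mono h2 h1

/-- Jensen's inequality -/
theorem log_center_le {f : ℂ → ℂ} {c : ℂ} {R : ℝ} (hR : 0 < R)
    (hf : AnalyticOnNhd ℂ f (closedBall c R)) (h0 : f c ≠ 0) :
    Real.log ‖f c‖ ≤ circleAverage (fun z => Real.log ‖f z‖) c R := by
  have hf' : AnalyticOnNhd ℂ f (closedBall c |R|) := by rwa [abs_of_pos hR]
  rw [hf'.circleAverage_log_norm hR.ne' h0]
  have : 0 ≤ ∑ᶠ u, (MeromorphicOn.divisor f (closedBall c |R|) u : ℝ) *
      Real.log (R * ‖c - u‖⁻¹) := by
    refine finsum_nonneg fun u => ?_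
    by_cases hu : u ∈ closedBall c |R|
    · refine mul_nonneg ?_ ?_
      · exact_mod_cast (MeromorphicOn.AnalyticOnNhd.divisor_nonneg hf' u)
      · rw [abs_of_pos hR, mem_closedBall, dist_comm, dist_eq_norm] at hu
        rcases eq_or_ne ‖c - u‖ 0 with h1 | h1
        · simp [h1]
        · apply Real.log_nonneg
          rw [← div_eq_mul_inv, one_le_div (by positivity)]
          exact hu
    · rw [Function.locallyFinsuppWithin.apply_eq_zero_of_notMem _ hu]
      simp
  linarith

theorem norm_sin_le (w : ℂ) : ‖Complex.sin w‖ ≤ Real.exp ‖w‖ := by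
  have h1 : ∀ v : ℂ, ‖v‖ ≤ ‖w‖ → ‖Complex.exp v‖ ≤ Real.exp ‖w‖ := by
    intro v hv
    rw [Complex.norm_exp]
    exact Real.exp_le_exp.2 ((Complex.re_le_norm v).trans hv)
  have h2 : Complex.sin w = (Complex.exp (-w * I) - Complex.exp (w * I)) * I / 2 := rfl
  rw [h2, norm_div, norm_mul, Complex.norm_I, mul_one]
  have h3 := norm_sub_le (Complex.exp (-w * I)) (Complex.exp (w * I))
  have h4 := h1 (-w * I) (by simp)
  have h5 := h1 (w * I) (by simp)
  have h6 : ‖(2 : ℂ)‖ = 2 := by simp
  rw [h6]
  linarith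

theorem abs_im_le_posLog_sin (w : ℂ) : |w.im| ≤ 1 + log⁺ ‖Complex.sin w‖ := by
  rcases le_or_gt |w.im| 1 with h | h
  · linarith [Real.posLog_nonneg (x := ‖Complex.sin w‖)]
  · have h2 : Complex.sin w = (Complex.exp (-w * I) - Complex.exp (w * I)) * I / 2 := rfl
    have h6 : ‖(2 : ℂ)‖ = 2 := by simp
    have hn : ‖Complex.sin w‖ = ‖Complex.exp (-w * I) - Complex.exp (w * I)‖ / 2 := by
      rw [h2, norm_div, norm_mul, Complex.norm_I, mul_one, h6]
    have e1 : ‖Complex.exp (-w * I)‖ = Real.exp w.im := by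
      rw [Complex.norm_exp]; simp
    have e2 : ‖Complex.exp (w * I)‖ = Real.exp (-w.im) := by
      rw [Complex.norm_exp]; simp
    have h3 : |Real.exp w.im - Real.exp (-w.im)| ≤
        ‖Complex.exp (-w * I) - Complex.exp (w * I)‖ := by
      rw [← e1, ← e2]; exact abs_norm_sub_norm_le _ _
    have h4 : Real.exp (|w.im|) - Real.exp (-|w.im|) = |Real.exp w.im - Real.exp (-w.im)| := by
      rcases le_total 0 w.im with h0 | h0
      · rw [abs_of_nonneg h0, abs_of_nonneg]
        have := Real.exp_le_exp.2 (show -w.im ≤ w.im by linarith)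
        linarith
      · rw [abs_of_nonpos h0, abs_of_nonpos, neg_neg]
        · ring
        · have := Real.exp_le_exp.2 (show w.im ≤ -w.im by linarith)
          linarith
    have h5 : Real.exp (|w.im| - 1) ≤ ‖Complex.sin w‖ := by
      rw [hn]
      have h7 : Real.exp (-|w.im|) ≤ Real.exp (-2) * Real.exp (|w.im|) := by
        rw [← Real.exp_add]
        exact Real.exp_le_exp.2 (by linarith)
      have h8 : Real.exp (|w.im| - 1) = Real.exp (-1) * Real.exp (|w.im|) := by
        rw [← Real.exp_add]; congr 1; ring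
      have h9 : Real.exp (-2) + 2 * Real.exp (-1) ≤ 1 := by
        have h10 := Real.exp_one_gt_d9
        have h11 : Real.exp (-1) ≤ 0.3679 := by
          rw [Real.exp_neg, inv_le_comm₀ (Real.exp_pos _) (by norm_num)]
          refine le_trans ?_ h10.le
          norm_num
        have h12 : Real.exp (-2) = Real.exp (-1) * Real.exp (-1) := by
          rw [← Real.exp_add]; norm_num
        rw [h12]
        nlinarith [Real.exp_pos (-1)]
      have h13 : 0 < Real.exp (|w.im|) := Real.exp_pos _
      rw [h8]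
      nlinarith
    have h7 : |w.im| - 1 ≤ Real.log ‖Complex.sin w‖ := by
      rw [Real.le_log_iff_exp_le (lt_of_lt_of_le (Real.exp_pos _) h5)]
      exact h5
    have h8 : Real.log ‖Complex.sin w‖ ≤ log⁺ ‖Complex.sin w‖ := by
      rw [Real.posLog_apply]; exact le_max_right _ _
    linarith


/-- the logarithmic derivative lemma with arbitrary centre -/
theorem logDeriv_average {F : ℂ → ℂ} {c : ℂ} {R κ B B' : ℝ} (hR : 1 ≤ R) (hκ : 0 < κ)
    (hκ1 : κ ≤ 1) (hF : AnalyticOnNhd ℂ F (closedBall c (R + 2 * κ))) (hF0 : F c ≠ 0)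
    (hB : ∀ z ∈ sphere c (R + 2 * κ), ‖F z‖ ≤ Real.exp B) (hB' : -Real.log ‖F c‖ ≤ B')
    (hBB : 1 ≤ B + B') :
    circleAverage (fun z => log⁺ ‖deriv F z / F z‖) c R ≤
      2 * Real.log (30 * (R * (B + B') / κ ^ 2)) + C0 := by
  have h := logDeriv_average₀ (F := fun z => F (z + c)) hR hκ hκ1 (B := B) (B' := B') ?_
    (by simpa using hF0) ?_ (by simpa using hB') hBB
  · have e : (fun z => log⁺ ‖deriv (fun z => F (z + c)) z / F (z + c)‖) =
        fun z => (fun z => log⁺ ‖deriv F z / F z‖) (z + c) := by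
      ext z
      simp only []
      rw [deriv_comp_add_const]
    rw [e] at h
    rw [← circleAverage_map_add_const (f := fun z => log⁺ ‖deriv F z / F z‖)]
    exact h
  · intro z hz
    have hz' : z + c ∈ closedBall c (R + 2 * κ) := by
      simpa [mem_closedBall, dist_eq_norm] using hz
    have h1 : AnalyticAt ℂ (fun w : ℂ => w + c) z := by fun_prop
    exact AnalyticAt.comp (g := F) (f := fun w => w + c) (hF _ hz') h1
  · intro z hz
    exact hB _ (by simpa [mem_sphere, dist_eq_norm] using hz)

/-- the bound of the mean of `|Im d|` -/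
noncomputable def Sbd (R κ M B1 b : ℝ) : ℝ :=
  1 + ((B1 + b) / 2 + (Real.log 2 + (2 * Real.log (30 * (R * (M + b) / κ ^ 2)) + C0) +
    (Real.log (M / κ) + b)))

theorem im_average_le {d h : ℂ → ℂ} {c : ℂ} {R κ M B1 b : ℝ} (hR : 1 ≤ R) (hκ : 0 < κ)
    (hκ1 : κ ≤ 1) (hd : AnalyticOnNhd ℂ d (closedBall c (R + 2 * κ)))
    (hh : AnalyticOnNhd ℂ h (closedBall c R)) (hM1 : 1 ≤ M)
    (hM : ∀ z ∈ closedBall c (R + 2 * κ), ‖d z‖ ≤ M)
    (hGb : ∀ z ∈ sphere c R, ‖h z * Complex.sin (d z) ^ 2‖ ≤ Real.exp B1) (hb : 0 ≤ b)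
    (hd0 : Real.exp (-b) ≤ ‖deriv d c‖) (hh0 : Real.exp (-b) ≤ ‖h c‖)
    (hs0 : Real.exp (-b) ≤ ‖Complex.sin (d c)‖) :
    circleAverage (fun z => |(d z).im|) c R ≤ Sbd R κ M B1 b := by
  have hR0 : 0 < R := by linarith
  have hRR : closedBall c R ⊆ closedBall c (R + 2 * κ) := closedBall_subset_closedBall (by linarith)
  have hsub : sphere c |R| ⊆ closedBall c R := by
    rw [abs_of_pos hR0]; exact sphere_subset_closedBall
  have hdR : AnalyticOnNhd ℂ d (closedBall c R) := hd.mono hRR
  -- the functions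
  set F : ℂ → ℂ := fun z => Complex.sin (d z) with hFdef
  have hF : AnalyticOnNhd ℂ F (closedBall c (R + 2 * κ)) := fun z hz =>
    AnalyticAt.comp (g := Complex.sin) (f := d) (Complex.analyticAt_sin (x := d z)) (hd z hz)
  have hFR : AnalyticOnNhd ℂ F (closedBall c R) := hF.mono hRR
  have hd' : AnalyticOnNhd ℂ (deriv d) (closedBall c R) := hdR.deriv
  have pos_ne : ∀ {x : ℂ}, Real.exp (-b) ≤ ‖x‖ → x ≠ 0 := fun hx h0 => by
    rw [h0, norm_zero] at hx; exact absurd hx (not_le.2 (Real.exp_pos _))
  have log_ge : ∀ {x : ℂ}, Real.exp (-b) ≤ ‖x‖ → -b ≤ Real.log ‖x‖ := fun hx => by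
    rw [Real.le_log_iff_exp_le (lt_of_lt_of_le (Real.exp_pos _) hx)]; exact hx
  have hFc : F c ≠ 0 := pos_ne hs0
  have hhc : h c ≠ 0 := pos_ne hh0
  have hdc : deriv d c ≠ 0 := pos_ne hd0
  -- integrability
  have iF : CircleIntegrable (fun z => Real.log ‖F z‖) c R :=
    (hFR.mono hsub).meromorphicOn.circleIntegrable_log_norm
  have iFp : CircleIntegrable (fun z => log⁺ ‖F z‖) c R :=
    (hFR.mono hsub).meromorphicOn.circleIntegrable_posLog_norm
  have iFi : CircleIntegrable (fun z => log⁺ ‖(F z)⁻¹‖) c R :=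
    ((hFR.mono hsub).meromorphicOn.inv).circleIntegrable_posLog_norm
  have ih : CircleIntegrable (fun z => Real.log ‖h z‖) c R :=
    (hh.mono hsub).meromorphicOn.circleIntegrable_log_norm
  have id1 : CircleIntegrable (fun z => Real.log ‖deriv d z‖) c R :=
    (hd'.mono hsub).meromorphicOn.circleIntegrable_log_norm
  have id2 : CircleIntegrable (fun z => log⁺ ‖deriv d z‖) c R :=
    (hd'.mono hsub).meromorphicOn.circleIntegrable_posLog_norm
  have id3 : CircleIntegrable (fun z => log⁺ ‖(deriv d z)⁻¹‖) c R :=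
    ((hd'.mono hsub).meromorphicOn.inv).circleIntegrable_posLog_norm
  have iL : CircleIntegrable (fun z => log⁺ ‖deriv F z / F z‖) c R := by
    have : MeromorphicOn (fun z => deriv F z / F z) (sphere c |R|) :=
      (hFR.mono hsub).deriv.meromorphicOn.div (hFR.mono hsub).meromorphicOn
    exact this.circleIntegrable_posLog_norm
  have iIm : CircleIntegrable (fun z => |(d z).im|) c R := by
    apply ContinuousOn.circleIntegrable hR0.le
    have : ContinuousOn d (sphere c R) := hdR.continuousOn.mono sphere_subset_closedBall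
    exact (Complex.continuous_im.comp_continuousOn this).abs
  -- A1
  have A1 : circleAverage (fun z => Real.log ‖F z‖) c R ≤ (B1 + b) / 2 := by
    have h1 : circleAverage (fun z => (2 : ℝ) • Real.log ‖F z‖) c R ≤
        circleAverage (fun z => B1 - Real.log ‖h z‖) c R := by
      refine circleAverage_mono_codiscrete hR0 (iF.const_mul _)
        ((circleIntegrable_const _ _ _).sub ih)
        (s := {z | F z ≠ 0} ∩ ({z | h z ≠ 0} ∩ sphere c |R|)) ?_ ?_
      · exact inter_mem (ne_zero_codiscrete hR0 hFR hFc)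
          (inter_mem (ne_zero_codiscrete hR0 hh hhc) (self_mem_codiscreteWithin _))
      · rintro z ⟨h1, h2, h3⟩
        rw [abs_of_pos hR0] at h3
        have h4 := hGb z h3
        have h5 : 0 < ‖F z‖ := norm_pos_iff.2 h1
        have h6 : 0 < ‖h z‖ := norm_pos_iff.2 h2
        rw [norm_mul, norm_pow] at h4
        have h7 := Real.log_le_log (by positivity) h4
        rw [Real.log_exp, Real.log_mul h6.ne' (by positivity), Real.log_pow] at h7
        push_cast at h7
        rw [smul_eq_mul]
        linarith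
    rw [circleAverage_fun_smul, circleAverage_fun_sub (circleIntegrable_const _ _ _) ih,
      circleAverage_const, smul_eq_mul] at h1
    have h2 := log_center_le hR0 hh hhc
    have h3 := log_ge hh0
    linarith
  -- A2
  have A2 : circleAverage (fun z => log⁺ ‖deriv F z / F z‖) c R ≤
      2 * Real.log (30 * (R * (M + b) / κ ^ 2)) + C0 := by
    refine logDeriv_average hR hκ hκ1 hF hFc (fun z hz => ?_) (by linarith [log_ge hs0])
      (by linarith)
    refine (norm_sin_le _).trans (Real.exp_le_exp.2 (hM z (sphere_subset_closedBall hz)))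
  -- A3
  have A3 : circleAverage (fun z => log⁺ ‖(deriv d z)⁻¹‖) c R ≤ Real.log (M / κ) + b := by
    have h1 : ∀ z, log⁺ ‖(deriv d z)⁻¹‖ = log⁺ ‖deriv d z‖ - Real.log ‖deriv d z‖ := by
      intro z
      rw [norm_inv, ← Real.posLog_sub_posLog_inv (x := ‖deriv d z‖)]
      ring
    simp_rw [h1]
    rw [circleAverage_fun_sub id2 id1]
    have h2 := log_center_le hR0 hd' hdc
    have h3 := log_ge hd0
    have h4 : circleAverage (fun z => log⁺ ‖deriv d z‖) c R ≤ Real.log (M / κ) := by
      refine circleAverage_mono_on_of_le_circle id2 fun z hz => ?_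
      rw [abs_of_pos hR0] at hz
      have hzc : ‖z - c‖ = R := by simpa [dist_eq_norm] using hz
      have h5 : ‖deriv d z‖ ≤ M / κ := by
        refine Complex.norm_deriv_le_of_forall_mem_sphere_norm_le hκ ?_ fun w hw => hM w ?_
        · refine DifferentiableOn.diffContOnCl ?_
          rw [closure_ball z hκ.ne']
          refine hd.differentiableOn.mono fun w hw => ?_
          rw [mem_closedBall, dist_eq_norm] at hw ⊢
          have : ‖w - c‖ ≤ ‖w - z‖ + ‖z - c‖ := by
            have := norm_add_le (w - z) (z - c)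
            simpa using this
          linarith
        · rw [mem_sphere, dist_eq_norm] at hw
          rw [mem_closedBall, dist_eq_norm]
          have : ‖w - c‖ ≤ ‖w - z‖ + ‖z - c‖ := by
            have := norm_add_le (w - z) (z - c)
            simpa using this
          linarith
      have h6 : (1 : ℝ) ≤ M / κ := by
        rw [one_le_div hκ]; linarith
      calc log⁺ ‖deriv d z‖ ≤ log⁺ (M / κ) := Real.posLog_le_posLog (norm_nonneg _) h5
        _ = Real.log (M / κ) := Real.posLog_eq_log (by rw [abs_of_pos (by linarith)]; exact h6)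
    linarith
  -- A4
  have A4 : circleAverage (fun z => log⁺ ‖(F z)⁻¹‖) c R ≤
      Real.log 2 + (2 * Real.log (30 * (R * (M + b) / κ ^ 2)) + C0) + (Real.log (M / κ) + b) := by
    have h1 : circleAverage (fun z => log⁺ ‖(F z)⁻¹‖) c R ≤
        circleAverage (fun z => (Real.log 2 + log⁺ ‖deriv F z / F z‖) +
          log⁺ ‖(deriv d z)⁻¹‖) c R := by
      refine circleAverage_mono_codiscrete hR0 iFi
        (((circleIntegrable_const _ _ _).add iL).add id3)
        (s := {z | F z ≠ 0} ∩ ({z | deriv d z ≠ 0} ∩ sphere c |R|)) ?_ ?_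
      · exact inter_mem (ne_zero_codiscrete hR0 hFR hFc)
          (inter_mem (ne_zero_codiscrete hR0 hd' hdc) (self_mem_codiscreteWithin _))
      · rintro z ⟨h1, h2, h3⟩
        have h1' : F z ≠ 0 := h1
        have h2' : deriv d z ≠ 0 := h2
        have hz : z ∈ closedBall c R := hsub h3
        have hderiv : deriv F z = Complex.cos (d z) * deriv d z := by
          have := ((hdR z hz).differentiableAt.hasDerivAt).csin
          exact this.deriv
        have hcot : Complex.cos (d z) / F z = (deriv F z / F z) * (deriv d z)⁻¹ := by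
          rw [hderiv]; field_simp
        have h4 : ‖(F z)⁻¹‖ ≤ 1 + ‖Complex.cos (d z) / F z‖ := by
          have h5 : (F z)⁻¹ ^ 2 = 1 + (Complex.cos (d z) / F z) ^ 2 := by
            have := Complex.sin_sq_add_cos_sq (d z)
            have h6 : F z = Complex.sin (d z) := rfl
            rw [← h6] at this
            field_simp
            linear_combination -this
          have h6 : ‖(F z)⁻¹‖ ^ 2 ≤ 1 + ‖Complex.cos (d z) / F z‖ ^ 2 := by
            rw [← norm_pow, ← norm_pow, h5]
            exact (norm_add_le _ _).trans (by simp)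
          have h7 := norm_nonneg (Complex.cos (d z) / F z)
          nlinarith [norm_nonneg (F z)⁻¹]
        calc log⁺ ‖(F z)⁻¹‖ ≤ log⁺ (1 + ‖Complex.cos (d z) / F z‖) :=
              Real.posLog_le_posLog (norm_nonneg _) h4
          _ ≤ Real.log 2 + log⁺ 1 + log⁺ ‖Complex.cos (d z) / F z‖ := Real.posLog_add
          _ = Real.log 2 + log⁺ ‖(deriv F z / F z) * (deriv d z)⁻¹‖ := by
              rw [hcot]; simp
          _ ≤ Real.log 2 + (log⁺ ‖deriv F z / F z‖ + log⁺ ‖(deriv d z)⁻¹‖) := by
              rw [norm_mul]; gcongr; exact Real.posLog_mul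
          _ = _ := by ring
    have iA : CircleIntegrable (fun z => Real.log 2 + log⁺ ‖deriv F z / F z‖) c R :=
      (circleIntegrable_const _ _ _).add iL
    rw [circleAverage_fun_add iA id3,
      circleAverage_fun_add (circleIntegrable_const _ _ _) iL, circleAverage_const] at h1
    linarith
  -- A5
  have A5 : circleAverage (fun z => log⁺ ‖F z‖) c R =
      circleAverage (fun z => Real.log ‖F z‖) c R +
        circleAverage (fun z => log⁺ ‖(F z)⁻¹‖) c R := by
    rw [← circleAverage_fun_add iF iFi]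
    congr 1
    ext z
    rw [norm_inv, ← Real.posLog_sub_posLog_inv (x := ‖F z‖)]
    ring
  -- A6
  have A6 : circleAverage (fun z => |(d z).im|) c R ≤
      circleAverage (fun z => 1 + log⁺ ‖F z‖) c R :=
    circleAverage_mono iIm ((circleIntegrable_const _ _ _).add iFp)
      fun z _ => abs_im_le_posLog_sin (d z)
  rw [circleAverage_fun_add (circleIntegrable_const _ _ _) iFp, circleAverage_const] at A6
  unfold Sbd
  linarith

end Vale.Agent.P097.H330
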