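import Vale.Agent.P097.H330.OneVar

/-! P097, endgame (Case III), part 4: from the mean of `|Im d|` to the sup norm of `d`. -/

namespace Vale.Agent.P097.H330

open Complex Metric Set Real MeasureTheory Filter

theorem abs_im_le_average {d : ℂ → ℂ} {c : ℂ} {R S : ℝ} (hR : 0 < R)
    (hd : AnalyticOnNhd ℂ d (closedBall c R))
    (hS : circleAverage (fun z => |(d z).im|) c R ≤ S) {w : ℂ} (hw : w ∈ ball c R) :
    |(d w).im| ≤ (R + ‖w - c‖) / (R - ‖w - c‖) * S := by
  have hwR : ‖w - c‖ < R := by simpa [dist_eq_norm] using hw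
  have hdc : DiffContOnCl ℂ d (ball c R) := by
    refine DifferentiableOn.diffContOnCl ?_
    rw [closure_ball c hR.ne']
    exact hd.differentiableOn
  have h1 := hdc.circleAverage_re_herglotzRieszKernel_smul' hw
  set k : ℂ → ℝ := fun z => ((z - c + (w - c)) / ((z - c) - (w - c))).re with hk
  set K : ℝ := (R + ‖w - c‖) / (R - ‖w - c‖) with hK
  have hK0 : 0 ≤ K := div_nonneg (by positivity) (by linarith)
  have hdcont : ContinuousOn d (sphere c R) := hd.continuousOn.mono sphere_subset_closedBall
  have hkcont : ContinuousOn k (sphere c R) := by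
    have h2 : ContinuousOn (fun z => (z - c + (w - c)) / ((z - c) - (w - c))) (sphere c R) := by
      refine ContinuousOn.div (by fun_prop) (by fun_prop) fun z hz h0 => ?_
      have : z = w := by linear_combination h0
      rw [mem_sphere, dist_eq_norm, this] at hz
      exact absurd hz hwR.ne
    exact Complex.continuous_re.comp_continuousOn h2
  have hk1 : ∀ z ∈ sphere c |R|, |k z| ≤ K := by
    intro z hz
    rw [abs_of_pos hR] at hz
    have h2 := re_herglotzRieszKernel_le hz hw
    have h3 := le_re_herglotzRieszKernel hz hw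
    have h4 : 0 ≤ (R - ‖w - c‖) / (R + ‖w - c‖) := div_nonneg (by linarith) (by positivity)
    rw [abs_of_nonneg (h4.trans h3)]
    exact h2
  have hint : CircleIntegrable (fun z => k z • d z) c R :=
    (hkcont.smul hdcont).circleIntegrable hR.le
  have hint2 : CircleIntegrable (fun z => k z * (d z).im) c R :=
    (hkcont.mul (Complex.continuous_im.comp_continuousOn hdcont)).circleIntegrable hR.le
  have hint3 : CircleIntegrable (fun z => |(d z).im|) c R :=
    ((Complex.continuous_im.comp_continuousOn hdcont).abs).circleIntegrable hR.le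
  have h2 : (d w).im = circleAverage (fun z => k z * (d z).im) c R := by
    rw [← h1]
    have h3 := Complex.imCLM.circleAverage_comp_comm hint
    have h4 : Complex.imCLM (circleAverage (fun z => k z • d z) c R) =
      (circleAverage (fun z => k z • d z) c R).im := rfl
    rw [← h4, ← h3]
    congr 1
    ext z
    simp
  rw [h2]
  refine (abs_circleAverage_le_circleAverage_abs).trans ?_
  have h5 : circleAverage (fun z => |k z * (d z).im|) c R ≤
      circleAverage (fun z => K • |(d z).im|) c R := by
    refine circleAverage_mono hint2.abs (hint3.const_mul _) fun z hz => ?_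
    rw [abs_mul, smul_eq_mul]
    exact mul_le_mul_of_nonneg_right (hk1 z hz) (abs_nonneg _)
  rw [circleAverage_fun_smul, smul_eq_mul] at h5
  exact h5.trans (mul_le_mul_of_nonneg_left hS hK0)

theorem norm_le_of_im_average {d : ℂ → ℂ} {c : ℂ} {R κ S : ℝ} (hκ : 0 < κ)
    (hκR : κ < R) (hd : AnalyticOnNhd ℂ d (closedBall c R)) (hS0 : 0 < S)
    (hS : circleAverage (fun z => |(d z).im|) c R ≤ S) {z : ℂ} (hz : z ∈ closedBall c (R - κ)) :
    ‖d z‖ ≤ 16 * (R / κ) ^ 2 * S + 4 * (R / κ) * ‖d c‖ := by
  have hR : 0 < R := by linarith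
  set R' : ℝ := R - κ / 2 with hR'
  have hR'0 : 0 < R' := by rw [hR']; linarith
  set M' : ℝ := 4 * (R / κ) * S with hM'
  have hM'0 : 0 < M' := by positivity
  have him : ∀ w ∈ ball c R', (d w).im ≤ M' := by
    intro w hw
    have hw' : ‖w - c‖ < R' := by simpa [dist_eq_norm] using hw
    have hwR : w ∈ ball c R := by
      rw [mem_ball, dist_eq_norm]; rw [hR'] at hw'; linarith
    refine (le_abs_self _).trans ((abs_im_le_average hR hd hS hwR).trans ?_)
    rw [hM']
    gcongr
    have h1 : κ / 2 ≤ R - ‖w - c‖ := by rw [hR'] at hw'; linarith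
    have h2 : R + ‖w - c‖ ≤ 2 * R := by rw [hR'] at hw'; linarith
    calc (R + ‖w - c‖) / (R - ‖w - c‖) ≤ (2 * R) / (κ / 2) := by gcongr
      _ = 4 * (R / κ) := by field_simp; ring
  have hz' : ‖z - c‖ ≤ R - κ := by simpa [dist_eq_norm] using hz
  have hbc := Complex.borelCaratheodory (f := fun w => -Complex.I * d (w + c)) (R := R')
    (z := z - c) hM'0 ?_ ?_ hR'0 ?_
  · have e0 : z - c + c = z := by ring
    simp only [e0, zero_add, norm_mul, norm_neg, Complex.norm_I, one_mul] at hbc
    refine hbc.trans ?_
    have h1 : κ / 2 ≤ R' - ‖z - c‖ := by rw [hR']; linarith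
    have h3 : R' + ‖z - c‖ ≤ 2 * R := by rw [hR']; linarith
    have h2 : ‖z - c‖ ≤ R := by linarith
    have e1 : 2 * M' * ‖z - c‖ / (R' - ‖z - c‖) ≤ 2 * M' * R / (κ / 2) := by gcongr
    have e2 : ‖d c‖ * (R' + ‖z - c‖) / (R' - ‖z - c‖) ≤ ‖d c‖ * (2 * R) / (κ / 2) := by gcongr
    refine (add_le_add e1 e2).trans (le_of_eq ?_)
    rw [hM']
    field_simp
    ring
  · intro w hw
    have hw' : w + c ∈ closedBall c R := by
      rw [mem_ball, dist_zero_right] at hw
      rw [mem_closedBall, dist_eq_norm]
      rw [hR'] at hw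
      simp only [add_sub_cancel_right]
      linarith
    have h1 : AnalyticAt ℂ (fun w : ℂ => w + c) w := by fun_prop
    have h2 := AnalyticAt.comp (g := d) (f := fun w => w + c) (hd _ hw') h1
    exact (h2.differentiableAt.const_mul (-Complex.I)).differentiableWithinAt
  · intro w hw
    have hw' : w + c ∈ ball c R' := by
      rw [mem_ball, dist_zero_right] at hw
      rw [mem_ball, dist_eq_norm]
      simpa using hw
    have := him _ hw'
    simpa using this
  · rw [mem_ball, dist_zero_right, hR']; linarith

end Vale.Agent.P097.H330
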