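import Vale.Agent.P097.H330.TwoVar

/-! P097, endgame (Case III), part 6: one step of the growth estimate. -/

namespace Vale.Agent.P097.H330

open Complex Metric Set Real MeasureTheory Filter

variable {f h : ℂ → ℂ → ℂ} {c₀ w₀ : ℂ} {ρ₀ : ℝ}

theorem Sbd_le {y κ M C₁ b : ℝ} (hy : 1 ≤ y) (hκ : 0 < κ) (hκ1 : κ ≤ 1) (hM : 1 ≤ M)
    (hC : 1 ≤ C₁) (hb : 0 ≤ b) :
    Sbd (y + κ) κ M (Real.log (20 * C₁ * y * M ^ 2 / κ ^ 2)) b ≤
      (25 + 10 * C₁ + 4 * b + C0) * ((y / κ) * (1 + Real.log M)) := by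
  set t : ℝ := y / κ with ht
  set ℓ : ℝ := Real.log M with hℓ
  have hℓ0 : 0 ≤ ℓ := Real.log_nonneg hM
  have ht1 : 1 ≤ t := by rw [ht, one_le_div hκ]; linarith
  have hyt : y ≤ t := by rw [ht, le_div_iff₀ hκ]; nlinarith
  have hkt : 1 / κ ≤ t := by rw [ht]; gcongr
  have hlk : -Real.log κ ≤ t := by
    have := Real.log_le_sub_one_of_pos (x := 1 / κ) (by positivity)
    rw [Real.log_div one_ne_zero hκ.ne', Real.log_one] at this
    linarith
  have hly : Real.log y ≤ t := by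
    have := Real.log_le_sub_one_of_pos (x := y) (by linarith)
    linarith
  have hlR : Real.log (y + κ) ≤ 2 * t := by
    have := Real.log_le_sub_one_of_pos (x := y + κ) (by linarith)
    linarith
  have hl20 : Real.log (20 * C₁) ≤ 20 * C₁ := by
    have := Real.log_le_sub_one_of_pos (x := 20 * C₁) (by linarith)
    linarith
  have hl30 : Real.log 30 ≤ 4 := by
    rw [Real.log_le_iff_le_exp (by norm_num)]
    have h1 := Real.exp_one_gt_d9
    have h2 : Real.exp 4 = Real.exp 1 ^ 4 := by rw [← Real.exp_nat_mul]; norm_num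
    rw [h2]
    calc (30 : ℝ) ≤ 2.7182818283 ^ 4 := by norm_num
      _ ≤ Real.exp 1 ^ 4 := by gcongr
  have hl2 : Real.log 2 ≤ 1 := by
    have := Real.log_le_sub_one_of_pos (x := 2) (by norm_num)
    linarith
  have hlMb : Real.log (M + b) ≤ ℓ + b := by
    have h1 : M + b ≤ M * (1 + b) := by nlinarith
    have h2 := Real.log_le_log (by linarith) h1
    rw [Real.log_mul (by linarith) (by linarith)] at h2
    have := Real.log_le_sub_one_of_pos (x := 1 + b) (by linarith)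
    linarith
  have hB1 : Real.log (20 * C₁ * y * M ^ 2 / κ ^ 2) =
      Real.log (20 * C₁) + Real.log y + 2 * ℓ - 2 * Real.log κ := by
    rw [Real.log_div (by positivity) (by positivity), Real.log_mul (by positivity) (by positivity),
      Real.log_mul (by positivity) (by positivity), Real.log_pow, Real.log_pow]
    push_cast; ring
  have h30 : Real.log (30 * ((y + κ) * (M + b) / κ ^ 2)) =
      Real.log 30 + Real.log (y + κ) + Real.log (M + b) - 2 * Real.log κ := by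
    have hMb : 0 < M + b := by linarith
    rw [Real.log_mul (by positivity) (by positivity), Real.log_div (by positivity) (by positivity),
      Real.log_mul (by positivity) (by positivity), Real.log_pow]
    push_cast; ring
  have hMk : Real.log (M / κ) = ℓ - Real.log κ := by
    rw [Real.log_div (by positivity) (by positivity)]
  unfold Sbd
  rw [hB1, h30, hMk]
  have hC0 := C0_nonneg
  have key : (25 + 10 * C₁ + 4 * b + C0) * (t * (1 + ℓ)) ≥
      (10 + 10 * C₁ + 4 * b + C0) + 11 * t + 4 * ℓ := by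
    have h1 : 1 ≤ t * (1 + ℓ) := by nlinarith
    have h2 : t ≤ t * (1 + ℓ) := by nlinarith
    have h3 : ℓ ≤ t * (1 + ℓ) := by nlinarith
    have h4 : 0 ≤ 10 + 10 * C₁ + 4 * b + C0 := by linarith
    nlinarith
  linarith

/-- growth of `f` on a strip -/
theorem Dat.growth (D : Dat f h c₀ w₀ ρ₀) {ρ₁ y₀ η : ℝ} (hρ : ρ₁ < ρ₀) (hη : 0 < η)
    (hw1 : ∀ w ∈ closedBall w₀ ρ₁, η ≤ w.im) (hw2 : ∀ w ∈ closedBall w₀ ρ₁, w.im ≤ 2 * η) :
    ∃ C₁ : ℝ, 1 ≤ C₁ ∧ ∀ Y M : ℝ, 1 ≤ Y → 1 ≤ M → ∀ w ∈ closedBall w₀ ρ₁,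
      (∀ u : ℂ, |u.im - y₀| ≤ Y → ‖dif f u w‖ ≤ M) →
      ∀ u : ℂ, |u.im - y₀| ≤ Y → ‖f u w‖ ≤ C₁ * (1 + |u.re| + Y * M) := by
  set K : Set ℂ := (Icc (0 : ℝ) 1) ×ℂ (Icc (y₀ - η) (y₀ + η)) with hK
  have hKc : IsCompact K := isCompact_Icc.reProdIm isCompact_Icc
  have hKK : IsCompact (K ×ˢ closedBall w₀ ρ₁) := hKc.prod (isCompact_closedBall _ _)
  have hcont : ContinuousOn (fun p : ℂ × ℂ => f p.1 p.2) (K ×ˢ closedBall w₀ ρ₁) := by
    rintro ⟨u, w⟩ ⟨_, hw⟩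
    exact (D.hf u w (closedBall_subset_ball hρ hw)).continuousAt.continuousWithinAt
  obtain ⟨B, hB⟩ := hKK.exists_bound_of_continuousOn hcont
  set W : ℝ := ‖w₀‖ + |ρ₁| with hW
  have hW0 : 0 ≤ W := by positivity
  set cn : ℝ := 1 / η + 1 with hcn
  have hcn0 : 0 < cn := by positivity
  refine ⟨|B| + ‖c₀‖ + (‖c₀‖ * W + 1) * cn + 1, ?_, ?_⟩
  · have : 0 ≤ |B| + ‖c₀‖ + (‖c₀‖ * W + 1) * cn := by positivity
    linarith
  · intro Y M hY hM w hw hd u hu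
    have hwW : ‖w‖ ≤ W := by
      have h1 : ‖w - w₀‖ ≤ ρ₁ := by simpa [dist_eq_norm] using hw
      have h2 : ‖w‖ ≤ ‖w₀‖ + ‖w - w₀‖ := by
        have := norm_add_le w₀ (w - w₀)
        simpa using this
      rw [hW]
      linarith [le_abs_self ρ₁]
    have hb : ∀ u : ℂ, 0 ≤ u.re → u.re ≤ 1 → |u.im - y₀| ≤ η → ‖f u w‖ ≤ |B| := by
      intro u h1 h2 h3
      refine (hB (u, w) ⟨?_, hw⟩).trans (le_abs_self _)
      rw [hK, Complex.mem_reProdIm]
      rw [abs_le] at h3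
      exact ⟨⟨h1, h2⟩, ⟨by linarith [h3.1], by linarith [h3.2]⟩⟩
    set n : ℕ := ⌈Y / η⌉₊ with hn
    have hn1 : Y / η ≤ n := Nat.le_ceil _
    have hn2 : (n : ℝ) < Y / η + 1 := Nat.ceil_lt_add_one (by positivity)
    have hn3 : (n : ℝ) ≤ cn * Y := by
      have : cn * Y = Y / η + Y := by rw [hcn]; ring
      linarith
    have hYn : |u.im - y₀| ≤ (n + 1) * η := by
      rw [div_le_iff₀ hη] at hn1
      nlinarith
    have h1 := D.telescope (closedBall_subset_ball hρ hw) hη (hw1 w hw) (hw2 w hw) hwW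
      (by linarith) hb hd n u hu hYn
    refine h1.trans ?_
    have hn0 : (0 : ℝ) ≤ n := Nat.cast_nonneg n
    have e1 : (n : ℝ) * M ≤ cn * (Y * M) := by nlinarith
    have e2 : (n : ℝ) * W ≤ cn * W * (Y * M) := by
      have : (n : ℝ) ≤ cn * (Y * M) := by
        have : cn * Y ≤ cn * (Y * M) := by gcongr; nlinarith
        linarith
      nlinarith
    have hYM : 0 ≤ Y * M := by positivity
    have hu0 := abs_nonneg u.re
    have hB0 := abs_nonneg B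
    have hc0 := norm_nonneg c₀
    have e3 : ‖c₀‖ * (n * W) ≤ ‖c₀‖ * (cn * W * (Y * M)) := by gcongr
    have e4 : 0 ≤ (|B| + 1) * |u.re| + 1 * (Y * M) + (|B| + ‖c₀‖) * (Y * M) +
      (‖c₀‖ * W + 1) * cn * (1 + |u.re|) := by positivity
    nlinarith


theorem norm_deriv_le_of_ball {F : ℂ → ℂ} {z : ℂ} {κ C : ℝ} (hκ : 0 < κ)
    (hF : ∀ w ∈ closedBall z κ, DifferentiableAt ℂ F w) (hC : ∀ w ∈ closedBall z κ, ‖F w‖ ≤ C) :
    ‖deriv F z‖ ≤ C / κ := by
  refine Complex.norm_deriv_le_of_forall_mem_sphere_norm_le hκ ?_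
    fun w hw => hC w (sphere_subset_closedBall hw)
  refine DifferentiableOn.diffContOnCl ?_
  rw [closure_ball z hκ.ne']
  exact fun w hw => (hF w hw).differentiableWithinAt

theorem im_sub_le {z w : ℂ} {κ : ℝ} (h : w ∈ closedBall z κ) (y₀ : ℝ) :
    |w.im - y₀| ≤ |z.im - y₀| + κ := by
  rw [mem_closedBall, dist_eq_norm] at h
  have h1 : |(w - z).im| ≤ κ := (Complex.abs_im_le_norm _).trans h
  rw [Complex.sub_im] at h1
  have h2 : w.im - y₀ = (z.im - y₀) + (w.im - z.im) := by ring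
  rw [h2]
  exact (abs_add_le _ _).trans (by linarith)

theorem re_le_of_ball {z w : ℂ} {κ : ℝ} (h : w ∈ closedBall z κ) : |w.re| ≤ |z.re| + κ := by
  rw [mem_closedBall, dist_eq_norm] at h
  have h1 : |(w - z).re| ≤ κ := (Complex.abs_re_le_norm _).trans h
  rw [Complex.sub_re] at h1
  have h2 : w.re = z.re + (w.re - z.re) := by ring
  rw [h2]
  exact (abs_add_le _ _).trans (by linarith)

/-- the bound of the bracket -/
theorem Dat.bracket_le (D : Dat f h c₀ w₀ ρ₀) {ρ₁ y₀ C₁ : ℝ} (hρ : ρ₁ < ρ₀) (hC1 : 1 ≤ C₁)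
    (hgr : ∀ Y M : ℝ, 1 ≤ Y → 1 ≤ M → ∀ w ∈ closedBall w₀ ρ₁,
      (∀ u : ℂ, |u.im - y₀| ≤ Y → ‖dif f u w‖ ≤ M) →
      ∀ u : ℂ, |u.im - y₀| ≤ Y → ‖f u w‖ ≤ C₁ * (1 + |u.re| + Y * M))
    {y κ ρ M : ℝ} (hy : 1 ≤ y) (hκ : 0 < κ) (hκ1 : κ ≤ 1) (hρκ : ρ + κ ≤ ρ₁) (hM1 : 1 ≤ M)
    (hM : ∀ u w, |u.im - y₀| ≤ y + 4 * κ → w ∈ closedBall w₀ (ρ + κ) → ‖dif f u w‖ ≤ M)
    {u w : ℂ} (hu : |u.im - y₀| ≤ y + κ) (hre : |u.re| ≤ 2 + y) (hw : w ∈ closedBall w₀ ρ) :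
    ‖h u w * Complex.sin (dif f u w) ^ 2‖ ≤ 20 * C₁ * y * M ^ 2 / κ ^ 2 := by
  have hwκ : ∀ v ∈ closedBall w κ, v ∈ closedBall w₀ (ρ + κ) := by
    intro v hv
    rw [mem_closedBall] at hv hw ⊢
    linarith [dist_triangle v w w₀]
  have hw1 : ∀ v ∈ closedBall w κ, v ∈ closedBall w₀ ρ₁ := fun v hv =>
    closedBall_subset_closedBall hρκ (hwκ v hv)
  have hw0 : ∀ v ∈ closedBall w κ, v ∈ ball w₀ ρ₀ := fun v hv =>
    closedBall_subset_ball hρ (hw1 v hv)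
  have hwc : w ∈ closedBall w κ := mem_closedBall_self hκ.le
  have hwb : w ∈ ball w₀ ρ₀ := hw0 w hwc
  have huκ : ∀ v ∈ closedBall u κ, |v.im - y₀| ≤ y + 4 * κ := by
    intro v hv
    have := im_sub_le hv y₀
    linarith
  have hfb : ∀ v w' : ℂ, |v.im - y₀| ≤ y + 4 * κ → |v.re| ≤ 3 + y → w' ∈ closedBall w κ →
      ‖f v w'‖ ≤ 10 * C₁ * y * M := by
    intro v w' hv hvr hw'
    have h1 := hgr (y + 4 * κ) M (by linarith) hM1 w' (hw1 w' hw')
      (fun u hu => hM u w' hu (hwκ w' hw')) v hv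
    refine h1.trans ?_
    have h2 : 1 + |v.re| + (y + 4 * κ) * M ≤ 10 * y * M := by
      have : (y + 4 * κ) * M ≤ 5 * y * M := by gcongr; linarith
      nlinarith
    calc C₁ * (1 + |v.re| + (y + 4 * κ) * M) ≤ C₁ * (10 * y * M) := by gcongr
      _ = _ := by ring
  rw [← D.eq u w hwb]
  have b1 : ‖deriv (fun u => f u w) u‖ ≤ 10 * C₁ * y * M / κ := by
    refine norm_deriv_le_of_ball hκ (fun v _ => (slice1 (D.hf v w hwb)).differentiableAt)
      fun v hv => hfb v w (huκ v hv) ?_ hwc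
    have := re_le_of_ball hv
    linarith
  have b2 : ‖deriv (fun w => f u w) w‖ ≤ 10 * C₁ * y * M / κ := by
    refine norm_deriv_le_of_ball hκ (fun v hv => (slice2 (D.hf u v (hw0 v hv))).differentiableAt)
      fun v hv => hfb u v (by linarith) (by linarith) hv
  have b3 : ‖deriv (fun u => dif f u w) u‖ ≤ M / κ := by
    refine norm_deriv_le_of_ball hκ (fun v _ => (slice1 (D.dif_an v hwb)).differentiableAt)
      fun v hv => hM v w (huκ v hv) (hwκ w hwc)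
  have b4 : ‖deriv (fun w => dif f u w) w‖ ≤ M / κ := by
    refine norm_deriv_le_of_ball hκ (fun v hv => (slice2 (D.dif_an u (hw0 v hv))).differentiableAt)
      fun v hv => hM u v (by linarith) (hwκ v hv)
  refine (norm_sub_le _ _).trans ?_
  rw [norm_mul, norm_mul]
  have e1 : ‖deriv (fun u => f u w) u‖ * ‖deriv (fun w => dif f u w) w‖ ≤
      (10 * C₁ * y * M / κ) * (M / κ) := by gcongr
  have e2 : ‖deriv (fun w => f u w) w‖ * ‖deriv (fun u => dif f u w) u‖ ≤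
      (10 * C₁ * y * M / κ) * (M / κ) := by gcongr
  refine (add_le_add e1 e2).trans (le_of_eq ?_)
  field_simp
  ring

theorem step_num {t ℓ b : ℝ} (ht1 : 1 ≤ t) (hℓ0 : 0 ≤ ℓ) (hb : 0 ≤ b) :
    4 * (2 * t) * b ≤ 8 * b * (t ^ 3 * (1 + ℓ)) := by
  have h2 : t ≤ t ^ 3 := le_self_pow₀ ht1 (by norm_num)
  have h3 : t ^ 3 ≤ t ^ 3 * (1 + ℓ) := le_mul_of_one_le_right (by positivity) (by linarith)
  have h1 : t ≤ t ^ 3 * (1 + ℓ) := h2.trans h3
  have h4 : 8 * b * t ≤ 8 * b * (t ^ 3 * (1 + ℓ)) := by gcongr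
  linarith

/-- **one step** of the growth estimate -/
theorem Dat.step (D : Dat f h c₀ w₀ ρ₀) {ρ₁ y₀ η b : ℝ} (hρ : ρ₁ < ρ₀) (hη : 0 < η)
    (hw1 : ∀ w ∈ closedBall w₀ ρ₁, η ≤ w.im) (hw2 : ∀ w ∈ closedBall w₀ ρ₁, w.im ≤ 2 * η)
    (hb : 0 ≤ b)
    (hlow : ∀ x : ℝ, 0 ≤ x → x ≤ 1 → ∀ w ∈ closedBall w₀ ρ₁,
      Real.exp (-b) ≤ ‖deriv (fun u => dif f u w) (x + y₀ * I)‖ ∧
      Real.exp (-b) ≤ ‖h (x + y₀ * I) w‖ ∧
      Real.exp (-b) ≤ ‖Complex.sin (dif f (x + y₀ * I) w)‖ ∧ ‖dif f (x + y₀ * I) w‖ ≤ b) :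
    ∃ C : ℝ, 1 ≤ C ∧ ∀ y κ ρ M : ℝ, 1 ≤ y → 0 < κ → κ ≤ 1 → ρ + κ ≤ ρ₁ → 1 ≤ M →
      (∀ u w, |u.im - y₀| ≤ y + 4 * κ → w ∈ closedBall w₀ (ρ + κ) → ‖dif f u w‖ ≤ M) →
      ∀ u w, |u.im - y₀| ≤ y → w ∈ closedBall w₀ ρ →
        ‖dif f u w‖ ≤ C * ((y / κ) ^ 3 * (1 + Real.log M)) := by
  obtain ⟨C₁, hC1, hgr⟩ := D.growth (y₀ := y₀) hρ hη hw1 hw2
  set C' : ℝ := 25 + 10 * C₁ + 4 * b + C0 with hC'
  have hC0 := C0_nonneg
  have hC'0 : 1 ≤ C' := by rw [hC']; linarith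
  refine ⟨64 * C' + 8 * b, by linarith, ?_⟩
  intro y κ ρ M hy hκ hκ1 hρκ hM1 hM
  -- reduction to `0 ≤ Re u ≤ 1`
  suffices H : ∀ u w, 0 ≤ u.re → u.re ≤ 1 → |u.im - y₀| ≤ y → w ∈ closedBall w₀ ρ →
      ‖dif f u w‖ ≤ (64 * C' + 8 * b) * ((y / κ) ^ 3 * (1 + Real.log M)) by
    intro u w hu hw
    have hwb : w ∈ ball w₀ ρ₀ :=
      closedBall_subset_ball hρ (closedBall_subset_closedBall (by linarith) hw)
    have h1 := D.dif_per_int u hwb (-⌊u.re⌋)
    rw [← h1]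
    refine H _ w ?_ ?_ (by simpa using hu) hw
    · simp only [Complex.add_re, Complex.intCast_re]
      push_cast
      linarith [Int.floor_le u.re]
    · simp only [Complex.add_re, Complex.intCast_re]
      push_cast
      linarith [Int.lt_floor_add_one u.re]
  intro u w hu0 hu1 hu hw
  have hwρ1 : w ∈ closedBall w₀ ρ₁ := closedBall_subset_closedBall (by linarith) hw
  have hwρκ : w ∈ closedBall w₀ (ρ + κ) := closedBall_subset_closedBall (by linarith) hw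
  have hwb : w ∈ ball w₀ ρ₀ := closedBall_subset_ball hρ hwρ1
  obtain ⟨hl1, hl2, hl3, hl4⟩ := hlow u.re hu0 hu1 w hwρ1
  set c : ℂ := (u.re : ℂ) + y₀ * I with hc
  have hcre : c.re = u.re := by simp [hc]
  have hcim : c.im = y₀ := by simp [hc]
  have han : ∀ v, AnalyticAt ℂ (fun u => dif f u w) v := fun v => slice1 (D.dif_an v hwb)
  have hstrip : ∀ r v, v ∈ closedBall c r → |v.im - y₀| ≤ r := by
    intro r v hv
    have := im_sub_le hv y₀
    rw [hcim, sub_self, abs_zero, zero_add] at this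
    exact this
  have hB1pos : 0 < 20 * C₁ * y * M ^ 2 / κ ^ 2 := by positivity
  have him := im_average_le (d := fun u => dif f u w) (h := fun u => h u w) (c := c)
    (R := y + κ) (κ := κ) (M := M) (B1 := Real.log (20 * C₁ * y * M ^ 2 / κ ^ 2)) (b := b)
    (by linarith) hκ hκ1 (fun v _ => han v)
    (fun v _ => (D.hh w hwb).analyticAt v) hM1
    (fun v hv => hM v w (by linarith [hstrip _ v hv]) hwρκ) ?_ hb hl1 hl2 hl3
  · have hS := Sbd_le hy hκ hκ1 hM1 hC1 hb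
    rw [← hC'] at hS
    set t : ℝ := y / κ with ht
    set ℓ : ℝ := Real.log M with hℓ
    have hℓ0 : 0 ≤ ℓ := Real.log_nonneg hM1
    have ht1 : 1 ≤ t := by rw [ht, one_le_div hκ]; linarith
    have hS' : 0 < C' * (t * (1 + ℓ)) := by positivity
    have hu' : u ∈ closedBall c (y + κ - κ) := by
      rw [mem_closedBall, dist_eq_norm, add_sub_cancel_right]
      have e : u - c = ((u.im - y₀ : ℝ) : ℂ) * I := by
        apply Complex.ext <;> simp [hc]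
      rw [e, norm_mul, Complex.norm_I, mul_one, Complex.norm_real]
      exact hu
    have hfin := norm_le_of_im_average hκ (by linarith) (fun v _ => han v) hS' (him.trans hS) hu'
    refine hfin.trans ?_
    have hRt : (y + κ) / κ ≤ 2 * t := by
      rw [ht, div_le_iff₀ hκ]
      have : 2 * (y / κ) * κ = 2 * y := by field_simp
      linarith
    have hR0 : 0 ≤ (y + κ) / κ := by positivity
    have e1 : 16 * ((y + κ) / κ) ^ 2 * (C' * (t * (1 + ℓ))) ≤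
        16 * (2 * t) ^ 2 * (C' * (t * (1 + ℓ))) := by gcongr
    have e2 : 4 * ((y + κ) / κ) * ‖dif f c w‖ ≤ 4 * (2 * t) * b := by gcongr
    have e3 : 4 * (2 * t) * b ≤ 8 * b * (t ^ 3 * (1 + ℓ)) := step_num ht1 hℓ0 hb
    have e4 : 16 * (2 * t) ^ 2 * (C' * (t * (1 + ℓ))) = 64 * C' * (t ^ 3 * (1 + ℓ)) := by ring
    linarith
  · intro v hv
    rw [Real.exp_log hB1pos]
    have hv' : v ∈ closedBall c (y + κ) := sphere_subset_closedBall hv
    refine D.bracket_le hρ hC1 hgr hy hκ hκ1 hρκ hM1 hM (hstrip _ v hv') ?_ hw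
    have := re_le_of_ball hv'
    rw [hcre, abs_of_nonneg hu0] at this
    linarith

end Vale.Agent.P097.H330
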