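import Vale.Agent.P097.H330.Schwarz

/-! P097, endgame (Case III), part 5: two variables. -/

namespace Vale.Agent.P097.H330

open Complex Metric Set Real MeasureTheory Filter

/-- the difference along the orbit -/
def dif (f : ℂ → ℂ → ℂ) (u w : ℂ) : ℂ := f (u + w) w - f u w

/-- the data of the core of Case III: `f = φ / 2` with `φ` the direction of the line `L`, and the
Jacobian identity `{f, d} = h sin² d`. -/
structure Dat (f h : ℂ → ℂ → ℂ) (c₀ w₀ : ℂ) (ρ₀ : ℝ) : Prop where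
  pos : 0 < ρ₀
  hf : ∀ u : ℂ, ∀ w ∈ ball w₀ ρ₀, AnalyticAt ℂ (fun p : ℂ × ℂ => f p.1 p.2) (u, w)
  per : ∀ u : ℂ, ∀ w ∈ ball w₀ ρ₀, f (u + 1) w = f u w + c₀
  hh : ∀ w ∈ ball w₀ ρ₀, Differentiable ℂ (fun u => h u w)
  hc : ∀ u : ℂ, ∀ w ∈ ball w₀ ρ₀, ContinuousAt (fun p : ℂ × ℂ => h p.1 p.2) (u, w)
  eq : ∀ u : ℂ, ∀ w ∈ ball w₀ ρ₀,
    deriv (fun u => f u w) u * deriv (fun w => dif f u w) w -
      deriv (fun w => f u w) w * deriv (fun u => dif f u w) u = h u w * Complex.sin (dif f u w) ^ 2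

variable {f h : ℂ → ℂ → ℂ} {c₀ w₀ : ℂ} {ρ₀ : ℝ}

theorem Dat.dif_an (D : Dat f h c₀ w₀ ρ₀) (u : ℂ) {w : ℂ} (hw : w ∈ ball w₀ ρ₀) :
    AnalyticAt ℂ (fun p : ℂ × ℂ => dif f p.1 p.2) (u, w) := by
  unfold dif
  have h1 : AnalyticAt ℂ (fun p : ℂ × ℂ => ((p.1 + p.2, p.2) : ℂ × ℂ)) (u, w) :=
    (analyticAt_fst.add analyticAt_snd).prod analyticAt_snd
  have h2 := AnalyticAt.comp (g := fun p : ℂ × ℂ => f p.1 p.2)
    (f := fun p : ℂ × ℂ => ((p.1 + p.2, p.2) : ℂ × ℂ)) (D.hf (u + w) w hw) h1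
  exact h2.sub (D.hf u w hw)

theorem slice1 {F : ℂ → ℂ → ℂ} {u w : ℂ} (hF : AnalyticAt ℂ (fun p : ℂ × ℂ => F p.1 p.2) (u, w)) :
    AnalyticAt ℂ (fun u => F u w) u := by
  have h1 : AnalyticAt ℂ (fun u : ℂ => ((u, w) : ℂ × ℂ)) u := by fun_prop
  exact AnalyticAt.comp (g := fun p : ℂ × ℂ => F p.1 p.2) (f := fun u : ℂ => ((u, w) : ℂ × ℂ)) hF h1

theorem slice2 {F : ℂ → ℂ → ℂ} {u w : ℂ} (hF : AnalyticAt ℂ (fun p : ℂ × ℂ => F p.1 p.2) (u, w)) :
    AnalyticAt ℂ (fun w => F u w) w := by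
  have h1 : AnalyticAt ℂ (fun w : ℂ => ((u, w) : ℂ × ℂ)) w := by fun_prop
  exact AnalyticAt.comp (g := fun p : ℂ × ℂ => F p.1 p.2) (f := fun w : ℂ => ((u, w) : ℂ × ℂ)) hF h1

/-- the partial derivative in the first variable is jointly continuous -/
theorem deriv1_cont {F : ℂ → ℂ → ℂ} {u w : ℂ}
    (hF : AnalyticAt ℂ (fun p : ℂ × ℂ => F p.1 p.2) (u, w)) :
    ContinuousAt (fun p : ℂ × ℂ => deriv (fun u => F u p.2) p.1) (u, w) := by
  have h1 : ContinuousAt (fun p => fderiv ℂ (fun p : ℂ × ℂ => F p.1 p.2) p (1, 0)) (u, w) := by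
    have := hF.fderiv.continuousAt
    exact this.clm_apply continuousAt_const
  refine h1.congr ?_
  filter_upwards [hF.eventually_analyticAt] with p hp
  have h2 : HasFDerivAt (fun p : ℂ × ℂ => F p.1 p.2) (fderiv ℂ (fun p : ℂ × ℂ => F p.1 p.2) p)
      (p.1, p.2) := hp.differentiableAt.hasFDerivAt
  have h3 : HasDerivAt (fun u : ℂ => ((u, p.2) : ℂ × ℂ)) (1, 0) p.1 :=
    (hasDerivAt_id p.1).prodMk (hasDerivAt_const p.1 p.2)
  exact (h2.comp_hasDerivAt p.1 h3).deriv.symm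

theorem Dat.dif_per (D : Dat f h c₀ w₀ ρ₀) (u : ℂ) {w : ℂ} (hw : w ∈ ball w₀ ρ₀) :
    dif f (u + 1) w = dif f u w := by
  unfold dif
  rw [D.per u w hw, show u + 1 + w = u + w + 1 by ring, D.per (u + w) w hw]
  ring

theorem Dat.dif_per_int (D : Dat f h c₀ w₀ ρ₀) (u : ℂ) {w : ℂ} (hw : w ∈ ball w₀ ρ₀) (n : ℤ) :
    dif f (u + n) w = dif f u w := by
  have hp : Function.Periodic (fun u => dif f u w) 1 := fun u => D.dif_per u hw
  have := hp.int_mul n u
  simpa using this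

theorem Dat.per_int (D : Dat f h c₀ w₀ ρ₀) (u : ℂ) {w : ℂ} (hw : w ∈ ball w₀ ρ₀) (n : ℤ) :
    f (u + n) w = f u w + n * c₀ := by
  have hp : Function.Periodic (fun u => f u w - u * c₀) 1 := fun u => by
    simp only []
    rw [D.per u w hw]; ring
  have := hp.int_mul n u
  simp only [mul_one] at this
  linear_combination this

/-- a bound of a continuous periodic function on a strip -/
theorem Dat.strip_bound (D : Dat f h c₀ w₀ ρ₀) {ρ₁ : ℝ} (hρ : ρ₁ < ρ₀) (y₀ Y : ℝ) :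
    ∃ M, ∀ u w, |u.im - y₀| ≤ Y → w ∈ closedBall w₀ ρ₁ → ‖dif f u w‖ ≤ M := by
  set K : Set ℂ := (Icc (0 : ℝ) 1) ×ℂ (Icc (y₀ - Y) (y₀ + Y)) with hK
  have hKc : IsCompact K := isCompact_Icc.reProdIm isCompact_Icc
  have hKK : IsCompact (K ×ˢ closedBall w₀ ρ₁) := hKc.prod (isCompact_closedBall _ _)
  have hcont : ContinuousOn (fun p : ℂ × ℂ => dif f p.1 p.2) (K ×ˢ closedBall w₀ ρ₁) := by
    rintro ⟨u, w⟩ ⟨_, hw⟩
    exact (D.dif_an u (closedBall_subset_ball hρ hw)).continuousAt.continuousWithinAt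
  obtain ⟨M, hM⟩ := hKK.exists_bound_of_continuousOn hcont
  refine ⟨M, fun u w hu hw => ?_⟩
  have hwb := closedBall_subset_ball hρ hw
  have h1 := D.dif_per_int u hwb (-⌊u.re⌋)
  rw [← h1]
  refine hM (u + ((-⌊u.re⌋ : ℤ) : ℂ), w) ⟨?_, hw⟩
  rw [hK, Complex.mem_reProdIm]
  rw [abs_le] at hu
  refine ⟨?_, ?_⟩
  · simp only [Complex.add_re, Complex.intCast_re]
    push_cast
    constructor
    · linarith [Int.floor_le u.re]
    · linarith [Int.lt_floor_add_one u.re]
  · simp only [Complex.add_im, Complex.intCast_im, add_zero]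
    constructor <;> linarith [hu.1, hu.2]


/-- telescoping: `f` is controlled by its values near the line `Im u = y₀` and by `d` -/
theorem Dat.telescope (D : Dat f h c₀ w₀ ρ₀) {w : ℂ} (hw : w ∈ ball w₀ ρ₀) {y₀ η B M Y W : ℝ}
    (hη : 0 < η) (hw1 : η ≤ w.im) (hw2 : w.im ≤ 2 * η) (hW : ‖w‖ ≤ W) (hM0 : 0 ≤ M)
    (hB : ∀ u : ℂ, 0 ≤ u.re → u.re ≤ 1 → |u.im - y₀| ≤ η → ‖f u w‖ ≤ B)
    (hM : ∀ u : ℂ, |u.im - y₀| ≤ Y → ‖dif f u w‖ ≤ M) (n : ℕ) :
    ∀ u : ℂ, |u.im - y₀| ≤ Y → |u.im - y₀| ≤ (n + 1) * η →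
      ‖f u w‖ ≤ B + ‖c₀‖ * (1 + |u.re| + n * W) + n * M := by
  induction n with
  | zero =>
    intro u _ hu
    simp only [Nat.cast_zero, zero_add, one_mul, zero_mul, add_zero] at hu ⊢
    have h1 := D.per_int u hw (-⌊u.re⌋)
    have h2 : ‖f (u + ((-⌊u.re⌋ : ℤ) : ℂ)) w‖ ≤ B := by
      apply hB
      · simp only [Complex.add_re, Complex.intCast_re]
        push_cast
        linarith [Int.floor_le u.re]
      · simp only [Complex.add_re, Complex.intCast_re]
        push_cast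
        linarith [Int.lt_floor_add_one u.re]
      · simpa using hu
    have h3 : f u w = f (u + ((-⌊u.re⌋ : ℤ) : ℂ)) w + (⌊u.re⌋ : ℂ) * c₀ := by
      rw [h1]; push_cast; ring
    rw [h3]
    refine (norm_add_le _ _).trans ?_
    rw [norm_mul, Complex.norm_intCast]
    have h4 : |(⌊u.re⌋ : ℝ)| ≤ 1 + |u.re| := by
      rw [abs_le]
      constructor
      · have := Int.lt_floor_add_one u.re
        have := neg_abs_le u.re
        linarith
      · have := Int.floor_le u.re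
        have := le_abs_self u.re
        linarith
    have h5 : |(⌊u.re⌋ : ℝ)| * ‖c₀‖ ≤ ‖c₀‖ * (1 + |u.re|) := by
      rw [mul_comm]; gcongr
    linarith
  | succ n ih =>
    intro u hY hu
    have hW0 : 0 ≤ W := (norm_nonneg _).trans hW
    have hn : (0 : ℝ) ≤ n := Nat.cast_nonneg n
    push_cast at hu ⊢
    have hre : |w.re| ≤ W := (Complex.abs_re_le_norm w).trans hW
    rcases le_or_gt |u.im - y₀| η with h0 | h0
    · have h1 : |u.im - y₀| ≤ (n + 1) * η := by nlinarith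
      have h2 := ih u hY h1
      have : 0 ≤ ‖c₀‖ * W := by positivity
      nlinarith
    · rcases le_total 0 (u.im - y₀) with hs | hs
      · -- go down
        rw [abs_of_nonneg hs] at h0 hu hY
        have e : f u w = f (u - w) w + dif f (u - w) w := by
          unfold dif; rw [sub_add_cancel]; ring
        have him : (u - w).im - y₀ = (u.im - y₀) - w.im := by rw [Complex.sub_im]; ring
        have hY' : |(u - w).im - y₀| ≤ Y := by
          rw [him, abs_le]; constructor <;> linarith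
        have hn' : |(u - w).im - y₀| ≤ (n + 1) * η := by
          rw [him, abs_le]; constructor <;> nlinarith
        have h1 := ih (u - w) hY' hn'
        have h2 := hM (u - w) hY'
        have h3 : |(u - w).re| ≤ |u.re| + W := by
          rw [Complex.sub_re]
          refine (abs_sub _ _).trans ?_
          linarith
        rw [e]
        refine (norm_add_le _ _).trans ?_
        have h4 : ‖c₀‖ * (1 + |(u - w).re| + n * W) ≤ ‖c₀‖ * (1 + |u.re| + (n + 1) * W) := by
          gcongr ‖c₀‖ * ?_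
          linarith
        linarith
      · rw [abs_of_nonpos hs] at h0 hu hY
        have e : f u w = f (u + w) w - dif f u w := by
          unfold dif; ring
        have him : (u + w).im - y₀ = (u.im - y₀) + w.im := by rw [Complex.add_im]; ring
        have hY' : |(u + w).im - y₀| ≤ Y := by
          rw [him, abs_le]; constructor <;> linarith
        have hn' : |(u + w).im - y₀| ≤ (n + 1) * η := by
          rw [him, abs_le]; constructor <;> nlinarith
        have h1 := ih (u + w) hY' hn'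
        have h2 := hM u (by rw [abs_of_nonpos hs]; exact hY)
        have h3 : |(u + w).re| ≤ |u.re| + W := by
          rw [Complex.add_re]
          refine (abs_add_le _ _).trans ?_
          linarith
        rw [e]
        refine (norm_sub_le _ _).trans ?_
        have h4 : ‖c₀‖ * (1 + |(u + w).re| + n * W) ≤ ‖c₀‖ * (1 + |u.re| + (n + 1) * W) := by
          gcongr ‖c₀‖ * ?_
          linarith
        linarith

end Vale.Agent.P097.H330
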